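import Mathlib

/-!
# The Hilbert-Samuel multiplicity of a local ring (as a limit)

Definition used by the P202 hand-ins; it is the definition given in the problem statement.
-/

namespace Vale.Agent.H54

open IsLocalRing Filter Topology

/-- `IsHilbertSamuelMultiplicity A e` says that the real number `e` is the Hilbert-Samuel
multiplicity of the local ring `A`: writing `d` for the Krull dimension of `A` and `m` for its
maximal ideal, `d! * length_A (A / m ^ N) / N ^ d` tends to `e` as `N → ∞`. -/
def IsHilbertSamuelMultiplicity (A : Type*) [CommRing A] [IsLocalRing A] (e : ℝ) : Prop :=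
  ∃ d : ℕ, ringKrullDim A = d ∧
    Tendsto (fun N : ℕ => (d.factorial : ℝ) *
      ((Module.length A (A ⧸ maximalIdeal A ^ N)).toNat : ℝ) / (N : ℝ) ^ d) atTop (𝓝 e)

end Vale.Agent.H54
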