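import Mathlib
import Vale.Agent.H54.HSMult

/-!
# An elementary inequality towards Lech's conjecture

Support file for P202.  For a flat local homomorphism `(R, m) → (S, n)` with `n ^ k ≤ m ^ j S`
we show `ℓ(S / m S) * j ^ d * e(R) ≤ k ^ d * e(S)`, where `d = dim R = dim S`.
-/

namespace Vale.Agent.H54

open IsLocalRing Filter Topology

/-- Over a Noetherian local ring the quotients by powers of the maximal ideal have finite
length. -/
theorem length_quotient_maximalIdeal_pow_ne_top (A : Type*) [CommRing A] [IsLocalRing A]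
    [IsNoetherianRing A] (M : ℕ) :
    Module.length A (A ⧸ maximalIdeal A ^ M) ≠ ⊤ := by
  by_cases hI : maximalIdeal A ^ M = ⊤
  · have : Subsingleton (A ⧸ maximalIdeal A ^ M) := Ideal.Quotient.subsingleton_iff.mpr hI
    simp
  have hnt : Nontrivial (A ⧸ maximalIdeal A ^ M) := Ideal.Quotient.nontrivial_iff.mpr hI
  have hloc : IsLocalRing (A ⧸ maximalIdeal A ^ M) :=
    IsLocalRing.of_surjective' (Ideal.Quotient.mk _) Ideal.Quotient.mk_surjective
  have hlh : IsLocalHom (Ideal.Quotient.mk (maximalIdeal A ^ M)) :=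
    IsLocalHom.of_surjective _ Ideal.Quotient.mk_surjective
  have hmax : (maximalIdeal A).map (Ideal.Quotient.mk (maximalIdeal A ^ M))
      = maximalIdeal (A ⧸ maximalIdeal A ^ M) := by
    ext x
    obtain ⟨x, rfl⟩ := Ideal.Quotient.mk_surjective x
    simp [sup_eq_left.mpr (le_maximalIdeal hI)]
  have hnil : IsNilpotent (maximalIdeal (A ⧸ maximalIdeal A ^ M)) := by
    refine ⟨M, ?_⟩
    rw [← hmax, ← Ideal.map_pow, Ideal.zero_eq_bot, Ideal.map_eq_bot_iff_le_ker, Ideal.mk_ker]
  have hart : IsArtinianRing (A ⧸ maximalIdeal A ^ M) :=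
    (isArtinianRing_iff_isNilpotent_maximalIdeal _).mpr hnil
  have hfin : IsFiniteLength (A ⧸ maximalIdeal A ^ M) (A ⧸ maximalIdeal A ^ M) :=
    (isArtinianRing_iff_isFiniteLength _).mp hart
  rw [Module.length_eq_of_surjective (S := A) (R := A ⧸ maximalIdeal A ^ M)
    (M := A ⧸ maximalIdeal A ^ M) Ideal.Quotient.mk_surjective]
  exact Module.length_ne_top_iff.mpr hfin

section Flat

variable {R S : Type*} [CommRing R] [CommRing S] [IsLocalRing R] [IsLocalRing S]
  [Algebra R S] [IsLocalHom (algebraMap R S)] [Module.Flat R S]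

/-- Lengths of quotients by extended ideals along a flat local homomorphism. -/
theorem length_quotient_map_eq (I : Ideal R) :
    Module.length S (S ⧸ I.map (algebraMap R S)) =
      Module.length R (R ⧸ I) *
        Module.length S (S ⧸ (maximalIdeal R).map (algebraMap R S)) := by
  rw [(Algebra.TensorProduct.quotIdealMapEquivTensorQuot S I).toLinearEquiv.length_eq]
  exact IsLocalRing.length_baseChange R S (R ⧸ I)

/-- If `n ^ q ≤ m ^ p S` then `ℓ_R(R / m ^ p) * ℓ_S(S / m S) ≤ ℓ_S(S / n ^ q)`. -/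
theorem length_mul_le_length_of_le (p q : ℕ)
    (h : maximalIdeal S ^ q ≤ (maximalIdeal R ^ p).map (algebraMap R S)) :
    Module.length R (R ⧸ maximalIdeal R ^ p) *
        Module.length S (S ⧸ (maximalIdeal R).map (algebraMap R S))
      ≤ Module.length S (S ⧸ maximalIdeal S ^ q) := by
  rw [← length_quotient_map_eq]
  exact Module.length_le_of_surjective (Submodule.factor h) (Submodule.factor_surjective h)

theorem length_mul_le_length_of_pow_le (j k N : ℕ)
    (hjk : maximalIdeal S ^ k ≤ (maximalIdeal R ^ j).map (algebraMap R S)) :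
    Module.length R (R ⧸ maximalIdeal R ^ (j * N)) *
        Module.length S (S ⧸ (maximalIdeal R).map (algebraMap R S))
      ≤ Module.length S (S ⧸ maximalIdeal S ^ (k * N)) := by
  apply length_mul_le_length_of_le
  rw [pow_mul, pow_mul, Ideal.map_pow]
  exact Ideal.pow_right_mono hjk N

/-- `ℓ_S(S / n ^ N) ≤ ℓ_R(R / m ^ N) * ℓ_S(S / m S)`, because `m ^ N S ≤ n ^ N`. -/
theorem length_le_length_mul (N : ℕ) :
    Module.length S (S ⧸ maximalIdeal S ^ N) ≤
      Module.length R (R ⧸ maximalIdeal R ^ N) *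
        Module.length S (S ⧸ (maximalIdeal R).map (algebraMap R S)) := by
  rw [← length_quotient_map_eq]
  have h : (maximalIdeal R ^ N).map (algebraMap R S) ≤ maximalIdeal S ^ N := by
    rw [Ideal.map_pow]
    exact Ideal.pow_right_mono (map_maximalIdeal_le (algebraMap R S)) N
  exact Module.length_le_of_surjective (Submodule.factor h) (Submodule.factor_surjective h)

omit [Module.Flat R S] in
/-- The closed fibre of a local homomorphism is a nonzero module, so its length is at least
one. -/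
theorem one_le_length_fibre :
    1 ≤ Module.length S (S ⧸ (maximalIdeal R).map (algebraMap R S)) := by
  have hne : (maximalIdeal R).map (algebraMap R S) ≠ ⊤ :=
    (map_maximalIdeal_lt_top (algebraMap R S)).ne
  have : Nontrivial (S ⧸ (maximalIdeal R).map (algebraMap R S)) :=
    Ideal.Quotient.nontrivial_iff.mpr hne
  exact Order.one_le_iff_pos.mpr Module.length_pos

end Flat

/-- For a flat local homomorphism of Noetherian local rings whose closed fibre has nilpotent
maximal ideal, source and target have the same Krull dimension. -/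
theorem ringKrullDim_eq_of_pow_le {R S : Type*} [CommRing R] [CommRing S] [IsLocalRing R]
    [IsLocalRing S] [IsNoetherianRing R] [IsNoetherianRing S] [Algebra R S] [IsLocalHom (algebraMap R S)]
    [Module.Flat R S] (k : ℕ)
    (hk : maximalIdeal S ^ k ≤ (maximalIdeal R).map (algebraMap R S)) :
    ringKrullDim S = ringKrullDim R := by
  have hI : (maximalIdeal R).map (algebraMap R S) ≤ maximalIdeal S :=
    map_maximalIdeal_le (algebraMap R S)
  have hprime : ((maximalIdeal S).map
      (Ideal.Quotient.mk ((maximalIdeal R).map (algebraMap R S)))).IsPrime :=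
    Ideal.isPrime_map_quotientMk_of_isPrime hI
  have hpow : ((maximalIdeal S).map
      (Ideal.Quotient.mk ((maximalIdeal R).map (algebraMap R S)))) ^ k = ⊥ := by
    rw [← Ideal.map_pow, eq_bot_iff]
    exact (Ideal.map_mono hk).trans (le_of_eq (Ideal.map_quotient_self _))
  have h0 : ((maximalIdeal S).map
      (Ideal.Quotient.mk ((maximalIdeal R).map (algebraMap R S)))).height = 0 := by
    rw [Ideal.height_eq_zero_iff]
    refine ⟨⟨hprime, bot_le⟩, ?_⟩
    rintro p ⟨hp, -⟩ -
    exact hp.le_of_pow_le (hpow ▸ bot_le)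
  have key := Ideal.height_eq_height_add_of_liesOver_of_hasGoingDown
    (maximalIdeal R) (maximalIdeal S)
  rw [h0, add_zero] at key
  rw [← IsLocalRing.maximalIdeal_height_eq_ringKrullDim,
    ← IsLocalRing.maximalIdeal_height_eq_ringKrullDim, key]

/-- A finite generating set of the maximal ideal of a Noetherian local ring such that every
relation among the generators has all its coefficients in the maximal ideal
(a minimal generating set). -/
theorem exists_finset_span_eq_maximalIdeal_and_coeff_mem (R : Type*) [CommRing R]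
    [IsLocalRing R] [IsNoetherianRing R] :
    ∃ s : Finset R, Ideal.span (s : Set R) = maximalIdeal R ∧
      ∀ c : R → R, ∑ x ∈ s, c x * x = 0 → ∀ x ∈ s, c x ∈ maximalIdeal R := by
  classical
  have hfg : ∃ n : ℕ, ∃ s : Finset R, s.card = n ∧ Ideal.span (s : Set R) = maximalIdeal R := by
    obtain ⟨s, hs⟩ := (IsNoetherian.noetherian (maximalIdeal R) : (maximalIdeal R).FG)
    exact ⟨s.card, s, rfl, hs⟩
  obtain ⟨s, hcard, hs⟩ := Nat.find_spec hfg
  refine ⟨s, hs, ?_⟩
  intro c hc x₀ hx₀
  by_contra hnot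
  have hu : IsUnit (c x₀) := by
    by_contra h
    exact hnot ((IsLocalRing.mem_maximalIdeal _).mpr h)
  -- `x₀` lies in the span of the other generators
  have hsum : c x₀ * x₀ = -∑ x ∈ s.erase x₀, c x * x := by
    rw [← Finset.add_sum_erase s (fun x => c x * x) hx₀] at hc
    exact eq_neg_of_add_eq_zero_left hc
  have hmem : c x₀ * x₀ ∈ Ideal.span ((s.erase x₀ : Finset R) : Set R) := by
    rw [hsum]
    refine neg_mem (Ideal.sum_mem _ fun x hx => ?_)
    exact Ideal.mul_mem_left _ _ (Ideal.subset_span (Finset.mem_coe.mpr hx))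
  have hx₀mem : x₀ ∈ Ideal.span ((s.erase x₀ : Finset R) : Set R) := by
    obtain ⟨u, hu'⟩ := hu
    have h1 : (↑u⁻¹ : R) * (c x₀ * x₀) = x₀ := by
      rw [← mul_assoc, ← hu', Units.inv_mul, one_mul]
    have h2 := Ideal.mul_mem_left _ (↑u⁻¹ : R) hmem
    rwa [h1] at h2
  have hspan : Ideal.span ((s.erase x₀ : Finset R) : Set R) = maximalIdeal R := by
    apply le_antisymm
    · rw [← hs]
      exact Ideal.span_mono (Finset.coe_subset.mpr (Finset.erase_subset _ _))
    · rw [← hs, Ideal.span_le]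
      intro y hy
      by_cases hyx : y = x₀
      · rw [hyx]; exact hx₀mem
      · exact Ideal.subset_span (Finset.mem_coe.mpr (Finset.mem_erase.mpr ⟨hyx, hy⟩))
  have hlt : (s.erase x₀).card < Nat.find hfg := by
    rw [Finset.card_erase_of_mem hx₀, hcard]
    exact Nat.sub_lt (hcard ▸ Finset.card_pos.mpr ⟨x₀, hx₀⟩) Nat.one_pos
  exact Nat.find_min hfg hlt ⟨s.erase x₀, rfl, hspan⟩

/-- Elements of an extended ideal are combinations of the images of the generators. -/
theorem exists_repr_of_mem_map_span {R S : Type*} [CommRing R] [CommRing S] [Algebra R S]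
    (s : Finset R) (z : S) (hz : z ∈ (Ideal.span (s : Set R)).map (algebraMap R S)) :
    ∃ u : R → S, z = ∑ x ∈ s, u x * algebraMap R S x := by
  classical
  rw [Ideal.map_span] at hz
  induction hz using Submodule.span_induction with
  | mem z hz =>
    obtain ⟨x, hx, rfl⟩ := hz
    refine ⟨fun y => if y = x then 1 else 0, ?_⟩
    simp only [ite_mul, one_mul, zero_mul]
    rw [Finset.sum_ite_eq' s x, if_pos (Finset.mem_coe.mp hx)]
  | zero => exact ⟨0, by simp⟩
  | add z w _ _ hz hw =>
    obtain ⟨u, rfl⟩ := hz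
    obtain ⟨u', rfl⟩ := hw
    exact ⟨u + u', by simp [add_mul, Finset.sum_add_distrib]⟩
  | smul r z _ hz =>
    obtain ⟨u, rfl⟩ := hz
    exact ⟨fun x => r * u x, by simp [Finset.mul_sum, mul_assoc]⟩

/-- **Key lemma.** Let `R → S` be flat, `R` Noetherian local.  If `a * b` and `c * b` lie in
`m S`, and `c` is independent of `a` modulo `m S` in the sense that `s * c - s' * a ∈ m S` forces
`s ∈ n`, then `a * b ∈ m S * n`. -/
theorem mul_mem_map_mul_of_indep {R S : Type*} [CommRing R] [CommRing S] [IsLocalRing R]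
    [IsLocalRing S] [IsNoetherianRing R] [Algebra R S] [Module.Flat R S] (a b c : S)
    (hab : a * b ∈ (maximalIdeal R).map (algebraMap R S))
    (hcb : c * b ∈ (maximalIdeal R).map (algebraMap R S))
    (hind : ∀ s s' : S, s * c - s' * a ∈ (maximalIdeal R).map (algebraMap R S) →
      s ∈ maximalIdeal S) :
    a * b ∈ (maximalIdeal R).map (algebraMap R S) * maximalIdeal S := by
  classical
  obtain ⟨gen, hgen, hcoef⟩ := exists_finset_span_eq_maximalIdeal_and_coeff_mem R
  rw [← hgen] at hab hcb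
  obtain ⟨u, hu⟩ := exists_repr_of_mem_map_span gen _ hab
  obtain ⟨u', hu'⟩ := exists_repr_of_mem_map_span gen _ hcb
  have hrel : ∑ i : gen, (i : R) • (u i * c - u' i * a) = 0 := by
    simp only [Algebra.smul_def]
    rw [Finset.sum_coe_sort gen (fun x => algebraMap R S x * (u x * c - u' x * a))]
    have h1 : ∑ x ∈ gen, algebraMap R S x * (u x * c - u' x * a)
        = c * ∑ x ∈ gen, u x * algebraMap R S x - a * ∑ x ∈ gen, u' x * algebraMap R S x := by
      rw [Finset.mul_sum, Finset.mul_sum, ← Finset.sum_sub_distrib]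
      exact Finset.sum_congr rfl fun x _ => by ring
    rw [h1, ← hu, ← hu']
    ring
  have key : Module.IsTrivialRelation (fun i : gen => (i : R))
      (fun i : gen => u i * c - u' i * a) :=
    Module.Flat.isTrivialRelation_of_sum_smul_eq_zero hrel
  obtain ⟨k, A, y, hA, hA0⟩ := key
  have hAm : ∀ (i : gen) (j : Fin k), A i j ∈ maximalIdeal R := by
    intro i j
    have h2 : ∑ x ∈ gen, (if h : x ∈ gen then A ⟨x, h⟩ j else 0) * x = 0 := by
      rw [← Finset.sum_coe_sort gen (fun x => (if h : x ∈ gen then A ⟨x, h⟩ j else 0) * x)]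
      rw [← hA0 j]
      refine Finset.sum_congr rfl fun i _ => ?_
      rw [dif_pos i.2, mul_comm]
    have h3 := hcoef (fun x => if h : x ∈ gen then A ⟨x, h⟩ j else 0) h2 i i.2
    simpa using h3
  have hmem : ∀ i : gen, u i * c - u' i * a ∈ (maximalIdeal R).map (algebraMap R S) := by
    intro i
    have hAi : u i * c - u' i * a = ∑ j, A i j • y j := hA i
    rw [hAi]
    refine Ideal.sum_mem _ fun j _ => ?_
    rw [Algebra.smul_def]
    exact Ideal.mul_mem_right _ _ (Ideal.mem_map_of_mem _ (hAm i j))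
  rw [hu]
  refine Ideal.sum_mem _ fun x hx => ?_
  rw [mul_comm (u x)]
  refine Ideal.mul_mem_mul (Ideal.mem_map_of_mem _ ?_) (hind _ _ (hmem ⟨x, hx⟩))
  rw [← hgen]
  exact Ideal.subset_span (Finset.mem_coe.mpr hx)

section SquareZero

variable {R S : Type*} [CommRing R] [CommRing S] [IsLocalRing R] [IsLocalRing S]
  [IsNoetherianRing R] [Algebra R S] [IsLocalHom (algebraMap R S)] [Module.Flat R S]

/-- If the closed fibre has square-zero, non-principal maximal ideal, then `n ^ 2 ≤ m S * n`. -/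
theorem maximalIdeal_sq_le_map_mul
    (hsq : maximalIdeal S ^ 2 ≤ (maximalIdeal R).map (algebraMap R S))
    (hnp : ∀ a : S, maximalIdeal S ≠
      Ideal.span {a} ⊔ (maximalIdeal R).map (algebraMap R S)) :
    maximalIdeal S ^ 2 ≤ (maximalIdeal R).map (algebraMap R S) * maximalIdeal S := by
  rw [pow_two, Ideal.mul_le]
  intro a ha b hb
  have hc : ∃ c ∈ maximalIdeal S, ∀ s s' : S,
      s * c - s' * a ∈ (maximalIdeal R).map (algebraMap R S) → s ∈ maximalIdeal S := by
    by_contra hcon
    apply hnp a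
    apply le_antisymm
    · intro c hc
      by_contra hcm
      apply hcon
      refine ⟨c, hc, fun s s' hmem => ?_⟩
      by_contra hs
      have hu : IsUnit s := by
        by_contra h
        exact hs ((IsLocalRing.mem_maximalIdeal _).mpr h)
      obtain ⟨v, rfl⟩ := hu
      apply hcm
      have hceq : c = (↑v⁻¹ : S) * s' * a + (↑v⁻¹ : S) * ((v : S) * c - s' * a) := by
        have h1 : (↑v⁻¹ : S) * (v : S) = 1 := Units.inv_mul v
        calc c = ((↑v⁻¹ : S) * (v : S)) * c := by rw [h1, one_mul]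
          _ = (↑v⁻¹ : S) * s' * a + (↑v⁻¹ : S) * ((v : S) * c - s' * a) := by ring
      rw [hceq]
      exact Ideal.add_mem _
        (Ideal.mem_sup_left (Ideal.mul_mem_left _ _ (Ideal.mem_span_singleton_self a)))
        (Ideal.mem_sup_right (Ideal.mul_mem_left _ _ hmem))
    · exact sup_le ((Ideal.span_singleton_le_iff_mem _).mpr ha)
        (map_maximalIdeal_le (algebraMap R S))
  obtain ⟨c, hc, hind⟩ := hc
  have hab : a * b ∈ (maximalIdeal R).map (algebraMap R S) :=
    hsq (by rw [pow_two]; exact Ideal.mul_mem_mul ha hb)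
  have hcb : c * b ∈ (maximalIdeal R).map (algebraMap R S) :=
    hsq (by rw [pow_two]; exact Ideal.mul_mem_mul hc hb)
  exact mul_mem_map_mul_of_indep a b c hab hcb hind

omit [IsNoetherianRing R] [IsLocalHom (algebraMap R S)] [Module.Flat R S] in
/-- If `n ^ 2 ≤ m S * n` then `n ^ (N + 1) ≤ m ^ N S` for all `N`. -/
theorem maximalIdeal_pow_succ_le_map_pow
    (h : maximalIdeal S ^ 2 ≤ (maximalIdeal R).map (algebraMap R S) * maximalIdeal S) (N : ℕ) :
    maximalIdeal S ^ (N + 1) ≤ (maximalIdeal R ^ N).map (algebraMap R S) := by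
  have key : ∀ N : ℕ, maximalIdeal S ^ (N + 1) ≤
      (maximalIdeal R).map (algebraMap R S) ^ N * maximalIdeal S := by
    intro N
    induction N with
    | zero => simp
    | succ N ih =>
      calc maximalIdeal S ^ (N + 1 + 1) = maximalIdeal S ^ (N + 1) * maximalIdeal S := pow_succ _ _
        _ ≤ ((maximalIdeal R).map (algebraMap R S) ^ N * maximalIdeal S) * maximalIdeal S :=
          Ideal.mul_mono_left ih
        _ = (maximalIdeal R).map (algebraMap R S) ^ N * maximalIdeal S ^ 2 := by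
          rw [mul_assoc, pow_two]
        _ ≤ (maximalIdeal R).map (algebraMap R S) ^ N *
            ((maximalIdeal R).map (algebraMap R S) * maximalIdeal S) := Ideal.mul_mono_right h
        _ = (maximalIdeal R).map (algebraMap R S) ^ (N + 1) * maximalIdeal S := by
          rw [← mul_assoc, ← pow_succ]
  rw [Ideal.map_pow]
  exact (key N).trans Ideal.mul_le_left

end SquareZero

/-- The analytic core: comparison of the normalised leading coefficients of two sequences of
natural numbers along the subsequences `j * N` and `k * N`. -/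
theorem leading_coeff_le (a b : ℕ → ℕ) (d j k lam : ℕ) (hj : 0 < j) (hk : 0 < k) (eR eS : ℝ)
    (ha : Tendsto (fun N : ℕ => (d.factorial : ℝ) * (a N : ℝ) / (N : ℝ) ^ d) atTop (𝓝 eR))
    (hb : Tendsto (fun N : ℕ => (d.factorial : ℝ) * (b N : ℝ) / (N : ℝ) ^ d) atTop (𝓝 eS))
    (hab : ∀ N, lam * a (j * N) ≤ b (k * N)) :
    (lam : ℝ) * (j : ℝ) ^ d * eR ≤ (k : ℝ) ^ d * eS := by
  have hjN : Tendsto (fun N : ℕ => j * N) atTop atTop :=
    tendsto_atTop_mono (fun N => Nat.le_mul_of_pos_left N hj) tendsto_id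
  have hkN : Tendsto (fun N : ℕ => k * N) atTop atTop :=
    tendsto_atTop_mono (fun N => Nat.le_mul_of_pos_left N hk) tendsto_id
  have h1 := (ha.comp hjN).const_mul ((lam : ℝ) * (j : ℝ) ^ d)
  have h2 := (hb.comp hkN).const_mul ((k : ℝ) ^ d)
  refine le_of_tendsto_of_tendsto h1 h2 ?_
  filter_upwards [eventually_gt_atTop 0] with N hN
  simp only [Function.comp]
  have hN' : (0 : ℝ) < N := by exact_mod_cast hN
  have hj' : (0 : ℝ) < j := by exact_mod_cast hj
  have hk' : (0 : ℝ) < k := by exact_mod_cast hk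
  have hab' : (lam : ℝ) * (a (j * N) : ℝ) ≤ (b (k * N) : ℝ) := by exact_mod_cast hab N
  have e1 : (lam : ℝ) * (j : ℝ) ^ d *
      ((d.factorial : ℝ) * (a (j * N) : ℝ) / ((j * N : ℕ) : ℝ) ^ d)
      = (d.factorial : ℝ) * ((lam : ℝ) * (a (j * N) : ℝ)) / (N : ℝ) ^ d := by
    rw [Nat.cast_mul, mul_pow]
    field_simp
  have e2 : (k : ℝ) ^ d * ((d.factorial : ℝ) * (b (k * N) : ℝ) / ((k * N : ℕ) : ℝ) ^ d)
      = (d.factorial : ℝ) * (b (k * N) : ℝ) / (N : ℝ) ^ d := by
    rw [Nat.cast_mul, mul_pow]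
    field_simp
  rw [e1, e2]
  gcongr

/-- Shifted comparison: if `lam * a N ≤ b (N + 1)` for all `N`, then `lam * eR ≤ eS`. -/
theorem leading_coeff_le_shift (a b : ℕ → ℕ) (d lam : ℕ) (eR eS : ℝ)
    (ha : Tendsto (fun N : ℕ => (d.factorial : ℝ) * (a N : ℝ) / (N : ℝ) ^ d) atTop (𝓝 eR))
    (hb : Tendsto (fun N : ℕ => (d.factorial : ℝ) * (b N : ℝ) / (N : ℝ) ^ d) atTop (𝓝 eS))
    (hab : ∀ N, lam * a N ≤ b (N + 1)) :
    (lam : ℝ) * eR ≤ eS := by
  have hb' : Tendsto (fun N : ℕ => (d.factorial : ℝ) * (b (N + 1) : ℝ) /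
      ((N + 1 : ℕ) : ℝ) ^ d) atTop (𝓝 eS) := hb.comp (tendsto_add_atTop_nat 1)
  have hratio : Tendsto (fun N : ℕ => (((N + 1 : ℕ) : ℝ) / (N : ℝ)) ^ d) atTop (𝓝 1) := by
    have h1 : Tendsto (fun N : ℕ => 1 + 1 / (N : ℝ)) atTop (𝓝 (1 + 0)) :=
      tendsto_const_nhds.add tendsto_one_div_atTop_nhds_zero_nat
    have h2 := h1.pow d
    simp only [add_zero, one_pow] at h2
    refine h2.congr' ?_
    filter_upwards [eventually_gt_atTop 0] with N hN
    have hN0 : (N : ℝ) ≠ 0 := by positivity
    congr 1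
    rw [Nat.cast_add, Nat.cast_one]
    field_simp
  have h3 := hb'.mul hratio
  rw [mul_one] at h3
  refine le_of_tendsto_of_tendsto (ha.const_mul (lam : ℝ)) h3 ?_
  filter_upwards [eventually_gt_atTop 0] with N hN
  have hN' : (0 : ℝ) < N := by exact_mod_cast hN
  have hN1 : (0 : ℝ) < ((N + 1 : ℕ) : ℝ) := by positivity
  have hab' : (lam : ℝ) * (a N : ℝ) ≤ (b (N + 1) : ℝ) := by exact_mod_cast hab N
  have e2 : (d.factorial : ℝ) * (b (N + 1) : ℝ) / ((N + 1 : ℕ) : ℝ) ^ d *
      (((N + 1 : ℕ) : ℝ) / (N : ℝ)) ^ d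
      = (d.factorial : ℝ) * (b (N + 1) : ℝ) / (N : ℝ) ^ d := by
    rw [div_pow]
    field_simp
  have e1 : (lam : ℝ) * ((d.factorial : ℝ) * (a N : ℝ) / (N : ℝ) ^ d)
      = (d.factorial : ℝ) * ((lam : ℝ) * (a N : ℝ)) / (N : ℝ) ^ d := by ring
  rw [e2, e1]
  gcongr

/-- Upper comparison: if `b N ≤ lam * a N` for all `N`, then `eS ≤ lam * eR`. -/
theorem leading_coeff_ge (a b : ℕ → ℕ) (d lam : ℕ) (eR eS : ℝ)
    (ha : Tendsto (fun N : ℕ => (d.factorial : ℝ) * (a N : ℝ) / (N : ℝ) ^ d) atTop (𝓝 eR))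
    (hb : Tendsto (fun N : ℕ => (d.factorial : ℝ) * (b N : ℝ) / (N : ℝ) ^ d) atTop (𝓝 eS))
    (hba : ∀ N, b N ≤ lam * a N) :
    eS ≤ (lam : ℝ) * eR := by
  refine le_of_tendsto_of_tendsto' hb (ha.const_mul (lam : ℝ)) fun N => ?_
  have hba' : (b N : ℝ) ≤ (lam : ℝ) * (a N : ℝ) := by exact_mod_cast hba N
  have e1 : (lam : ℝ) * ((d.factorial : ℝ) * (a N : ℝ) / (N : ℝ) ^ d)
      = (d.factorial : ℝ) * ((lam : ℝ) * (a N : ℝ)) / (N : ℝ) ^ d := by ring
  rw [e1]
  gcongr

/-- **Main inequality.** Let `(R, m) → (S, n)` be a flat local homomorphism of Noetherian local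
rings, with Hilbert-Samuel multiplicities `eR` and `eS`, and let `d = dim R`.  If
`n ^ k ≤ m ^ j S` with `j ≥ 1` and the closed fibre `S / m S` has length `lam`, then
`lam * j ^ d * eR ≤ k ^ d * eS`.  In particular `eR ≤ eS` as soon as `k ^ d ≤ lam * j ^ d`. -/
theorem lech_inequality_of_pow_le {R S : Type*} [CommRing R] [CommRing S]
    [IsLocalRing R] [IsLocalRing S] [IsNoetherianRing R] [IsNoetherianRing S]
    [Algebra R S] [IsLocalHom (algebraMap R S)] [Module.Flat R S]
    (d : ℕ) (hR : ringKrullDim R = d) (eR eS : ℝ)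
    (heR : IsHilbertSamuelMultiplicity R eR) (heS : IsHilbertSamuelMultiplicity S eS)
    (j k lam : ℕ) (hj : 0 < j)
    (hjk : maximalIdeal S ^ k ≤ (maximalIdeal R ^ j).map (algebraMap R S))
    (hlam : Module.length S (S ⧸ (maximalIdeal R).map (algebraMap R S)) = lam) :
    (lam : ℝ) * (j : ℝ) ^ d * eR ≤ (k : ℝ) ^ d * eS ∧
      ((k : ℝ) ^ d ≤ (lam : ℝ) * (j : ℝ) ^ d → eR ≤ eS) := by
  obtain ⟨dR, hdR, hRt⟩ := heR
  obtain ⟨dS, hdS, hSt⟩ := heS
  have hjk' : maximalIdeal S ^ k ≤ (maximalIdeal R).map (algebraMap R S) :=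
    hjk.trans (Ideal.map_mono (Ideal.pow_le_self hj.ne'))
  have hS : ringKrullDim S = d := (ringKrullDim_eq_of_pow_le k hjk').trans hR
  have edR : dR = d := by
    have : (dR : WithBot ℕ∞) = (d : WithBot ℕ∞) := hdR.symm.trans hR
    exact_mod_cast this
  have edS : dS = d := by
    have : (dS : WithBot ℕ∞) = (d : WithBot ℕ∞) := hdS.symm.trans hS
    exact_mod_cast this
  rw [edR] at hRt
  rw [edS] at hSt
  have hk : 0 < k := by
    rcases Nat.eq_zero_or_pos k with hk0 | hk0
    · exfalso
      rw [hk0, pow_zero, Ideal.one_eq_top, top_le_iff] at hjk'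
      exact (map_maximalIdeal_lt_top (algebraMap R S)).ne hjk'
    · exact hk0
  have hab : ∀ N, lam * (Module.length R (R ⧸ maximalIdeal R ^ (j * N))).toNat
      ≤ (Module.length S (S ⧸ maximalIdeal S ^ (k * N))).toNat := by
    intro N
    have h1 := length_mul_le_length_of_pow_le (R := R) (S := S) j k N hjk
    rw [hlam] at h1
    have h2 := ENat.toNat_le_toNat h1 (length_quotient_maximalIdeal_pow_ne_top S (k * N))
    rw [ENat.toNat_mul, ENat.toNat_natCast] at h2
    rw [mul_comm]
    exact h2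
  have main := leading_coeff_le
    (fun N => (Module.length R (R ⧸ maximalIdeal R ^ N)).toNat)
    (fun N => (Module.length S (S ⧸ maximalIdeal S ^ N)).toNat)
    d j k lam hj hk eR eS hRt hSt hab
  refine ⟨main, fun hkl => ?_⟩
  have heR0 : 0 ≤ eR := ge_of_tendsto' hRt (fun N => by positivity)
  have hk' : (0 : ℝ) < (k : ℝ) ^ d := by positivity
  have h3 : (k : ℝ) ^ d * eR ≤ (k : ℝ) ^ d * eS :=
    (mul_le_mul_of_nonneg_right hkl heR0).trans main
  exact le_of_mul_le_mul_left h3 hk'

/-- If `n ^ (N + 1) ≤ m ^ N S` for all `N` (e.g. if `m S` is a reduction of `n` with reduction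
number at most one), then `e(R) ≤ e(S)`, and in fact `e(S) = ℓ(S / m S) * e(R)`. -/
theorem lech_of_pow_succ_le {R S : Type*} [CommRing R] [CommRing S]
    [IsLocalRing R] [IsLocalRing S] [IsNoetherianRing R] [IsNoetherianRing S]
    [Algebra R S] [IsLocalHom (algebraMap R S)] [Module.Flat R S]
    (h : ∀ N : ℕ, maximalIdeal S ^ (N + 1) ≤ (maximalIdeal R ^ N).map (algebraMap R S))
    (eR eS : ℝ)
    (heR : IsHilbertSamuelMultiplicity R eR) (heS : IsHilbertSamuelMultiplicity S eS) :
    eR ≤ eS ∧ ∀ lam : ℕ,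
      Module.length S (S ⧸ (maximalIdeal R).map (algebraMap R S)) = lam →
        eS = (lam : ℝ) * eR := by
  obtain ⟨dR, hdR, hRt⟩ := heR
  obtain ⟨dS, hdS, hSt⟩ := heS
  have hdim : ringKrullDim S = ringKrullDim R :=
    ringKrullDim_eq_of_pow_le 2 (by simpa using h 1)
  have edS : dS = dR := by
    have : (dS : WithBot ℕ∞) = (dR : WithBot ℕ∞) := by rw [← hdS, ← hdR, hdim]
    exact_mod_cast this
  rw [edS] at hSt
  have hab1 : ∀ N, 1 * (Module.length R (R ⧸ maximalIdeal R ^ N)).toNat
      ≤ (Module.length S (S ⧸ maximalIdeal S ^ (N + 1))).toNat := by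
    intro N
    have h1 := length_mul_le_length_of_le (R := R) (S := S) N (N + 1) (h N)
    have h2 : Module.length R (R ⧸ maximalIdeal R ^ N)
        ≤ Module.length S (S ⧸ maximalIdeal S ^ (N + 1)) :=
      (le_mul_of_one_le_right zero_le one_le_length_fibre).trans h1
    rw [one_mul]
    exact ENat.toNat_le_toNat h2 (length_quotient_maximalIdeal_pow_ne_top S (N + 1))
  have hle : eR ≤ eS := by
    have h1 := leading_coeff_le_shift _ _ dR 1 eR eS hRt hSt hab1
    simpa using h1
  refine ⟨hle, fun lam hlam => le_antisymm ?_ ?_⟩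
  · refine leading_coeff_ge _ _ dR lam eR eS hRt hSt fun N => ?_
    have h1 := length_le_length_mul (R := R) (S := S) N
    rw [hlam] at h1
    have hfin : Module.length R (R ⧸ maximalIdeal R ^ N) * (lam : ℕ∞) ≠ ⊤ :=
      WithTop.mul_ne_top (length_quotient_maximalIdeal_pow_ne_top R N) (ENat.natCast_ne_top lam)
    have h2 := ENat.toNat_le_toNat h1 hfin
    rw [ENat.toNat_mul, ENat.toNat_natCast, mul_comm] at h2
    exact h2
  · refine leading_coeff_le_shift _ _ dR lam eR eS hRt hSt fun N => ?_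
    have h1 := length_mul_le_length_of_le (R := R) (S := S) N (N + 1) (h N)
    rw [hlam] at h1
    have h2 := ENat.toNat_le_toNat h1 (length_quotient_maximalIdeal_pow_ne_top S (N + 1))
    rw [ENat.toNat_mul, ENat.toNat_natCast, mul_comm] at h2
    exact h2

/-- **Lech's inequality for closed fibres with square-zero, non-principal maximal ideal.** -/
theorem lech_of_sq_zero_fibre {R S : Type*} [CommRing R] [CommRing S]
    [IsLocalRing R] [IsLocalRing S] [IsNoetherianRing R] [IsNoetherianRing S]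
    [Algebra R S] [IsLocalHom (algebraMap R S)] [Module.Flat R S]
    (hsq : maximalIdeal S ^ 2 ≤ (maximalIdeal R).map (algebraMap R S))
    (hnp : ∀ a : S, maximalIdeal S ≠
      Ideal.span {a} ⊔ (maximalIdeal R).map (algebraMap R S))
    (eR eS : ℝ)
    (heR : IsHilbertSamuelMultiplicity R eR) (heS : IsHilbertSamuelMultiplicity S eS) :
    eR ≤ eS ∧ ∀ lam : ℕ,
      Module.length S (S ⧸ (maximalIdeal R).map (algebraMap R S)) = lam →
        eS = (lam : ℝ) * eR :=
  lech_of_pow_succ_le
    (maximalIdeal_pow_succ_le_map_pow (maximalIdeal_sq_le_map_mul hsq hnp)) eR eS heR heS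

end Vale.Agent.H54
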