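import Mathlib
import Vale.Agent.H54.Lech

/-!
# Lech's inequality for closed fibres that are fat points

Support file for P202.  If the closed fibre of a flat local homomorphism `(R, m) → (S, n)` of
Noetherian local rings is isomorphic to `L[y_1, …, y_r] / (y_1, …, y_r) ^ k` with `r ≥ 2`, then
`n ^ (N + k) ≤ m ^ (N + 1) S` for all `N`, hence `e(S) = ℓ(S / m S) * e(R)`.
-/

namespace Vale.Agent.H54

open IsLocalRing Filter Topology MvPolynomial

section Syzygy

variable {r : ℕ} {L : Type*} [Field L]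

/-- Adding a unit exponent raises the degree by one. -/
theorem degree_add_single {r : ℕ} (γ : Fin r →₀ ℕ) (p : Fin r) :
    (γ + Finsupp.single p 1).degree = γ.degree + 1 := by
  rw [map_add, Finsupp.degree_single]

/-- Degree bookkeeping: moving one unit of the exponent from `p` to `q`. -/
theorem degree_sub_add_single {r : ℕ} (γ : Fin r →₀ ℕ) (p q : Fin r) (hp : γ p ≠ 0) :
    (γ - Finsupp.single p 1 + Finsupp.single q 1).degree = γ.degree := by
  have h1 : (γ - Finsupp.single p 1 + Finsupp.single q 1) + Finsupp.single p 1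
      = γ + Finsupp.single q 1 := by
    rw [add_right_comm, Finsupp.sub_add_single_one_cancel hp]
  have h2 := congrArg Finsupp.degree h1
  rw [degree_add_single _ p, degree_add_single γ q] at h2
  omega

theorem degree_add_sub_single {r : ℕ} (β : Fin r →₀ ℕ) (p q : Fin r) (hp : β p ≠ 0) :
    (β + Finsupp.single q 1 - Finsupp.single p 1).degree = β.degree := by
  have h0 : (β + Finsupp.single q 1 : Fin r →₀ ℕ) p ≠ 0 := by
    rw [Finsupp.coe_add, Pi.add_apply]
    omega
  have h1 : (β + Finsupp.single q 1 - Finsupp.single p 1) + Finsupp.single p 1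
      = β + Finsupp.single q 1 := Finsupp.sub_add_single_one_cancel h0
  have h2 := congrArg Finsupp.degree h1
  rw [degree_add_single _ p, degree_add_single β q] at h2
  omega

/-- One step of the coefficient recursion coming from a linear syzygy. -/
theorem coeff_step (k K : ℕ)
    (W : (Fin r →₀ ℕ) → MvPolynomial (Fin r) L)
    (hrel : ∀ (γ γ' : Fin r →₀ ℕ) (i i' : Fin r), γ.degree = K → γ'.degree = K →
      γ + Finsupp.single i 1 = γ' + Finsupp.single i' 1 →
      X i * W γ - X i' * W γ' ∈ idealOfVars (Fin r) L ^ k)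
    (γ β : Fin r →₀ ℕ) (hγ : γ.degree = K) (hβ : β.degree + 2 ≤ k) (p q : Fin r) (hpq : p ≠ q)
    (hp : γ p ≠ 0) :
    (W γ).coeff β = if β p ≠ 0 then
      (W (γ - Finsupp.single p 1 + Finsupp.single q 1)).coeff
        (β + Finsupp.single q 1 - Finsupp.single p 1) else 0 := by
  classical
  have h1 : γ + Finsupp.single q 1
      = (γ - Finsupp.single p 1 + Finsupp.single q 1) + Finsupp.single p 1 := by
    rw [add_right_comm, Finsupp.sub_add_single_one_cancel hp]
  have hmem := hrel γ (γ - Finsupp.single p 1 + Finsupp.single q 1) q p hγ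
    ((degree_sub_add_single γ p q hp).trans hγ) h1
  rw [mem_pow_idealOfVars_iff'] at hmem
  have hdeg : (β + Finsupp.single q 1).degree < k := by
    rw [degree_add_single]
    omega
  have h2 := hmem (β + Finsupp.single q 1) hdeg
  rw [coeff_sub, sub_eq_zero, add_comm β (Finsupp.single q 1), coeff_X_mul, coeff_X_mul'] at h2
  rw [h2, add_comm (Finsupp.single q 1) β]
  have hsupp : p ∈ (β + Finsupp.single q 1).support ↔ β p ≠ 0 := by
    rw [Finsupp.mem_support_iff, Finsupp.coe_add, Pi.add_apply, Finsupp.single_apply,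
      if_neg (Ne.symm hpq), add_zero]
  by_cases hb : β p ≠ 0
  · rw [if_pos (hsupp.mpr hb), if_pos hb]
  · rw [if_neg (fun h => hb (hsupp.mp h)), if_neg hb]

/-- **Linear syzygy lemma.** A family of polynomials `W γ`, indexed by the exponents `γ` of
degree `K ≥ k - 1`, which is compatible modulo `(y) ^ k` with the linear syzygies of the
monomials of degree `K` (in at least two variables), has no coefficients in degrees `≤ k - 2`. -/
theorem coeff_eq_zero_of_linear_syzygies (hr : 2 ≤ r) (k K : ℕ) (hK : k ≤ K + 1)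
    (W : (Fin r →₀ ℕ) → MvPolynomial (Fin r) L)
    (hrel : ∀ (γ γ' : Fin r →₀ ℕ) (i i' : Fin r), γ.degree = K → γ'.degree = K →
      γ + Finsupp.single i 1 = γ' + Finsupp.single i' 1 →
      X i * W γ - X i' * W γ' ∈ idealOfVars (Fin r) L ^ k)
    (γ β : Fin r →₀ ℕ) (hγ : γ.degree = K) (hβ : β.degree + 2 ≤ k) :
    (W γ).coeff β = 0 := by
  classical
  have hnt : Nontrivial (Fin r) := Fin.nontrivial_iff_two_le.mpr hr
  have key : ∀ (b : ℕ) (γ β : Fin r →₀ ℕ) (p : Fin r), γ.degree = K → β.degree + 2 ≤ k →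
      β p = b → b < γ p → (W γ).coeff β = 0 := by
    intro b
    induction b with
    | zero =>
      intro γ β p hγ hβ hb hlt
      obtain ⟨q, hq⟩ := exists_ne p
      rw [coeff_step k K W hrel γ β hγ hβ p q (Ne.symm hq) (by omega), if_neg (by omega)]
    | succ b ih =>
      intro γ β p hγ hβ hb hlt
      obtain ⟨q, hq⟩ := exists_ne p
      have hγp : γ p ≠ 0 := by omega
      have hβp : β p ≠ 0 := by omega
      rw [coeff_step k K W hrel γ β hγ hβ p q (Ne.symm hq) hγp, if_pos hβp]
      refine ih _ _ p ((degree_sub_add_single γ p q hγp).trans hγ)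
        (by rw [degree_add_sub_single β p q hβp]; exact hβ) ?_ ?_
      · simp only [Finsupp.coe_tsub, Finsupp.coe_add, Pi.sub_apply, Pi.add_apply,
          Finsupp.single_eq_same, Finsupp.single_eq_of_ne hq.symm]
        omega
      · simp only [Finsupp.coe_tsub, Finsupp.coe_add, Pi.sub_apply, Pi.add_apply,
          Finsupp.single_eq_same, Finsupp.single_eq_of_ne hq.symm]
        omega
  have hex : ∃ p, β p < γ p := by
    by_contra hcon
    rw [not_exists] at hcon
    have hle : γ.degree ≤ β.degree := by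
      rw [Finsupp.degree_eq_sum, Finsupp.degree_eq_sum]
      exact Finset.sum_le_sum fun p _ => not_lt.mp (hcon p)
    omega
  obtain ⟨p, hp⟩ := hex
  exact key (β p) γ β p hγ hβ rfl hp

/-- Consequence: `y_i * W γ ∈ (y) ^ k` for every variable `y_i`. -/
theorem X_mul_mem_of_linear_syzygies (hr : 2 ≤ r) (k K : ℕ) (hK : k ≤ K + 1)
    (W : (Fin r →₀ ℕ) → MvPolynomial (Fin r) L)
    (hrel : ∀ (γ γ' : Fin r →₀ ℕ) (i i' : Fin r), γ.degree = K → γ'.degree = K →
      γ + Finsupp.single i 1 = γ' + Finsupp.single i' 1 →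
      X i * W γ - X i' * W γ' ∈ idealOfVars (Fin r) L ^ k)
    (γ : Fin r →₀ ℕ) (hγ : γ.degree = K) (i : Fin r) :
    X i * W γ ∈ idealOfVars (Fin r) L ^ k := by
  classical
  rw [mem_pow_idealOfVars_iff']
  intro x hx
  rw [coeff_X_mul']
  split_ifs with hi
  · have hxi : x i ≠ 0 := Finsupp.mem_support_iff.mp hi
    have h1 : (x - Finsupp.single i 1) + Finsupp.single i 1 = x :=
      Finsupp.sub_add_single_one_cancel hxi
    have h2 := congrArg Finsupp.degree h1
    rw [degree_add_single] at h2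
    exact coeff_eq_zero_of_linear_syzygies hr k K hK W hrel γ _ hγ (by omega)
  · rfl

end Syzygy

/-- A finite generating set of an ideal of a Noetherian local ring such that every relation
among the generators has all its coefficients in the maximal ideal (a minimal generating set). -/
theorem exists_finset_span_eq_and_coeff_mem (R : Type*) [CommRing R]
    [IsLocalRing R] [IsNoetherianRing R] (I : Ideal R) :
    ∃ s : Finset R, Ideal.span (s : Set R) = I ∧
      ∀ c : R → R, ∑ x ∈ s, c x * x = 0 → ∀ x ∈ s, c x ∈ maximalIdeal R := by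
  classical
  have hfg : ∃ n : ℕ, ∃ s : Finset R, s.card = n ∧ Ideal.span (s : Set R) = I := by
    obtain ⟨s, hs⟩ := (IsNoetherian.noetherian I : I.FG)
    exact ⟨s.card, s, rfl, hs⟩
  obtain ⟨s, hcard, hs⟩ := Nat.find_spec hfg
  refine ⟨s, hs, ?_⟩
  intro c hc x₀ hx₀
  by_contra hnot
  have hu : IsUnit (c x₀) := by
    by_contra h
    exact hnot ((IsLocalRing.mem_maximalIdeal _).mpr h)
  have hsum : c x₀ * x₀ = -∑ x ∈ s.erase x₀, c x * x := by
    rw [← Finset.add_sum_erase s (fun x => c x * x) hx₀] at hc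
    exact eq_neg_of_add_eq_zero_left hc
  have hmem : c x₀ * x₀ ∈ Ideal.span ((s.erase x₀ : Finset R) : Set R) := by
    rw [hsum]
    refine neg_mem (Ideal.sum_mem _ fun x hx => ?_)
    exact Ideal.mul_mem_left _ _ (Ideal.subset_span (Finset.mem_coe.mpr hx))
  have hx₀mem : x₀ ∈ Ideal.span ((s.erase x₀ : Finset R) : Set R) := by
    obtain ⟨u, hu'⟩ := hu
    have h1 : (↑u⁻¹ : R) * (c x₀ * x₀) = x₀ := by
      rw [← mul_assoc, ← hu', Units.inv_mul, one_mul]
    have h2 := Ideal.mul_mem_left _ (↑u⁻¹ : R) hmem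
    rwa [h1] at h2
  have hspan : Ideal.span ((s.erase x₀ : Finset R) : Set R) = I := by
    apply le_antisymm
    · rw [← hs]
      exact Ideal.span_mono (Finset.coe_subset.mpr (Finset.erase_subset _ _))
    · rw [← hs, Ideal.span_le]
      intro y hy
      by_cases hyx : y = x₀
      · rw [hyx]; exact hx₀mem
      · exact Ideal.subset_span (Finset.mem_coe.mpr (Finset.mem_erase.mpr ⟨hyx, hy⟩))
  have hlt : (s.erase x₀).card < Nat.find hfg := by
    rw [Finset.card_erase_of_mem hx₀, hcard]
    exact Nat.sub_lt (hcard ▸ Finset.card_pos.mpr ⟨x₀, hx₀⟩) Nat.one_pos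
  exact Nat.find_min hfg hlt ⟨s.erase x₀, rfl, hspan⟩

/-- Flatness and minimality of the generators: the coefficients of a relation among the images
of minimal generators lie in `m S`. -/
theorem coeff_mem_map_of_sum_eq_zero {R S : Type*} [CommRing R] [CommRing S] [IsLocalRing R]
    [Algebra R S] [Module.Flat R S] (gen : Finset R)
    (hcoef : ∀ c : R → R, ∑ x ∈ gen, c x * x = 0 → ∀ x ∈ gen, c x ∈ maximalIdeal R)
    (v : R → S) (hv : ∑ x ∈ gen, v x * algebraMap R S x = 0) :
    ∀ x ∈ gen, v x ∈ (maximalIdeal R).map (algebraMap R S) := by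
  classical
  have hrel : ∑ i : gen, (i : R) • v i = 0 := by
    simp only [Algebra.smul_def]
    rw [Finset.sum_coe_sort gen (fun x => algebraMap R S x * v x), ← hv]
    exact Finset.sum_congr rfl fun x _ => mul_comm _ _
  have key : Module.IsTrivialRelation (fun i : gen => (i : R)) (fun i : gen => v i) :=
    Module.Flat.isTrivialRelation_of_sum_smul_eq_zero hrel
  obtain ⟨k, A, y, hA, hA0⟩ := key
  have hAm : ∀ (i : gen) (j : Fin k), A i j ∈ maximalIdeal R := by
    intro i j
    have h2 : ∑ x ∈ gen, (if h : x ∈ gen then A ⟨x, h⟩ j else 0) * x = 0 := by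
      rw [← Finset.sum_coe_sort gen (fun x => (if h : x ∈ gen then A ⟨x, h⟩ j else 0) * x)]
      rw [← hA0 j]
      refine Finset.sum_congr rfl fun i _ => ?_
      rw [dif_pos i.2, mul_comm]
    have h3 := hcoef (fun x => if h : x ∈ gen then A ⟨x, h⟩ j else 0) h2 i i.2
    simpa using h3
  intro x hx
  have hAi : v x = ∑ j, A ⟨x, hx⟩ j • y j := hA ⟨x, hx⟩
  rw [hAi]
  refine Ideal.sum_mem _ fun j _ => ?_
  rw [Algebra.smul_def]
  exact Ideal.mul_mem_right _ _ (Ideal.mem_map_of_mem _ (hAm ⟨x, hx⟩ j))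

section Monomials

variable {S : Type*} [CommRing S] {r : ℕ}

/-- The monomial `∏ Y i ^ γ i`. -/
def mon (Y : Fin r → S) (γ : Fin r →₀ ℕ) : S := ∏ i, Y i ^ γ i

theorem mon_zero (Y : Fin r → S) : mon Y 0 = 1 := by
  simp [mon]

theorem mon_add_single (Y : Fin r → S) (γ : Fin r →₀ ℕ) (i : Fin r) :
    mon Y (γ + Finsupp.single i 1) = mon Y γ * Y i := by
  classical
  unfold mon
  have h1 : ∀ j : Fin r, Y j ^ (γ + Finsupp.single i 1 : Fin r →₀ ℕ) j
      = Y j ^ γ j * Y j ^ (Finsupp.single i 1 j) := by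
    intro j
    rw [Finsupp.coe_add, Pi.add_apply, pow_add]
  rw [Finset.prod_congr rfl (fun j _ => h1 j), Finset.prod_mul_distrib]
  congr 1
  rw [Finset.prod_eq_single i]
  · rw [Finsupp.single_eq_same, pow_one]
  · intro j _ hj
    rw [Finsupp.single_eq_of_ne hj, pow_zero]
  · intro h
    exact absurd (Finset.mem_univ i) h

theorem mon_mem_pow (Y : Fin r → S) (γ : Fin r →₀ ℕ) :
    mon Y γ ∈ Ideal.span (Set.range Y) ^ γ.degree := by
  rw [Finsupp.degree_eq_sum, ← Finset.prod_pow_eq_pow_sum]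
  exact Ideal.prod_mem_prod fun i _ =>
    Ideal.pow_mem_pow (Ideal.subset_span (Set.mem_range_self i)) _

/-- Powers of the ideal generated by the `Y i` are spanned by the monomials. -/
theorem span_pow_le_span_mon (Y : Fin r → S) (M : ℕ) :
    Ideal.span (Set.range Y) ^ M ≤ Ideal.span {z | ∃ γ : Fin r →₀ ℕ, γ.degree = M ∧ z = mon Y γ} := by
  induction M with
  | zero =>
    rw [pow_zero, Ideal.one_eq_top]
    have h1 : (1 : S) ∈ Ideal.span {z | ∃ γ : Fin r →₀ ℕ, γ.degree = 0 ∧ z = mon Y γ} :=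
      Ideal.subset_span ⟨0, by simp, (mon_zero Y).symm⟩
    rw [(Ideal.eq_top_iff_one _).mpr h1]
  | succ M ih =>
    rw [pow_succ]
    refine (Ideal.mul_mono_left ih).trans ?_
    rw [Ideal.span_mul_span', Ideal.span_le]
    rintro _ ⟨z, ⟨γ, hγ, rfl⟩, _, ⟨i, rfl⟩, rfl⟩
    refine Ideal.subset_span ⟨γ + Finsupp.single i 1, ?_, (mon_add_single Y γ i).symm⟩
    rw [degree_add_single, hγ]

/-- `(A + I) ^ (M + 1) ≤ A ^ (M + 1) + I * (A + I) ^ M`. -/
theorem sup_pow_succ_le (A I : Ideal S) (M : ℕ) :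
    (A ⊔ I) ^ (M + 1) ≤ A ^ (M + 1) ⊔ I * (A ⊔ I) ^ M := by
  induction M with
  | zero => simp
  | succ M ih =>
    calc (A ⊔ I) ^ (M + 1 + 1) = (A ⊔ I) ^ (M + 1) * (A ⊔ I) := pow_succ _ _
      _ ≤ (A ^ (M + 1) ⊔ I * (A ⊔ I) ^ M) * (A ⊔ I) := Ideal.mul_mono_left ih
      _ ≤ A ^ (M + 1 + 1) ⊔ I * (A ⊔ I) ^ (M + 1) := by
        rw [Ideal.sup_mul, Ideal.mul_sup]
        refine sup_le (sup_le ?_ ?_) ?_
        · rw [← pow_succ]; exact le_sup_left
        · rw [mul_comm]
          exact le_sup_of_le_right (Ideal.mul_mono_right (Ideal.pow_right_mono le_sup_left _))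
        · rw [mul_assoc, ← pow_succ]; exact le_sup_right

end Monomials

section FatPoint

variable {R S : Type*} [CommRing R] [CommRing S] [IsLocalRing R] [IsLocalRing S]
  [IsNoetherianRing R] [Algebra R S] [IsLocalHom (algebraMap R S)] [Module.Flat R S]
  {L : Type*} [Field L] {r k : ℕ}

omit [IsNoetherianRing R] [Module.Flat R S] in
/-- An element of `n` is mapped to the class of a polynomial without constant term. -/
theorem coeff_zero_eq_zero_of_mem
    (ψ : S →+* MvPolynomial (Fin r) L ⧸ idealOfVars (Fin r) L ^ k)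
    (hψ : Function.Surjective ψ)
    (hker : RingHom.ker ψ = (maximalIdeal R).map (algebraMap R S))
    (s : S) (hs : s ∈ maximalIdeal S) (p : MvPolynomial (Fin r) L)
    (hp : Ideal.Quotient.mk (idealOfVars (Fin r) L ^ k) p = ψ s) : p.coeff 0 = 0 := by
  by_contra hc
  have hmem : p - C (p.coeff 0) ∈ idealOfVars (Fin r) L ^ 1 := by
    rw [mem_pow_idealOfVars_iff']
    intro x hx
    have hx0 : x = 0 := by
      rw [← Finsupp.degree_eq_zero_iff]
      omega
    rw [hx0, coeff_sub, coeff_zero_C, sub_self]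
  have hnil : IsNilpotent (Ideal.Quotient.mk (idealOfVars (Fin r) L ^ k) (p - C (p.coeff 0))) := by
    refine ⟨k, ?_⟩
    rw [← map_pow, Ideal.Quotient.eq_zero_iff_mem]
    have := Ideal.pow_mem_pow hmem k
    rwa [← pow_mul, one_mul] at this
  have hu : IsUnit (Ideal.Quotient.mk (idealOfVars (Fin r) L ^ k) (C (p.coeff 0))) :=
    ((IsUnit.mk0 _ hc).map C).map _
  have hunit : IsUnit (ψ s) := by
    rw [← hp]
    have h1 := hnil.isUnit_add_left_of_commute hu (Commute.all _ _)
    rw [← map_add] at h1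
    convert h1 using 2
    ring
  obtain ⟨u, hu'⟩ := hunit
  obtain ⟨s', hs'⟩ := hψ (↑u⁻¹)
  have h1 : s * s' - 1 ∈ RingHom.ker ψ := by
    rw [RingHom.mem_ker, map_sub, map_mul, map_one, hs', ← hu', Units.mul_inv, sub_self]
  rw [hker] at h1
  have h2 : s * s' - 1 ∈ maximalIdeal S := map_maximalIdeal_le (algebraMap R S) h1
  have h3 : (1 : S) ∈ maximalIdeal S := by
    have := sub_mem (Ideal.mul_mem_right s' _ hs) h2
    rwa [sub_sub_cancel] at this
  exact (Ideal.ne_top_iff_one _).mp (IsLocalRing.maximalIdeal.isMaximal S).ne_top h3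

omit [IsNoetherianRing R] [Module.Flat R S] in
/-- The maximal ideal of `S` is generated by lifts of the variables together with `m S`. -/
theorem maximalIdeal_le_span_sup
    (ψ : S →+* MvPolynomial (Fin r) L ⧸ idealOfVars (Fin r) L ^ k)
    (hψ : Function.Surjective ψ)
    (hker : RingHom.ker ψ = (maximalIdeal R).map (algebraMap R S))
    (Y : Fin r → S) (hY : ∀ i, ψ (Y i) = Ideal.Quotient.mk (idealOfVars (Fin r) L ^ k) (X i)) :
    maximalIdeal S ≤ Ideal.span (Set.range Y) ⊔ (maximalIdeal R).map (algebraMap R S) := by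
  intro s hs
  obtain ⟨p, hp⟩ := Ideal.Quotient.mk_surjective (ψ s)
  have hc := coeff_zero_eq_zero_of_mem ψ hψ hker s hs p hp
  have hmem : p ∈ idealOfVars (Fin r) L ^ 1 := by
    rw [mem_pow_idealOfVars_iff']
    intro x hx
    have hx0 : x = 0 := by
      rw [← Finsupp.degree_eq_zero_iff]
      omega
    rw [hx0, hc]
  rw [pow_one, Ideal.mem_span_range_iff_exists_fun] at hmem
  obtain ⟨c, hcsum⟩ := hmem
  have hlift : ∀ i, ∃ t : S, ψ t = Ideal.Quotient.mk (idealOfVars (Fin r) L ^ k) (c i) :=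
    fun i => hψ _
  choose t ht using hlift
  have h1 : s - ∑ i, t i * Y i ∈ RingHom.ker ψ := by
    rw [RingHom.mem_ker, map_sub, map_sum, ← hp, ← hcsum, map_sum, sub_eq_zero]
    refine Finset.sum_congr rfl fun i _ => ?_
    rw [map_mul, map_mul, ht, hY]
  rw [hker] at h1
  have h2 : s = ∑ i, t i * Y i + (s - ∑ i, t i * Y i) := by ring
  rw [h2]
  refine Ideal.add_mem _ (Ideal.mem_sup_left ?_) (Ideal.mem_sup_right h1)
  exact Ideal.sum_mem _ fun i _ => Ideal.mul_mem_left _ _ (Ideal.subset_span (Set.mem_range_self i))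

omit [IsLocalRing S] in
/-- The homomorphism `ψ` maps monomials to monomials. -/
theorem map_mon (ψ : S →+* MvPolynomial (Fin r) L ⧸ idealOfVars (Fin r) L ^ k)
    (Y : Fin r → S) (hY : ∀ i, ψ (Y i) = Ideal.Quotient.mk (idealOfVars (Fin r) L ^ k) (X i))
    (γ : Fin r →₀ ℕ) :
    ψ (mon Y γ) = Ideal.Quotient.mk (idealOfVars (Fin r) L ^ k)
      (mon (fun i => (X i : MvPolynomial (Fin r) L)) γ) := by
  unfold mon
  rw [map_prod, map_prod]
  refine Finset.prod_congr rfl fun i _ => ?_
  rw [map_pow, map_pow, hY]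

omit [IsLocalRing S] in
/-- Monomials of degree at least `k` lie in the kernel of `ψ`. -/
theorem mon_mem_ker (ψ : S →+* MvPolynomial (Fin r) L ⧸ idealOfVars (Fin r) L ^ k)
    (Y : Fin r → S) (hY : ∀ i, ψ (Y i) = Ideal.Quotient.mk (idealOfVars (Fin r) L ^ k) (X i))
    (γ : Fin r →₀ ℕ) (hγ : k ≤ γ.degree) : mon Y γ ∈ RingHom.ker ψ := by
  rw [RingHom.mem_ker, map_mon ψ Y hY, Ideal.Quotient.eq_zero_iff_mem]
  exact Ideal.pow_le_pow_right hγ (mon_mem_pow _ γ)

omit [IsNoetherianRing R] [Module.Flat R S] in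
/-- The exponent `k` is positive. -/
theorem fatPoint_exponent_ne_zero
    (ψ : S →+* MvPolynomial (Fin r) L ⧸ idealOfVars (Fin r) L ^ k)
    (hker : RingHom.ker ψ = (maximalIdeal R).map (algebraMap R S)) : k ≠ 0 := by
  intro hk
  subst hk
  have hsub : Subsingleton (MvPolynomial (Fin r) L ⧸ idealOfVars (Fin r) L ^ 0) := by
    rw [pow_zero, Ideal.one_eq_top]
    exact Ideal.Quotient.subsingleton_iff.mpr rfl
  have h1 : (1 : S) ∈ RingHom.ker ψ := by
    rw [RingHom.mem_ker]
    exact Subsingleton.elim _ _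
  rw [hker] at h1
  exact (map_maximalIdeal_lt_top (algebraMap R S)).ne ((Ideal.eq_top_iff_one _).mpr h1)

omit [IsNoetherianRing R] [Module.Flat R S] in
/-- The lifts of the variables lie in the maximal ideal. -/
theorem span_le_maximalIdeal_of_fatPoint
    (ψ : S →+* MvPolynomial (Fin r) L ⧸ idealOfVars (Fin r) L ^ k)
    (hker : RingHom.ker ψ = (maximalIdeal R).map (algebraMap R S))
    (Y : Fin r → S) (hY : ∀ i, ψ (Y i) = Ideal.Quotient.mk (idealOfVars (Fin r) L ^ k) (X i)) :
    Ideal.span (Set.range Y) ≤ maximalIdeal S := by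
  rw [Ideal.span_le]
  rintro _ ⟨i, rfl⟩
  rw [SetLike.mem_coe, IsLocalRing.mem_maximalIdeal, mem_nonunits_iff]
  intro hu
  have h1 : Y i ^ k ∈ RingHom.ker ψ := by
    rw [RingHom.mem_ker, map_pow, hY, ← map_pow, Ideal.Quotient.eq_zero_iff_mem]
    exact Ideal.pow_mem_pow (Ideal.subset_span (Set.mem_range_self i)) k
  rw [hker] at h1
  exact (map_maximalIdeal_lt_top (algebraMap R S)).ne
    (Ideal.eq_top_of_isUnit_mem _ h1 (hu.pow k))

omit [IsNoetherianRing R] [Module.Flat R S] in
/-- Base case: `n ^ k ≤ m S`. -/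
theorem maximalIdeal_pow_le_map_of_fatPoint
    (ψ : S →+* MvPolynomial (Fin r) L ⧸ idealOfVars (Fin r) L ^ k)
    (hψ : Function.Surjective ψ)
    (hker : RingHom.ker ψ = (maximalIdeal R).map (algebraMap R S)) :
    maximalIdeal S ^ k ≤ (maximalIdeal R).map (algebraMap R S) := by
  have hY : ∀ i : Fin r, ∃ y : S, ψ y = Ideal.Quotient.mk (idealOfVars (Fin r) L ^ k) (X i) :=
    fun i => hψ _
  choose Y hY using hY
  obtain ⟨k', hk'⟩ := Nat.exists_eq_succ_of_ne_zero (fatPoint_exponent_ne_zero ψ hker)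
  have hnY := maximalIdeal_le_span_sup ψ hψ hker Y hY
  calc maximalIdeal S ^ k
      ≤ (Ideal.span (Set.range Y) ⊔ (maximalIdeal R).map (algebraMap R S)) ^ k :=
        Ideal.pow_right_mono hnY _
    _ = (Ideal.span (Set.range Y) ⊔ (maximalIdeal R).map (algebraMap R S)) ^ (k' + 1) := by
        rw [hk']
    _ ≤ Ideal.span (Set.range Y) ^ (k' + 1) ⊔ (maximalIdeal R).map (algebraMap R S) *
          (Ideal.span (Set.range Y) ⊔ (maximalIdeal R).map (algebraMap R S)) ^ k' :=
        sup_pow_succ_le _ _ _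
    _ ≤ (maximalIdeal R).map (algebraMap R S) := by
        refine sup_le ?_ Ideal.mul_le_left
        refine (span_pow_le_span_mon Y (k' + 1)).trans ?_
        rw [Ideal.span_le]
        rintro _ ⟨γ, hγ, rfl⟩
        rw [SetLike.mem_coe, ← hker]
        exact mon_mem_ker ψ Y hY γ (by omega)

/-- **Reduction theorem for fat-point fibres.**  If the closed fibre of a flat local
homomorphism `(R, m) → (S, n)` is `L[y_1, …, y_r] / (y_1, …, y_r) ^ k` with `r ≥ 2`, then
`n ^ (N + k) ≤ m ^ (N + 1) S` for all `N`. -/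
theorem maximalIdeal_pow_add_le_map_pow_of_fatPoint (hr : 2 ≤ r)
    (ψ : S →+* MvPolynomial (Fin r) L ⧸ idealOfVars (Fin r) L ^ k)
    (hψ : Function.Surjective ψ)
    (hker : RingHom.ker ψ = (maximalIdeal R).map (algebraMap R S)) (N : ℕ) :
    maximalIdeal S ^ (N + k) ≤ (maximalIdeal R ^ (N + 1)).map (algebraMap R S) := by
  classical
  have hY : ∀ i : Fin r, ∃ y : S, ψ y = Ideal.Quotient.mk (idealOfVars (Fin r) L ^ k) (X i) :=
    fun i => hψ _
  choose Y hY using hY
  have hnY := maximalIdeal_le_span_sup ψ hψ hker Y hY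
  have hYn := span_le_maximalIdeal_of_fatPoint ψ hker Y hY
  induction N with
  | zero =>
    rw [zero_add, zero_add, pow_one]
    exact maximalIdeal_pow_le_map_of_fatPoint ψ hψ hker
  | succ N ih =>
    obtain ⟨gen, hgen, hcoef⟩ := exists_finset_span_eq_and_coeff_mem R (maximalIdeal R ^ (N + 1))
    have hU : ∀ γ : Fin r →₀ ℕ, ∃ u : R → S, γ.degree = N + k →
        mon Y γ = ∑ x ∈ gen, u x * algebraMap R S x := by
      intro γ
      by_cases h : γ.degree = N + k
      · have hm : mon Y γ ∈ (Ideal.span (gen : Set R)).map (algebraMap R S) := by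
          rw [hgen]
          apply ih
          rw [← h]
          exact Ideal.pow_right_mono hYn _ (mon_mem_pow Y γ)
        obtain ⟨u, hu⟩ := exists_repr_of_mem_map_span gen _ hm
        exact ⟨u, fun _ => hu⟩
      · exact ⟨0, fun h' => absurd h' h⟩
    choose U hU using hU
    have hlift : ∀ s : S, ∃ p : MvPolynomial (Fin r) L,
        Ideal.Quotient.mk (idealOfVars (Fin r) L ^ k) p = ψ s :=
      fun s => Ideal.Quotient.mk_surjective _
    choose lift hlift using hlift
    have hkey : ∀ x ∈ gen, ∀ γ : Fin r →₀ ℕ, γ.degree = N + k → ∀ i : Fin r,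
        Y i * U γ x ∈ (maximalIdeal R).map (algebraMap R S) := by
      intro x hx γ hγ i
      have hrel : ∀ (γ γ' : Fin r →₀ ℕ) (i i' : Fin r), γ.degree = N + k → γ'.degree = N + k →
          γ + Finsupp.single i 1 = γ' + Finsupp.single i' 1 →
          X i * lift (U γ x) - X i' * lift (U γ' x) ∈ idealOfVars (Fin r) L ^ k := by
        intro γ γ' i i' hγ hγ' hsum
        have h1 : ∑ y ∈ gen, (Y i * U γ y - Y i' * U γ' y) * algebraMap R S y = 0 := by
          have e1 : ∑ y ∈ gen, (Y i * U γ y - Y i' * U γ' y) * algebraMap R S y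
              = Y i * ∑ y ∈ gen, U γ y * algebraMap R S y
                - Y i' * ∑ y ∈ gen, U γ' y * algebraMap R S y := by
            rw [Finset.mul_sum, Finset.mul_sum, ← Finset.sum_sub_distrib]
            exact Finset.sum_congr rfl fun y _ => by ring
          rw [e1, ← hU γ hγ, ← hU γ' hγ', mul_comm (Y i), mul_comm (Y i'), ← mon_add_single,
            ← mon_add_single, hsum, sub_self]
        have h2 := coeff_mem_map_of_sum_eq_zero gen hcoef _ h1 x hx
        rw [← hker, RingHom.mem_ker, map_sub, map_mul, map_mul, hY, hY, ← hlift, ← hlift,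
          ← map_mul, ← map_mul, ← map_sub, Ideal.Quotient.eq_zero_iff_mem] at h2
        exact h2
      have h3 := X_mul_mem_of_linear_syzygies hr k (N + k) (by omega)
        (fun γ => lift (U γ x)) hrel γ hγ i
      rw [← hker, RingHom.mem_ker, map_mul, hY, ← hlift, ← map_mul,
        Ideal.Quotient.eq_zero_iff_mem]
      exact h3
    have hmon : ∀ γ : Fin r →₀ ℕ, γ.degree = N + k → ∀ i : Fin r,
        mon Y γ * Y i ∈ (maximalIdeal R ^ (N + 1 + 1)).map (algebraMap R S) := by
      intro γ hγ i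
      rw [hU γ hγ, Finset.sum_mul]
      refine Ideal.sum_mem _ fun x hx => ?_
      have h1 : U γ x * algebraMap R S x * Y i = (Y i * U γ x) * algebraMap R S x := by ring
      rw [h1, pow_succ' (maximalIdeal R) (N + 1), Ideal.map_mul]
      refine Ideal.mul_mem_mul (hkey x hx γ hγ i) (Ideal.mem_map_of_mem _ ?_)
      rw [← hgen]
      exact Ideal.subset_span (Finset.mem_coe.mpr hx)
    have e : N + 1 + k = (N + k) + 1 := by omega
    rw [e]
    calc maximalIdeal S ^ (N + k + 1)
        ≤ (Ideal.span (Set.range Y) ⊔ (maximalIdeal R).map (algebraMap R S)) ^ (N + k + 1) :=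
          Ideal.pow_right_mono hnY _
      _ ≤ Ideal.span (Set.range Y) ^ (N + k + 1) ⊔ (maximalIdeal R).map (algebraMap R S) *
            (Ideal.span (Set.range Y) ⊔ (maximalIdeal R).map (algebraMap R S)) ^ (N + k) :=
          sup_pow_succ_le _ _ _
      _ ≤ (maximalIdeal R ^ (N + 1 + 1)).map (algebraMap R S) := by
          refine sup_le ?_ ?_
          · rw [pow_succ]
            refine (Ideal.mul_mono_left (span_pow_le_span_mon Y (N + k))).trans ?_
            rw [Ideal.span_mul_span', Ideal.span_le]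
            rintro _ ⟨z, ⟨γ, hγ, rfl⟩, _, ⟨i, rfl⟩, rfl⟩
            exact hmon γ hγ i
          · have hsup : Ideal.span (Set.range Y) ⊔ (maximalIdeal R).map (algebraMap R S)
                ≤ maximalIdeal S := sup_le hYn (map_maximalIdeal_le (algebraMap R S))
            calc (maximalIdeal R).map (algebraMap R S) *
                  (Ideal.span (Set.range Y) ⊔ (maximalIdeal R).map (algebraMap R S)) ^ (N + k)
                ≤ (maximalIdeal R).map (algebraMap R S) * maximalIdeal S ^ (N + k) :=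
                  Ideal.mul_mono_right (Ideal.pow_right_mono hsup _)
              _ ≤ (maximalIdeal R).map (algebraMap R S) *
                    (maximalIdeal R ^ (N + 1)).map (algebraMap R S) := Ideal.mul_mono_right ih
              _ = (maximalIdeal R ^ (N + 1 + 1)).map (algebraMap R S) := by
                  rw [← Ideal.map_mul, ← pow_succ']

end FatPoint

/-- Shifted comparison with an arbitrary shift: if `lam * a N ≤ b (N + c)` for all `N`, then
`lam * eR ≤ eS`. -/
theorem leading_coeff_le_shift_add (a b : ℕ → ℕ) (d lam c : ℕ) (eR eS : ℝ)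
    (ha : Tendsto (fun N : ℕ => (d.factorial : ℝ) * (a N : ℝ) / (N : ℝ) ^ d) atTop (𝓝 eR))
    (hb : Tendsto (fun N : ℕ => (d.factorial : ℝ) * (b N : ℝ) / (N : ℝ) ^ d) atTop (𝓝 eS))
    (hab : ∀ N, lam * a N ≤ b (N + c)) :
    (lam : ℝ) * eR ≤ eS := by
  have hb' : Tendsto (fun N : ℕ => (d.factorial : ℝ) * (b (N + c) : ℝ) /
      ((N + c : ℕ) : ℝ) ^ d) atTop (𝓝 eS) := hb.comp (tendsto_add_atTop_nat c)
  have hratio : Tendsto (fun N : ℕ => (((N + c : ℕ) : ℝ) / (N : ℝ)) ^ d) atTop (𝓝 1) := by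
    have h1 : Tendsto (fun N : ℕ => 1 + (c : ℝ) / (N : ℝ)) atTop (𝓝 (1 + 0)) :=
      tendsto_const_nhds.add (tendsto_const_div_atTop_nhds_zero_nat (c : ℝ))
    have h2 := h1.pow d
    simp only [add_zero, one_pow] at h2
    refine h2.congr' ?_
    filter_upwards [eventually_gt_atTop 0] with N hN
    have hN0 : (N : ℝ) ≠ 0 := by positivity
    congr 1
    rw [Nat.cast_add]
    field_simp
  have h3 := hb'.mul hratio
  rw [mul_one] at h3
  refine le_of_tendsto_of_tendsto (ha.const_mul (lam : ℝ)) h3 ?_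
  filter_upwards [eventually_gt_atTop 0] with N hN
  have hN' : (0 : ℝ) < N := by exact_mod_cast hN
  have hN1 : (0 : ℝ) < ((N + c : ℕ) : ℝ) := by positivity
  have hab' : (lam : ℝ) * (a N : ℝ) ≤ (b (N + c) : ℝ) := by exact_mod_cast hab N
  have e2 : (d.factorial : ℝ) * (b (N + c) : ℝ) / ((N + c : ℕ) : ℝ) ^ d *
      (((N + c : ℕ) : ℝ) / (N : ℝ)) ^ d
      = (d.factorial : ℝ) * (b (N + c) : ℝ) / (N : ℝ) ^ d := by
    rw [div_pow]
    field_simp
  have e1 : (lam : ℝ) * ((d.factorial : ℝ) * (a N : ℝ) / (N : ℝ) ^ d)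
      = (d.factorial : ℝ) * ((lam : ℝ) * (a N : ℝ)) / (N : ℝ) ^ d := by ring
  rw [e2, e1]
  gcongr

/-- If `n ^ (N + c) ≤ m ^ N S` for all `N` (that is, `m S` is a reduction of `n`), then
`e(R) ≤ e(S)`, and in fact `e(S) = ℓ(S / m S) * e(R)`. -/
theorem lech_of_pow_add_le {R S : Type*} [CommRing R] [CommRing S]
    [IsLocalRing R] [IsLocalRing S] [IsNoetherianRing R] [IsNoetherianRing S]
    [Algebra R S] [IsLocalHom (algebraMap R S)] [Module.Flat R S] (c : ℕ)
    (h : ∀ N : ℕ, maximalIdeal S ^ (N + c) ≤ (maximalIdeal R ^ N).map (algebraMap R S))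
    (eR eS : ℝ)
    (heR : IsHilbertSamuelMultiplicity R eR) (heS : IsHilbertSamuelMultiplicity S eS) :
    eR ≤ eS ∧ ∀ lam : ℕ,
      Module.length S (S ⧸ (maximalIdeal R).map (algebraMap R S)) = lam →
        eS = (lam : ℝ) * eR := by
  obtain ⟨dR, hdR, hRt⟩ := heR
  obtain ⟨dS, hdS, hSt⟩ := heS
  have hdim : ringKrullDim S = ringKrullDim R :=
    ringKrullDim_eq_of_pow_le (1 + c) (by simpa using h 1)
  have edS : dS = dR := by
    have : (dS : WithBot ℕ∞) = (dR : WithBot ℕ∞) := by rw [← hdS, ← hdR, hdim]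
    exact_mod_cast this
  rw [edS] at hSt
  have hab1 : ∀ N, 1 * (Module.length R (R ⧸ maximalIdeal R ^ N)).toNat
      ≤ (Module.length S (S ⧸ maximalIdeal S ^ (N + c))).toNat := by
    intro N
    have h1 := length_mul_le_length_of_le (R := R) (S := S) N (N + c) (h N)
    have h2 : Module.length R (R ⧸ maximalIdeal R ^ N)
        ≤ Module.length S (S ⧸ maximalIdeal S ^ (N + c)) :=
      (le_mul_of_one_le_right zero_le one_le_length_fibre).trans h1
    rw [one_mul]
    exact ENat.toNat_le_toNat h2 (length_quotient_maximalIdeal_pow_ne_top S (N + c))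
  have hle : eR ≤ eS := by
    have h1 := leading_coeff_le_shift_add _ _ dR 1 c eR eS hRt hSt hab1
    simpa using h1
  refine ⟨hle, fun lam hlam => le_antisymm ?_ ?_⟩
  · refine leading_coeff_ge _ _ dR lam eR eS hRt hSt fun N => ?_
    have h1 := length_le_length_mul (R := R) (S := S) N
    rw [hlam] at h1
    have hfin : Module.length R (R ⧸ maximalIdeal R ^ N) * (lam : ℕ∞) ≠ ⊤ :=
      WithTop.mul_ne_top (length_quotient_maximalIdeal_pow_ne_top R N) (ENat.natCast_ne_top lam)
    have h2 := ENat.toNat_le_toNat h1 hfin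
    rw [ENat.toNat_mul, ENat.toNat_natCast, mul_comm] at h2
    exact h2
  · refine leading_coeff_le_shift_add _ _ dR lam c eR eS hRt hSt fun N => ?_
    have h1 := length_mul_le_length_of_le (R := R) (S := S) N (N + c) (h N)
    rw [hlam] at h1
    have h2 := ENat.toNat_le_toNat h1 (length_quotient_maximalIdeal_pow_ne_top S (N + c))
    rw [ENat.toNat_mul, ENat.toNat_natCast, mul_comm] at h2
    exact h2

/-- **Lech's inequality for fat-point fibres.**  Let `(R, m) → (S, n)` be a flat local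
homomorphism of Noetherian local rings whose closed fibre `S / m S` is isomorphic to
`L[y_1, …, y_r] / (y_1, …, y_r) ^ k` for a field `L` and `r ≥ 2`.  Then
`n ^ (N + k) ≤ m ^ (N + 1) S` for all `N`, `e(R) ≤ e(S)`, and `e(S) = ℓ(S / m S) * e(R)`. -/
theorem lech_of_fatPoint_fibre {R S : Type*} [CommRing R] [CommRing S]
    [IsLocalRing R] [IsLocalRing S] [IsNoetherianRing R] [IsNoetherianRing S]
    [Algebra R S] [IsLocalHom (algebraMap R S)] [Module.Flat R S]
    {L : Type*} [Field L] (r k : ℕ) (hr : 2 ≤ r)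
    (e : (S ⧸ (maximalIdeal R).map (algebraMap R S)) ≃+*
      (MvPolynomial (Fin r) L ⧸ idealOfVars (Fin r) L ^ k))
    (eR eS : ℝ)
    (heR : IsHilbertSamuelMultiplicity R eR) (heS : IsHilbertSamuelMultiplicity S eS) :
    (∀ N : ℕ, maximalIdeal S ^ (N + k) ≤ (maximalIdeal R ^ (N + 1)).map (algebraMap R S)) ∧
      eR ≤ eS ∧ ∀ lam : ℕ,
        Module.length S (S ⧸ (maximalIdeal R).map (algebraMap R S)) = lam →
          eS = (lam : ℝ) * eR := by
  have hψ : Function.Surjective
      ((e : (S ⧸ (maximalIdeal R).map (algebraMap R S)) →+*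
        (MvPolynomial (Fin r) L ⧸ idealOfVars (Fin r) L ^ k)).comp
        (Ideal.Quotient.mk ((maximalIdeal R).map (algebraMap R S)))) :=
    e.surjective.comp Ideal.Quotient.mk_surjective
  have hker : RingHom.ker
      ((e : (S ⧸ (maximalIdeal R).map (algebraMap R S)) →+*
        (MvPolynomial (Fin r) L ⧸ idealOfVars (Fin r) L ^ k)).comp
        (Ideal.Quotient.mk ((maximalIdeal R).map (algebraMap R S))))
      = (maximalIdeal R).map (algebraMap R S) := by
    ext s
    rw [RingHom.mem_ker, RingHom.comp_apply, RingEquiv.coe_toRingHom, map_eq_zero_iff _ e.injective,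
      Ideal.Quotient.eq_zero_iff_mem]
  have hmain := fun N => maximalIdeal_pow_add_le_map_pow_of_fatPoint hr _ hψ hker N
  refine ⟨hmain, ?_⟩
  refine lech_of_pow_add_le k (fun N => (hmain N).trans ?_) eR eS heR heS
  exact Ideal.map_mono (Ideal.pow_le_pow_right (Nat.le_succ N))

end Vale.Agent.H54
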