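import Mathlib
import Vale.Agent.H54.FatPoint

/-!
# Lech-type inequality for fibres that are truncated polynomial rings up to a given order

Support file for P202.  Let `(R, m) → (S, n)` be a flat local homomorphism of Noetherian local
rings with `n ^ (t + c) ≤ m S` and `S / (m S + n ^ (t + 1)) ≅ L[y_1, …, y_r] / (y) ^ (t + 1)`,
`r ≥ 2`, `t ≥ 1`, `c ≥ 1`.  Then `n ^ (c * N + t) ≤ m ^ N S` for all `N`, and hence
`ℓ(S / m S) * e(R) ≤ c ^ dim R * e(S)`.
-/

namespace Vale.Agent.H54

open IsLocalRing Filter Topology MvPolynomial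

section FibreOrder

variable {R S : Type*} [CommRing R] [CommRing S] [IsLocalRing R] [IsLocalRing S]
  [IsNoetherianRing R] [IsNoetherianRing S] [Algebra R S] [IsLocalHom (algebraMap R S)]
  [Module.Flat R S] {L : Type*} [Field L] {r t : ℕ}

omit [IsLocalRing R] [IsNoetherianRing R] [IsNoetherianRing S] [Algebra R S]
  [IsLocalHom (algebraMap R S)] [Module.Flat R S] in
/-- An element of `n` is mapped to the class of a polynomial without constant term. -/
theorem coeff_zero_eq_zero_of_mem_of_ker_le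
    (ψ : S →+* MvPolynomial (Fin r) L ⧸ idealOfVars (Fin r) L ^ (t + 1))
    (hψ : Function.Surjective ψ) (hker : RingHom.ker ψ ≤ maximalIdeal S)
    (s : S) (hs : s ∈ maximalIdeal S) (p : MvPolynomial (Fin r) L)
    (hp : Ideal.Quotient.mk (idealOfVars (Fin r) L ^ (t + 1)) p = ψ s) : p.coeff 0 = 0 := by
  by_contra hc
  have hmem : p - C (p.coeff 0) ∈ idealOfVars (Fin r) L ^ 1 := by
    rw [mem_pow_idealOfVars_iff']
    intro x hx
    have hx0 : x = 0 := by
      rw [← Finsupp.degree_eq_zero_iff]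
      omega
    rw [hx0, coeff_sub, coeff_zero_C, sub_self]
  have hnil : IsNilpotent
      (Ideal.Quotient.mk (idealOfVars (Fin r) L ^ (t + 1)) (p - C (p.coeff 0))) := by
    refine ⟨t + 1, ?_⟩
    rw [← map_pow, Ideal.Quotient.eq_zero_iff_mem]
    have := Ideal.pow_mem_pow hmem (t + 1)
    rwa [← pow_mul, one_mul] at this
  have hu : IsUnit (Ideal.Quotient.mk (idealOfVars (Fin r) L ^ (t + 1)) (C (p.coeff 0))) :=
    ((IsUnit.mk0 _ hc).map C).map _
  have hunit : IsUnit (ψ s) := by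
    rw [← hp]
    have h1 := hnil.isUnit_add_left_of_commute hu (Commute.all _ _)
    rw [← map_add] at h1
    convert h1 using 2
    ring
  obtain ⟨u, hu'⟩ := hunit
  obtain ⟨s', hs'⟩ := hψ (↑u⁻¹)
  have h1 : s * s' - 1 ∈ RingHom.ker ψ := by
    rw [RingHom.mem_ker, map_sub, map_mul, map_one, hs', ← hu', Units.mul_inv, sub_self]
  have h2 : s * s' - 1 ∈ maximalIdeal S := hker h1
  have h3 : (1 : S) ∈ maximalIdeal S := by
    have := sub_mem (Ideal.mul_mem_right s' _ hs) h2
    rwa [sub_sub_cancel] at this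
  exact (Ideal.ne_top_iff_one _).mp (IsLocalRing.maximalIdeal.isMaximal S).ne_top h3

omit [IsLocalRing R] [IsNoetherianRing R] [IsNoetherianRing S] [Algebra R S]
  [IsLocalHom (algebraMap R S)] [Module.Flat R S] in
/-- The maximal ideal of `S` is generated by lifts of the variables modulo the kernel. -/
theorem maximalIdeal_le_span_sup_ker
    (ψ : S →+* MvPolynomial (Fin r) L ⧸ idealOfVars (Fin r) L ^ (t + 1))
    (hψ : Function.Surjective ψ) (hker : RingHom.ker ψ ≤ maximalIdeal S)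
    (Y : Fin r → S)
    (hY : ∀ i, ψ (Y i) = Ideal.Quotient.mk (idealOfVars (Fin r) L ^ (t + 1)) (X i)) :
    maximalIdeal S ≤ Ideal.span (Set.range Y) ⊔ RingHom.ker ψ := by
  intro s hs
  obtain ⟨p, hp⟩ := Ideal.Quotient.mk_surjective (ψ s)
  have hc := coeff_zero_eq_zero_of_mem_of_ker_le ψ hψ hker s hs p hp
  have hmem : p ∈ idealOfVars (Fin r) L ^ 1 := by
    rw [mem_pow_idealOfVars_iff']
    intro x hx
    have hx0 : x = 0 := by
      rw [← Finsupp.degree_eq_zero_iff]
      omega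
    rw [hx0, hc]
  rw [pow_one, Ideal.mem_span_range_iff_exists_fun] at hmem
  obtain ⟨c, hcsum⟩ := hmem
  have hlift : ∀ i, ∃ u : S, ψ u = Ideal.Quotient.mk (idealOfVars (Fin r) L ^ (t + 1)) (c i) :=
    fun i => hψ _
  choose u hu using hlift
  have h1 : s - ∑ i, u i * Y i ∈ RingHom.ker ψ := by
    rw [RingHom.mem_ker, map_sub, map_sum, ← hp, ← hcsum, map_sum, sub_eq_zero]
    refine Finset.sum_congr rfl fun i _ => ?_
    rw [map_mul, map_mul, hu, hY]
  have h2 : s = ∑ i, u i * Y i + (s - ∑ i, u i * Y i) := by ring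
  rw [h2]
  refine Ideal.add_mem _ (Ideal.mem_sup_left ?_) (Ideal.mem_sup_right h1)
  exact Ideal.sum_mem _ fun i _ => Ideal.mul_mem_left _ _ (Ideal.subset_span (Set.mem_range_self i))

omit [IsLocalRing R] [IsNoetherianRing R] [IsNoetherianRing S] [Algebra R S]
  [IsLocalHom (algebraMap R S)] [Module.Flat R S] in
/-- The lifts of the variables lie in the maximal ideal. -/
theorem span_le_maximalIdeal_of_ker_le
    (ψ : S →+* MvPolynomial (Fin r) L ⧸ idealOfVars (Fin r) L ^ (t + 1))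
    (hker : RingHom.ker ψ ≤ maximalIdeal S) (Y : Fin r → S)
    (hY : ∀ i, ψ (Y i) = Ideal.Quotient.mk (idealOfVars (Fin r) L ^ (t + 1)) (X i)) :
    Ideal.span (Set.range Y) ≤ maximalIdeal S := by
  rw [Ideal.span_le]
  rintro _ ⟨i, rfl⟩
  rw [SetLike.mem_coe, IsLocalRing.mem_maximalIdeal, mem_nonunits_iff]
  intro hu
  have h1 : Y i ^ (t + 1) ∈ RingHom.ker ψ := by
    rw [RingHom.mem_ker, map_pow, hY, ← map_pow, Ideal.Quotient.eq_zero_iff_mem]
    exact Ideal.pow_mem_pow (Ideal.subset_span (Set.mem_range_self i)) (t + 1)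
  exact (IsLocalRing.maximalIdeal.isMaximal S).ne_top
    (Ideal.eq_top_of_isUnit_mem _ (hker h1) (hu.pow (t + 1)))

omit [IsNoetherianRing R] [Module.Flat R S] [IsLocalHom (algebraMap R S)] in
/-- Nakayama: `n = (Y) + m S` as soon as `n = (Y) + m S + n ^ (t + 1)` with `t ≥ 1`. -/
theorem maximalIdeal_le_span_sup_map (ht : 1 ≤ t)
    (ψ : S →+* MvPolynomial (Fin r) L ⧸ idealOfVars (Fin r) L ^ (t + 1))
    (hψ : Function.Surjective ψ)
    (hker : RingHom.ker ψ = (maximalIdeal R).map (algebraMap R S) ⊔ maximalIdeal S ^ (t + 1))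
    (hle : (maximalIdeal R).map (algebraMap R S) ≤ maximalIdeal S)
    (Y : Fin r → S)
    (hY : ∀ i, ψ (Y i) = Ideal.Quotient.mk (idealOfVars (Fin r) L ^ (t + 1)) (X i)) :
    maximalIdeal S ≤ Ideal.span (Set.range Y) ⊔ (maximalIdeal R).map (algebraMap R S) := by
  have hkerle : RingHom.ker ψ ≤ maximalIdeal S := by
    rw [hker]
    exact sup_le hle (Ideal.pow_le_self (Nat.succ_ne_zero t))
  have h1 := maximalIdeal_le_span_sup_ker ψ hψ hkerle Y hY
  refine Submodule.le_of_le_smul_of_le_jacobson_bot (I := maximalIdeal S)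
    (IsNoetherian.noetherian (maximalIdeal S))
    (le_of_eq (IsLocalRing.jacobson_eq_maximalIdeal ⊥ bot_ne_top).symm) ?_
  refine h1.trans ?_
  rw [hker, ← sup_assoc]
  refine sup_le_sup le_rfl ?_
  rw [smul_eq_mul, ← pow_two]
  exact Ideal.pow_le_pow_right (by omega)

omit [IsNoetherianRing S] [IsLocalHom (algebraMap R S)] in
/-- Core step: if `n ^ K ≤ m ^ J S` with `K ≥ t`, then every monomial of degree `K` in the lifts
of the variables lies in `m ^ J S * n ^ t + m ^ (J + 1) S`. -/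
theorem mon_mem_map_pow_mul_pow (hr : 2 ≤ r)
    (ψ : S →+* MvPolynomial (Fin r) L ⧸ idealOfVars (Fin r) L ^ (t + 1))
    (hψ : Function.Surjective ψ)
    (hker : RingHom.ker ψ = (maximalIdeal R).map (algebraMap R S) ⊔ maximalIdeal S ^ (t + 1))
    (Y : Fin r → S)
    (hY : ∀ i, ψ (Y i) = Ideal.Quotient.mk (idealOfVars (Fin r) L ^ (t + 1)) (X i))
    (hYn : Ideal.span (Set.range Y) ≤ maximalIdeal S)
    (K J : ℕ) (hK : t ≤ K)
    (hA : maximalIdeal S ^ K ≤ (maximalIdeal R ^ J).map (algebraMap R S))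
    (γ : Fin r →₀ ℕ) (hγ : γ.degree = K) :
    mon Y γ ∈ (maximalIdeal R ^ J).map (algebraMap R S) * maximalIdeal S ^ t ⊔
      (maximalIdeal R ^ (J + 1)).map (algebraMap R S) := by
  classical
  obtain ⟨gen, hgen, hcoef⟩ := exists_finset_span_eq_and_coeff_mem R (maximalIdeal R ^ J)
  have hU : ∀ γ : Fin r →₀ ℕ, ∃ u : R → S, γ.degree = K →
      mon Y γ = ∑ x ∈ gen, u x * algebraMap R S x := by
    intro γ
    by_cases h : γ.degree = K
    · have hm : mon Y γ ∈ (Ideal.span (gen : Set R)).map (algebraMap R S) := by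
        rw [hgen]
        apply hA
        rw [← h]
        exact Ideal.pow_right_mono hYn _ (mon_mem_pow Y γ)
      obtain ⟨u, hu⟩ := exists_repr_of_mem_map_span gen _ hm
      exact ⟨u, fun _ => hu⟩
    · exact ⟨0, fun h' => absurd h' h⟩
  choose U hU using hU
  have hlift : ∀ s : S, ∃ p : MvPolynomial (Fin r) L,
      Ideal.Quotient.mk (idealOfVars (Fin r) L ^ (t + 1)) p = ψ s :=
    fun s => Ideal.Quotient.mk_surjective _
  choose lift hlift using hlift
  have hkey : ∀ x ∈ gen, ∀ γ : Fin r →₀ ℕ, γ.degree = K →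
      U γ x ∈ maximalIdeal S ^ t ⊔ (maximalIdeal R).map (algebraMap R S) := by
    intro x hx γ hγ
    have hrel : ∀ (γ γ' : Fin r →₀ ℕ) (i i' : Fin r), γ.degree = K → γ'.degree = K →
        γ + Finsupp.single i 1 = γ' + Finsupp.single i' 1 →
        X i * lift (U γ x) - X i' * lift (U γ' x) ∈ idealOfVars (Fin r) L ^ (t + 1) := by
      intro γ γ' i i' hγ hγ' hsum
      have h1 : ∑ y ∈ gen, (Y i * U γ y - Y i' * U γ' y) * algebraMap R S y = 0 := by
        have e1 : ∑ y ∈ gen, (Y i * U γ y - Y i' * U γ' y) * algebraMap R S y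
            = Y i * ∑ y ∈ gen, U γ y * algebraMap R S y
              - Y i' * ∑ y ∈ gen, U γ' y * algebraMap R S y := by
          rw [Finset.mul_sum, Finset.mul_sum, ← Finset.sum_sub_distrib]
          exact Finset.sum_congr rfl fun y _ => by ring
        rw [e1, ← hU γ hγ, ← hU γ' hγ', mul_comm (Y i), mul_comm (Y i'), ← mon_add_single,
          ← mon_add_single, hsum, sub_self]
      have h2 := coeff_mem_map_of_sum_eq_zero gen hcoef _ h1 x hx
      have h2' : Y i * U γ x - Y i' * U γ' x ∈ RingHom.ker ψ := by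
        rw [hker]
        exact Ideal.mem_sup_left h2
      rw [RingHom.mem_ker, map_sub, map_mul, map_mul, hY, hY, ← hlift, ← hlift,
        ← map_mul, ← map_mul, ← map_sub, Ideal.Quotient.eq_zero_iff_mem] at h2'
      exact h2'
    have hmem : lift (U γ x) ∈ idealOfVars (Fin r) L ^ t := by
      rw [mem_pow_idealOfVars_iff']
      intro β hβ
      exact coeff_eq_zero_of_linear_syzygies hr (t + 1) K (by omega)
        (fun γ => lift (U γ x)) hrel γ β hγ (by omega)
    have hmap : Ideal.map ψ (Ideal.span (Set.range Y) ^ t)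
        = Ideal.map (Ideal.Quotient.mk (idealOfVars (Fin r) L ^ (t + 1)))
            (idealOfVars (Fin r) L ^ t) := by
      rw [Ideal.map_pow, Ideal.map_pow, Ideal.map_span, Ideal.map_span, ← Set.range_comp,
        ← Set.range_comp]
      congr 3
      funext i
      exact hY i
    have h3 : ψ (U γ x) ∈ Ideal.map ψ (Ideal.span (Set.range Y) ^ t) := by
      rw [hmap, ← hlift]
      exact Ideal.mem_map_of_mem _ hmem
    obtain ⟨s, hs, hs'⟩ := (Ideal.mem_map_iff_of_surjective ψ hψ).mp h3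
    have h4 : U γ x - s ∈ RingHom.ker ψ := by
      rw [RingHom.mem_ker, map_sub, hs', sub_self]
    rw [hker] at h4
    have h5 : U γ x = s + (U γ x - s) := by ring
    rw [h5]
    refine Ideal.add_mem _ (Ideal.mem_sup_left (Ideal.pow_right_mono hYn t hs)) ?_
    have h8 : (maximalIdeal R).map (algebraMap R S) ⊔ maximalIdeal S ^ (t + 1) ≤
        maximalIdeal S ^ t ⊔ (maximalIdeal R).map (algebraMap R S) :=
      sup_le le_sup_right (le_sup_of_le_left (Ideal.pow_le_pow_right (Nat.le_succ t)))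
    exact h8 h4
  rw [hU γ hγ]
  refine Ideal.sum_mem _ fun x hx => ?_
  have hx' : algebraMap R S x ∈ (maximalIdeal R ^ J).map (algebraMap R S) := by
    refine Ideal.mem_map_of_mem _ ?_
    rw [← hgen]
    exact Ideal.subset_span (Finset.mem_coe.mpr hx)
  have h6 : U γ x * algebraMap R S x ∈
      (maximalIdeal S ^ t ⊔ (maximalIdeal R).map (algebraMap R S)) *
        (maximalIdeal R ^ J).map (algebraMap R S) :=
    Ideal.mul_mem_mul (hkey x hx γ hγ) hx'
  have h7 : (maximalIdeal S ^ t ⊔ (maximalIdeal R).map (algebraMap R S)) *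
        (maximalIdeal R ^ J).map (algebraMap R S)
      ≤ (maximalIdeal R ^ J).map (algebraMap R S) * maximalIdeal S ^ t ⊔
        (maximalIdeal R ^ (J + 1)).map (algebraMap R S) := by
    rw [Ideal.sup_mul]
    refine sup_le_sup (le_of_eq (mul_comm _ _)) (le_of_eq ?_)
    rw [← Ideal.map_mul, ← pow_succ']
  exact h7 h6

/-- **Main containment.** -/
theorem maximalIdeal_pow_le_of_fibreOrder (hr : 2 ≤ r) (ht : 1 ≤ t)
    (ψ : S →+* MvPolynomial (Fin r) L ⧸ idealOfVars (Fin r) L ^ (t + 1))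
    (hψ : Function.Surjective ψ)
    (hker : RingHom.ker ψ = (maximalIdeal R).map (algebraMap R S) ⊔ maximalIdeal S ^ (t + 1))
    (c' : ℕ)
    (h1 : maximalIdeal S ^ (t + (c' + 1)) ≤ (maximalIdeal R).map (algebraMap R S)) (j : ℕ) :
    maximalIdeal S ^ (t + (c' + 1) + j * (c' + 1)) ≤
      (maximalIdeal R ^ (j + 1)).map (algebraMap R S) * maximalIdeal S ^ t ⊔
        (maximalIdeal R ^ (j + 2)).map (algebraMap R S) := by
  have hY : ∀ i : Fin r, ∃ y : S,
      ψ y = Ideal.Quotient.mk (idealOfVars (Fin r) L ^ (t + 1)) (X i) := fun i => hψ _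
  choose Y hY using hY
  have hle : (maximalIdeal R).map (algebraMap R S) ≤ maximalIdeal S :=
    map_maximalIdeal_le (algebraMap R S)
  have hkerle : RingHom.ker ψ ≤ maximalIdeal S := by
    rw [hker]
    exact sup_le hle (Ideal.pow_le_self (Nat.succ_ne_zero t))
  have hYn := span_le_maximalIdeal_of_ker_le ψ hkerle Y hY
  have hnY := maximalIdeal_le_span_sup_map ht ψ hψ hker hle Y hY
  have step : ∀ (K J : ℕ), t ≤ K + 1 →
      maximalIdeal S ^ (K + 1) ≤ (maximalIdeal R ^ J).map (algebraMap R S) →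
      (maximalIdeal R).map (algebraMap R S) * maximalIdeal S ^ K ≤
        (maximalIdeal R ^ J).map (algebraMap R S) * maximalIdeal S ^ t ⊔
          (maximalIdeal R ^ (J + 1)).map (algebraMap R S) →
      maximalIdeal S ^ (K + 1) ≤
        (maximalIdeal R ^ J).map (algebraMap R S) * maximalIdeal S ^ t ⊔
          (maximalIdeal R ^ (J + 1)).map (algebraMap R S) := by
    intro K J hK hA hC
    calc maximalIdeal S ^ (K + 1)
        ≤ (Ideal.span (Set.range Y) ⊔ (maximalIdeal R).map (algebraMap R S)) ^ (K + 1) :=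
          Ideal.pow_right_mono hnY _
      _ ≤ Ideal.span (Set.range Y) ^ (K + 1) ⊔ (maximalIdeal R).map (algebraMap R S) *
            (Ideal.span (Set.range Y) ⊔ (maximalIdeal R).map (algebraMap R S)) ^ K :=
          sup_pow_succ_le _ _ _
      _ ≤ (maximalIdeal R ^ J).map (algebraMap R S) * maximalIdeal S ^ t ⊔
            (maximalIdeal R ^ (J + 1)).map (algebraMap R S) := by
          refine sup_le ?_ ?_
          · refine (span_pow_le_span_mon Y (K + 1)).trans ?_
            rw [Ideal.span_le]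
            rintro _ ⟨γ, hγ, rfl⟩
            exact mon_mem_map_pow_mul_pow hr ψ hψ hker Y hY hYn (K + 1) J hK hA γ hγ
          · exact (Ideal.mul_mono_right (Ideal.pow_right_mono (sup_le hYn hle) K)).trans hC
  induction j with
  | zero =>
    have e : t + (c' + 1) + 0 * (c' + 1) = (t + c') + 1 := by omega
    rw [e]
    refine step (t + c') 1 (by omega) ?_ ?_
    · rw [pow_one]
      have e2 : t + c' + 1 = t + (c' + 1) := by omega
      rw [e2]
      exact h1
    · rw [pow_one]
      exact le_sup_of_le_left (Ideal.mul_mono_right (Ideal.pow_le_pow_right (by omega)))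
  | succ j ih =>
    have e : t + (c' + 1) + (j + 1) * (c' + 1) = (t + (c' + 1) + j * (c' + 1) + c') + 1 := by
      ring
    rw [e]
    have hA : maximalIdeal S ^ ((t + (c' + 1) + j * (c' + 1) + c') + 1) ≤
        (maximalIdeal R ^ (j + 1 + 1)).map (algebraMap R S) := by
      have e2 : (t + (c' + 1) + j * (c' + 1) + c') + 1
          = (t + (c' + 1) + j * (c' + 1)) + (c' + 1) := by ring
      rw [e2, pow_add]
      refine (Ideal.mul_mono_left ih).trans ?_
      rw [Ideal.sup_mul]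
      refine sup_le ?_ Ideal.mul_le_left
      rw [mul_assoc, ← pow_add]
      refine (Ideal.mul_mono_right h1).trans (le_of_eq ?_)
      rw [← Ideal.map_mul, ← pow_succ]
    have hC : (maximalIdeal R).map (algebraMap R S) *
          maximalIdeal S ^ (t + (c' + 1) + j * (c' + 1) + c') ≤
        (maximalIdeal R ^ (j + 1 + 1)).map (algebraMap R S) * maximalIdeal S ^ t ⊔
          (maximalIdeal R ^ (j + 1 + 1 + 1)).map (algebraMap R S) := by
      rw [pow_add]
      refine (Ideal.mul_mono_right (Ideal.mul_mono_left ih)).trans ?_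
      rw [Ideal.sup_mul, Ideal.mul_sup]
      refine sup_le_sup ?_ ?_
      · rw [mul_assoc, ← mul_assoc, ← Ideal.map_mul, ← pow_succ']
        exact Ideal.mul_mono_right Ideal.mul_le_left
      · rw [← mul_assoc, ← Ideal.map_mul, ← pow_succ']
        exact Ideal.mul_le_left
    exact step _ (j + 1 + 1) (by omega) hA hC

/-- Consequence: `n ^ (c * N + t) ≤ m ^ N S`. -/
theorem maximalIdeal_pow_mul_add_le_of_fibreOrder (hr : 2 ≤ r) (ht : 1 ≤ t)
    (ψ : S →+* MvPolynomial (Fin r) L ⧸ idealOfVars (Fin r) L ^ (t + 1))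
    (hψ : Function.Surjective ψ)
    (hker : RingHom.ker ψ = (maximalIdeal R).map (algebraMap R S) ⊔ maximalIdeal S ^ (t + 1))
    (c' : ℕ)
    (h1 : maximalIdeal S ^ (t + (c' + 1)) ≤ (maximalIdeal R).map (algebraMap R S)) (N : ℕ) :
    maximalIdeal S ^ ((c' + 1) * N + t) ≤ (maximalIdeal R ^ N).map (algebraMap R S) := by
  cases N with
  | zero =>
    rw [pow_zero, Ideal.one_eq_top, Ideal.map_top]
    exact le_top
  | succ j =>
    have e : (c' + 1) * (j + 1) + t = t + (c' + 1) + j * (c' + 1) := by ring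
    rw [e]
    refine (maximalIdeal_pow_le_of_fibreOrder hr ht ψ hψ hker c' h1 j).trans ?_
    exact sup_le Ideal.mul_le_left (Ideal.map_mono (Ideal.pow_le_pow_right (by omega)))

end FibreOrder

/-- Affine comparison: if `lam * a N ≤ b (c * N + s)` for all `N`, then `lam * eR ≤ c ^ d * eS`. -/
theorem leading_coeff_le_affine (a b : ℕ → ℕ) (d lam c s : ℕ) (hc : 0 < c) (eR eS : ℝ)
    (ha : Tendsto (fun N : ℕ => (d.factorial : ℝ) * (a N : ℝ) / (N : ℝ) ^ d) atTop (𝓝 eR))
    (hb : Tendsto (fun N : ℕ => (d.factorial : ℝ) * (b N : ℝ) / (N : ℝ) ^ d) atTop (𝓝 eS))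
    (hab : ∀ N, lam * a N ≤ b (c * N + s)) :
    (lam : ℝ) * eR ≤ (c : ℝ) ^ d * eS := by
  have hcN : Tendsto (fun N : ℕ => c * N + s) atTop atTop :=
    tendsto_atTop_mono (fun N => (Nat.le_mul_of_pos_left N hc).trans (Nat.le_add_right _ _))
      tendsto_id
  have hb' : Tendsto (fun N : ℕ => (d.factorial : ℝ) * (b (c * N + s) : ℝ) /
      ((c * N + s : ℕ) : ℝ) ^ d) atTop (𝓝 eS) := hb.comp hcN
  have hratio : Tendsto (fun N : ℕ => (((c * N + s : ℕ) : ℝ) / (N : ℝ)) ^ d) atTop
      (𝓝 ((c : ℝ) ^ d)) := by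
    have h1 : Tendsto (fun N : ℕ => (c : ℝ) + (s : ℝ) / (N : ℝ)) atTop (𝓝 ((c : ℝ) + 0)) :=
      tendsto_const_nhds.add (tendsto_const_div_atTop_nhds_zero_nat (s : ℝ))
    have h2 := h1.pow d
    simp only [add_zero] at h2
    refine h2.congr' ?_
    filter_upwards [eventually_gt_atTop 0] with N hN
    have hN0 : (N : ℝ) ≠ 0 := by positivity
    congr 1
    rw [Nat.cast_add, Nat.cast_mul]
    field_simp
  have h3 := hb'.mul hratio
  rw [mul_comm eS] at h3
  refine le_of_tendsto_of_tendsto (ha.const_mul (lam : ℝ)) h3 ?_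
  filter_upwards [eventually_gt_atTop 0] with N hN
  have hN' : (0 : ℝ) < N := by exact_mod_cast hN
  have hc' : 0 < c * N + s := by positivity
  have hN1 : (0 : ℝ) < ((c * N + s : ℕ) : ℝ) := by exact_mod_cast hc'
  have hab' : (lam : ℝ) * (a N : ℝ) ≤ (b (c * N + s) : ℝ) := by exact_mod_cast hab N
  have e2 : (d.factorial : ℝ) * (b (c * N + s) : ℝ) / ((c * N + s : ℕ) : ℝ) ^ d *
      (((c * N + s : ℕ) : ℝ) / (N : ℝ)) ^ d
      = (d.factorial : ℝ) * (b (c * N + s) : ℝ) / (N : ℝ) ^ d := by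
    rw [div_pow]
    field_simp
  have e1 : (lam : ℝ) * ((d.factorial : ℝ) * (a N : ℝ) / (N : ℝ) ^ d)
      = (d.factorial : ℝ) * ((lam : ℝ) * (a N : ℝ)) / (N : ℝ) ^ d := by ring
  rw [e2, e1]
  gcongr

/-- **Lech-type inequality for fibres of maximal Hilbert function up to order `t`.**
Let `(R, m) → (S, n)` be a flat local homomorphism of Noetherian local rings such that
`n ^ (t + c) ≤ m S` and `S / (m S + n ^ (t + 1))` is isomorphic to
`L[y_1, …, y_r] / (y_1, …, y_r) ^ (t + 1)` for a field `L`, with `r ≥ 2`, `t ≥ 1`, `c ≥ 1`.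
Then `n ^ (c * N + t) ≤ m ^ N S` for all `N`, and `ℓ(S / m S) * e(R) ≤ c ^ dim R * e(S)`. -/
theorem lech_of_fibre_order {R S : Type*} [CommRing R] [CommRing S]
    [IsLocalRing R] [IsLocalRing S] [IsNoetherianRing R] [IsNoetherianRing S]
    [Algebra R S] [IsLocalHom (algebraMap R S)] [Module.Flat R S]
    {L : Type*} [Field L] (r t c : ℕ) (hr : 2 ≤ r) (ht : 1 ≤ t) (hc : 1 ≤ c)
    (h1 : maximalIdeal S ^ (t + c) ≤ (maximalIdeal R).map (algebraMap R S))
    (e : (S ⧸ ((maximalIdeal R).map (algebraMap R S) ⊔ maximalIdeal S ^ (t + 1))) ≃+*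
      (MvPolynomial (Fin r) L ⧸ idealOfVars (Fin r) L ^ (t + 1)))
    (d : ℕ) (hR : ringKrullDim R = d) (eR eS : ℝ)
    (heR : IsHilbertSamuelMultiplicity R eR) (heS : IsHilbertSamuelMultiplicity S eS)
    (lam : ℕ) (hlam : Module.length S (S ⧸ (maximalIdeal R).map (algebraMap R S)) = lam) :
    (∀ N : ℕ, maximalIdeal S ^ (c * N + t) ≤ (maximalIdeal R ^ N).map (algebraMap R S)) ∧
      (lam : ℝ) * eR ≤ (c : ℝ) ^ d * eS ∧ eS ≤ (lam : ℝ) * eR ∧
        ((c : ℝ) ^ d ≤ (lam : ℝ) → eR ≤ eS) := by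
  obtain ⟨c', rfl⟩ : ∃ c', c = c' + 1 := ⟨c - 1, by omega⟩
  have hψ : Function.Surjective
      ((e : (S ⧸ ((maximalIdeal R).map (algebraMap R S) ⊔ maximalIdeal S ^ (t + 1))) →+*
        (MvPolynomial (Fin r) L ⧸ idealOfVars (Fin r) L ^ (t + 1))).comp
        (Ideal.Quotient.mk ((maximalIdeal R).map (algebraMap R S) ⊔ maximalIdeal S ^ (t + 1)))) :=
    e.surjective.comp Ideal.Quotient.mk_surjective
  have hker : RingHom.ker
      ((e : (S ⧸ ((maximalIdeal R).map (algebraMap R S) ⊔ maximalIdeal S ^ (t + 1))) →+*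
        (MvPolynomial (Fin r) L ⧸ idealOfVars (Fin r) L ^ (t + 1))).comp
        (Ideal.Quotient.mk ((maximalIdeal R).map (algebraMap R S) ⊔ maximalIdeal S ^ (t + 1))))
      = (maximalIdeal R).map (algebraMap R S) ⊔ maximalIdeal S ^ (t + 1) := by
    ext s
    rw [RingHom.mem_ker, RingHom.comp_apply, RingEquiv.coe_toRingHom, map_eq_zero_iff _ e.injective,
      Ideal.Quotient.eq_zero_iff_mem]
  have hmain := fun N =>
    maximalIdeal_pow_mul_add_le_of_fibreOrder hr ht _ hψ hker c' h1 N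
  refine ⟨hmain, ?_⟩
  obtain ⟨dR, hdR, hRt⟩ := heR
  obtain ⟨dS, hdS, hSt⟩ := heS
  have hS : ringKrullDim S = d := (ringKrullDim_eq_of_pow_le (t + (c' + 1)) h1).trans hR
  have edR : dR = d := by
    have : (dR : WithBot ℕ∞) = (d : WithBot ℕ∞) := hdR.symm.trans hR
    exact_mod_cast this
  have edS : dS = d := by
    have : (dS : WithBot ℕ∞) = (d : WithBot ℕ∞) := hdS.symm.trans hS
    exact_mod_cast this
  rw [edR] at hRt
  rw [edS] at hSt
  have hab : ∀ N, lam * (Module.length R (R ⧸ maximalIdeal R ^ N)).toNat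
      ≤ (Module.length S (S ⧸ maximalIdeal S ^ ((c' + 1) * N + t))).toNat := by
    intro N
    have h2 := length_mul_le_length_of_le (R := R) (S := S) N ((c' + 1) * N + t) (hmain N)
    rw [hlam] at h2
    have h3 := ENat.toNat_le_toNat h2
      (length_quotient_maximalIdeal_pow_ne_top S ((c' + 1) * N + t))
    rw [ENat.toNat_mul, ENat.toNat_natCast, mul_comm] at h3
    exact h3
  have main := leading_coeff_le_affine
    (fun N => (Module.length R (R ⧸ maximalIdeal R ^ N)).toNat)
    (fun N => (Module.length S (S ⧸ maximalIdeal S ^ N)).toNat)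
    d lam (c' + 1) t (Nat.succ_pos c') eR eS hRt hSt hab
  have upper : eS ≤ (lam : ℝ) * eR := by
    refine leading_coeff_ge _ _ d lam eR eS hRt hSt fun N => ?_
    have h2 := length_le_length_mul (R := R) (S := S) N
    rw [hlam] at h2
    have hfin : Module.length R (R ⧸ maximalIdeal R ^ N) * (lam : ℕ∞) ≠ ⊤ :=
      WithTop.mul_ne_top (length_quotient_maximalIdeal_pow_ne_top R N) (ENat.natCast_ne_top lam)
    have h3 := ENat.toNat_le_toNat h2 hfin
    rw [ENat.toNat_mul, ENat.toNat_natCast, mul_comm] at h3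
    exact h3
  refine ⟨main, upper, fun hcl => ?_⟩
  have heR0 : 0 ≤ eR := ge_of_tendsto' hRt (fun N => by positivity)
  have hc' : (0 : ℝ) < ((c' + 1 : ℕ) : ℝ) ^ d := by positivity
  have h3 : ((c' + 1 : ℕ) : ℝ) ^ d * eR ≤ ((c' + 1 : ℕ) : ℝ) ^ d * eS :=
    (mul_le_mul_of_nonneg_right hcl heR0).trans main
  exact le_of_mul_le_mul_left h3 hc'

end Vale.Agent.H54
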