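import Mathlib
import Vale.Agent.H54.Lech

/-!
# Lech's inequality for closed fibres with square-zero maximal ideal: the principal case

Support file for P202.  If `n = (a) + I` with `a ^ 2 ∈ I`, then
`ℓ(S / I ^ N) ≤ 2 * ℓ(S / n ^ N)` for all `N`.
-/

namespace Vale.Agent.H54

open IsLocalRing Filter Topology

/-- A length comparison for two pairs of nested ideals linked by multiplication by `t`. -/
theorem length_add_le_length_add_of_mul {S : Type*} [CommRing S] (A B A' B' : Ideal S) (t : S)
    (hAB : A ≤ B) (hAB' : A' ≤ B') (ht : Ideal.span {t} * A' ≤ A)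
    (hB : B ≤ A ⊔ Ideal.span {t} * B') :
    Module.length S (S ⧸ A) + Module.length S (S ⧸ B') ≤
      Module.length S (S ⧸ A') + Module.length S (S ⧸ B) := by
  have e1 : Module.length S (S ⧸ A) =
      Module.length S (LinearMap.ker (Submodule.factor hAB)) + Module.length S (S ⧸ B) :=
    Module.length_eq_add_of_exact (LinearMap.ker (Submodule.factor hAB)).subtype
      (Submodule.factor hAB) (Submodule.injective_subtype _) (Submodule.factor_surjective hAB)
      (LinearMap.exact_subtype_ker_map _)
  have e2 : Module.length S (S ⧸ A') =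
      Module.length S (LinearMap.ker (Submodule.factor hAB')) + Module.length S (S ⧸ B') :=
    Module.length_eq_add_of_exact (LinearMap.ker (Submodule.factor hAB')).subtype
      (Submodule.factor hAB') (Submodule.injective_subtype _) (Submodule.factor_surjective hAB')
      (LinearMap.exact_subtype_ker_map _)
  have hmap : A' ≤ Submodule.comap (LinearMap.lsmul S S t) A := by
    intro x hx
    rw [Submodule.mem_comap, LinearMap.lsmul_apply, smul_eq_mul]
    exact ht (Ideal.mul_mem_mul (Ideal.mem_span_singleton_self t) hx)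
  have hle : LinearMap.ker (Submodule.factor hAB) ≤
      (LinearMap.ker (Submodule.factor hAB')).map
        (Submodule.mapQ A' A (LinearMap.lsmul S S t) hmap) := by
    intro z hz
    obtain ⟨b, rfl⟩ := Submodule.mkQ_surjective A z
    rw [LinearMap.mem_ker, Submodule.factor_mk, Submodule.mkQ_apply,
      Submodule.Quotient.mk_eq_zero] at hz
    obtain ⟨a, ha, c, hc, rfl⟩ := Submodule.mem_sup.mp (hB hz)
    obtain ⟨b', hb', rfl⟩ := Ideal.mem_span_singleton_mul.mp hc
    refine ⟨Submodule.Quotient.mk b', ?_, ?_⟩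
    · rw [SetLike.mem_coe, LinearMap.mem_ker, ← Submodule.mkQ_apply, Submodule.factor_mk,
        Submodule.mkQ_apply, Submodule.Quotient.mk_eq_zero]
      exact hb'
    · rw [Submodule.mapQ_apply, LinearMap.lsmul_apply, smul_eq_mul, Submodule.mkQ_apply, eq_comm,
        Submodule.Quotient.eq]
      simpa using ha
  have h3 : Module.length S (LinearMap.ker (Submodule.factor hAB)) ≤
      Module.length S (LinearMap.ker (Submodule.factor hAB')) :=
    (Module.length_le_of_injective (Submodule.inclusion hle)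
      (Submodule.inclusion_injective hle)).trans
    (Module.length_le_of_surjective
      ((Submodule.mapQ A' A (LinearMap.lsmul S S t) hmap).submoduleMap _)
      (LinearMap.submoduleMap_surjective _ _))
  rw [e1, e2]
  calc Module.length S (LinearMap.ker (Submodule.factor hAB)) + Module.length S (S ⧸ B)
        + Module.length S (S ⧸ B')
      ≤ Module.length S (LinearMap.ker (Submodule.factor hAB')) + Module.length S (S ⧸ B)
        + Module.length S (S ⧸ B') := by gcongr
    _ = Module.length S (LinearMap.ker (Submodule.factor hAB')) + Module.length S (S ⧸ B')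
        + Module.length S (S ⧸ B) := by ring

/-- The auxiliary chain of ideals `J N = I ^ N + a ^ 2 * I ^ (N - 2) + a ^ 4 * I ^ (N - 4) + ⋯`. -/
def auxJ {S : Type*} [CommRing S] (I : Ideal S) (a : S) : ℕ → Ideal S
  | 0 => ⊤
  | 1 => I
  | (N + 2) => I ^ (N + 2) ⊔ Ideal.span {a ^ 2} * auxJ I a N

section Aux

variable {S : Type*} [CommRing S] (I n : Ideal S) (a : S)

theorem auxJ_zero : auxJ I a 0 = ⊤ := rfl

theorem auxJ_one : auxJ I a 1 = I := rfl

theorem auxJ_add_two (N : ℕ) :
    auxJ I a (N + 2) = I ^ (N + 2) ⊔ Ideal.span {a ^ 2} * auxJ I a N := rfl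

theorem pow_le_auxJ (N : ℕ) : I ^ N ≤ auxJ I a N := by
  match N with
  | 0 => exact le_top
  | 1 => rw [auxJ_one, pow_one]
  | (N + 2) => rw [auxJ_add_two]; exact le_sup_left

variable {I a}

theorem auxJ_succ_le (ha : a ^ 2 ∈ I) (N : ℕ) : auxJ I a (N + 1) ≤ auxJ I a N := by
  induction N using Nat.twoStepInduction with
  | zero => rw [auxJ_zero]; exact le_top
  | one =>
    rw [auxJ_add_two, auxJ_one, auxJ_zero]
    exact sup_le (Ideal.pow_le_self two_ne_zero)
      (Ideal.mul_le_left.trans ((Ideal.span_singleton_le_iff_mem _).mpr ha))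
  | more N ih1 _ =>
    rw [auxJ_add_two, auxJ_add_two]
    exact sup_le_sup (Ideal.pow_le_pow_right (by omega)) (Ideal.mul_mono_right ih1)

theorem mul_auxJ_le (N : ℕ) : I * auxJ I a N ≤ auxJ I a (N + 1) := by
  induction N using Nat.twoStepInduction with
  | zero => rw [auxJ_zero, auxJ_one]; exact Ideal.mul_le_left
  | one =>
    rw [auxJ_add_two, auxJ_one, ← pow_two]
    exact le_sup_left
  | more N ih1 _ =>
    rw [auxJ_add_two, auxJ_add_two, Ideal.mul_sup, ← pow_succ', mul_left_comm]
    exact sup_le_sup le_rfl (Ideal.mul_mono_right ih1)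

theorem auxJ_le_pow (hI : I ≤ n) (han : a ∈ n) (N : ℕ) : auxJ I a N ≤ n ^ N := by
  induction N using Nat.twoStepInduction with
  | zero => rw [pow_zero, Ideal.one_eq_top]; exact le_top
  | one => rw [auxJ_one, pow_one]; exact hI
  | more N ih1 _ =>
    rw [auxJ_add_two]
    refine sup_le (Ideal.pow_right_mono hI _) ?_
    rw [add_comm N 2, pow_add]
    exact Ideal.mul_mono ((Ideal.span_singleton_le_iff_mem _).mpr (Ideal.pow_mem_pow han 2)) ih1

theorem pow_succ_le_sup (hn : n = Ideal.span {a} ⊔ I) (N : ℕ) :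
    n ^ (N + 1) ≤ auxJ I a (N + 1) ⊔ Ideal.span {a} * auxJ I a N := by
  induction N with
  | zero =>
    rw [zero_add, pow_one, auxJ_one, auxJ_zero, Ideal.mul_top, hn, sup_comm]
  | succ N ih =>
    calc n ^ (N + 1 + 1) = n ^ (N + 1) * n := pow_succ _ _
      _ ≤ (auxJ I a (N + 1) ⊔ Ideal.span {a} * auxJ I a N) * (Ideal.span {a} ⊔ I) := by
        rw [← hn]; exact Ideal.mul_mono_left ih
      _ ≤ auxJ I a (N + 1 + 1) ⊔ Ideal.span {a} * auxJ I a (N + 1) := by
        rw [Ideal.sup_mul, Ideal.mul_sup, Ideal.mul_sup]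
        refine sup_le (sup_le ?_ ?_) (sup_le ?_ ?_)
        · rw [mul_comm]; exact le_sup_right
        · rw [mul_comm]; exact (mul_auxJ_le (N + 1)).trans le_sup_left
        · rw [mul_right_comm, Ideal.span_singleton_mul_span_singleton, ← pow_two]
          exact le_sup_of_le_left (by rw [auxJ_add_two]; exact le_sup_right)
        · rw [mul_assoc, mul_comm (auxJ I a N)]
          exact le_sup_of_le_right (Ideal.mul_mono_right (mul_auxJ_le N))

theorem pow_succ_le_auxJ (hn : n = Ideal.span {a} ⊔ I) (ha : a ^ 2 ∈ I) (N : ℕ) :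
    n ^ (N + 1) ≤ auxJ I a N :=
  (pow_succ_le_sup n hn N).trans (sup_le (auxJ_succ_le ha N) Ideal.mul_le_right)

theorem span_mul_pow_succ_le (hn : n = Ideal.span {a} ⊔ I) (ha : a ^ 2 ∈ I) (N : ℕ) :
    Ideal.span {a} * n ^ (N + 1) ≤ auxJ I a (N + 1) := by
  refine (Ideal.mul_mono_right (pow_succ_le_sup n hn N)).trans ?_
  rw [Ideal.mul_sup]
  refine sup_le Ideal.mul_le_right ?_
  rw [← mul_assoc, Ideal.span_singleton_mul_span_singleton, ← pow_two]
  exact (le_sup_right.trans (le_of_eq (auxJ_add_two I a N).symm)).trans (auxJ_succ_le ha (N + 1))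

/-- **Length doubling bound.** If `n = (a) + I` with `a ^ 2 ∈ I`, and the quotients `S / I ^ N`
have finite length, then `ℓ(S / I ^ N) ≤ 2 * ℓ(S / n ^ N)`. -/
theorem length_quotient_pow_le_two_mul (hn : n = Ideal.span {a} ⊔ I) (ha : a ^ 2 ∈ I)
    (hfin : ∀ N : ℕ, Module.length S (S ⧸ I ^ N) ≠ ⊤) (N : ℕ) :
    Module.length S (S ⧸ I ^ N) ≤ 2 * Module.length S (S ⧸ n ^ N) := by
  have hI : I ≤ n := by rw [hn]; exact le_sup_right
  have han : a ∈ n := by
    rw [hn]; exact Ideal.mem_sup_left (Ideal.mem_span_singleton_self a)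
  have hDfin : ∀ N : ℕ, Module.length S (S ⧸ auxJ I a N) ≠ ⊤ := fun N =>
    ne_top_of_le_ne_top (hfin N)
      (Module.length_le_of_surjective (Submodule.factor (pow_le_auxJ I a N))
        (Submodule.factor_surjective _))
  -- (P)
  have hP : ∀ N : ℕ, Module.length S (S ⧸ auxJ I a (N + 1)) + Module.length S (S ⧸ auxJ I a N)
      ≤ 2 * Module.length S (S ⧸ n ^ (N + 1)) := by
    intro N
    have := length_add_le_length_add_of_mul (auxJ I a (N + 1)) (n ^ (N + 1)) (n ^ (N + 1))
      (auxJ I a N) a (auxJ_le_pow n hI han (N + 1)) (pow_succ_le_auxJ n hn ha N)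
      (span_mul_pow_succ_le n hn ha N) (pow_succ_le_sup n hn N)
    rwa [← two_mul] at this
  -- (Q)
  have hQ : ∀ N : ℕ, Module.length S (S ⧸ I ^ (N + 2)) + Module.length S (S ⧸ auxJ I a N)
      ≤ Module.length S (S ⧸ I ^ (N + 1)) + Module.length S (S ⧸ auxJ I a (N + 2)) := by
    intro N
    refine length_add_le_length_add_of_mul (I ^ (N + 2)) (auxJ I a (N + 2)) (I ^ (N + 1))
      (auxJ I a N) (a ^ 2) (pow_le_auxJ I a (N + 2))
      ((pow_le_auxJ I a (N + 1)).trans (auxJ_succ_le ha N)) ?_ (le_of_eq (auxJ_add_two I a N))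
    rw [pow_succ' I (N + 1)]
    exact Ideal.mul_mono_left ((Ideal.span_singleton_le_iff_mem _).mpr ha)
  have hE : ∀ N : ℕ, Module.length S (S ⧸ I ^ (N + 1))
      ≤ Module.length S (S ⧸ auxJ I a (N + 1)) + Module.length S (S ⧸ auxJ I a N) := by
    intro N
    induction N with
    | zero =>
      rw [zero_add, auxJ_one, pow_one]
      exact le_self_add
    | succ N ih =>
      have h1 := hQ N
      have h2 : Module.length S (S ⧸ I ^ (N + 2)) + Module.length S (S ⧸ auxJ I a N)
          ≤ (Module.length S (S ⧸ auxJ I a (N + 2)) + Module.length S (S ⧸ auxJ I a (N + 1)))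
            + Module.length S (S ⧸ auxJ I a N) := by
        calc Module.length S (S ⧸ I ^ (N + 2)) + Module.length S (S ⧸ auxJ I a N)
            ≤ Module.length S (S ⧸ I ^ (N + 1)) + Module.length S (S ⧸ auxJ I a (N + 2)) := h1
          _ ≤ (Module.length S (S ⧸ auxJ I a (N + 1)) + Module.length S (S ⧸ auxJ I a N))
              + Module.length S (S ⧸ auxJ I a (N + 2)) := by gcongr
          _ = (Module.length S (S ⧸ auxJ I a (N + 2)) + Module.length S (S ⧸ auxJ I a (N + 1)))
              + Module.length S (S ⧸ auxJ I a N) := by ring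
      exact (ENat.add_le_add_iff_right (hDfin N)).mp h2
  match N with
  | 0 =>
    have : Subsingleton (S ⧸ I ^ 0) := by
      rw [pow_zero, Ideal.one_eq_top]
      exact Ideal.Quotient.subsingleton_iff.mpr rfl
    simp
  | (N + 1) => exact (hE N).trans (hP N)

end Aux

/-- A proper ideal strictly smaller than the maximal ideal has quotient of length at least two. -/
theorem two_le_length_quotient_of_lt {S : Type*} [CommRing S] [IsLocalRing S] (I : Ideal S)
    (hI : I < maximalIdeal S) : 2 ≤ Module.length S (S ⧸ I) := by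
  have e1 : Module.length S (S ⧸ I) =
      Module.length S (LinearMap.ker (Submodule.factor hI.le)) +
        Module.length S (S ⧸ maximalIdeal S) :=
    Module.length_eq_add_of_exact (LinearMap.ker (Submodule.factor hI.le)).subtype
      (Submodule.factor hI.le) (Submodule.injective_subtype _)
      (Submodule.factor_surjective hI.le) (LinearMap.exact_subtype_ker_map _)
  obtain ⟨x, hxn, hxI⟩ := SetLike.exists_of_lt hI
  have hnt1 : Nontrivial (LinearMap.ker (Submodule.factor hI.le)) := by
    refine ⟨⟨⟨Submodule.mkQ I x, ?_⟩, 0, ?_⟩⟩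
    · rw [LinearMap.mem_ker, Submodule.factor_mk, Submodule.mkQ_apply,
        Submodule.Quotient.mk_eq_zero]
      exact hxn
    · intro h
      have h' := congrArg Subtype.val h
      simp only [Submodule.mkQ_apply, ZeroMemClass.coe_zero] at h'
      exact hxI ((Submodule.Quotient.mk_eq_zero I).mp h')
  have hnt2 : Nontrivial (S ⧸ maximalIdeal S) :=
    Ideal.Quotient.nontrivial_iff.mpr (IsLocalRing.maximalIdeal.isMaximal S).ne_top
  have h1 : 1 ≤ Module.length S (LinearMap.ker (Submodule.factor hI.le)) :=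
    Order.one_le_iff_pos.mpr Module.length_pos
  have h2 : 1 ≤ Module.length S (S ⧸ maximalIdeal S) :=
    Order.one_le_iff_pos.mpr Module.length_pos
  rw [e1, ← one_add_one_eq_two]
  exact add_le_add h1 h2

/-- **Lech's inequality for closed fibres with square-zero maximal ideal.**  For a flat local
homomorphism `(R, m) → (S, n)` of Noetherian local rings with `n ^ 2 ≤ m S`, one has
`e(R) ≤ e(S)`; and if moreover the maximal ideal of the closed fibre is not principal, then
`e(S) = ℓ(S / m S) * e(R)`. -/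
theorem lech_of_sq_le {R S : Type*} [CommRing R] [CommRing S]
    [IsLocalRing R] [IsLocalRing S] [IsNoetherianRing R] [IsNoetherianRing S]
    [Algebra R S] [IsLocalHom (algebraMap R S)] [Module.Flat R S]
    (hsq : maximalIdeal S ^ 2 ≤ (maximalIdeal R).map (algebraMap R S))
    (eR eS : ℝ)
    (heR : IsHilbertSamuelMultiplicity R eR) (heS : IsHilbertSamuelMultiplicity S eS) :
    eR ≤ eS ∧
      ((∀ a : S, maximalIdeal S ≠ Ideal.span {a} ⊔ (maximalIdeal R).map (algebraMap R S)) →
        ∀ lam : ℕ, Module.length S (S ⧸ (maximalIdeal R).map (algebraMap R S)) = lam →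
          eS = (lam : ℝ) * eR) := by
  refine ⟨?_, fun hnp => (lech_of_sq_zero_fibre hsq hnp eR eS heR heS).2⟩
  by_cases hnp : ∀ a : S, maximalIdeal S ≠
      Ideal.span {a} ⊔ (maximalIdeal R).map (algebraMap R S)
  · exact (lech_of_sq_zero_fibre hsq hnp eR eS heR heS).1
  rw [not_forall] at hnp
  obtain ⟨a, ha⟩ := hnp
  rw [not_not] at ha
  have hIle : (maximalIdeal R).map (algebraMap R S) ≤ maximalIdeal S :=
    map_maximalIdeal_le (algebraMap R S)
  by_cases hI : (maximalIdeal R).map (algebraMap R S) = maximalIdeal S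
  · refine (lech_of_pow_succ_le (fun N => ?_) eR eS heR heS).1
    rw [Ideal.map_pow, hI]
    exact Ideal.pow_le_pow_right (Nat.le_succ N)
  have hlt : (maximalIdeal R).map (algebraMap R S) < maximalIdeal S := lt_of_le_of_ne hIle hI
  have h2 := two_le_length_quotient_of_lt _ hlt
  have han : a ∈ maximalIdeal S := by
    rw [ha]; exact Ideal.mem_sup_left (Ideal.mem_span_singleton_self a)
  have ha2 : a ^ 2 ∈ (maximalIdeal R).map (algebraMap R S) := hsq (Ideal.pow_mem_pow han 2)
  have hfin : ∀ N : ℕ,
      Module.length S (S ⧸ (maximalIdeal R).map (algebraMap R S) ^ N) ≠ ⊤ := by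
    intro N
    have hle : maximalIdeal S ^ (2 * N) ≤ (maximalIdeal R).map (algebraMap R S) ^ N := by
      rw [pow_mul]
      exact Ideal.pow_right_mono hsq N
    exact ne_top_of_le_ne_top (length_quotient_maximalIdeal_pow_ne_top S (2 * N))
      (Module.length_le_of_surjective (Submodule.factor hle) (Submodule.factor_surjective _))
  have hkey : ∀ N : ℕ, (Module.length R (R ⧸ maximalIdeal R ^ N)).toNat
      ≤ 1 * (Module.length S (S ⧸ maximalIdeal S ^ N)).toNat := by
    intro N
    have h3 := length_quotient_pow_le_two_mul (maximalIdeal S) ha ha2 hfin N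
    rw [← Ideal.map_pow, length_quotient_map_eq] at h3
    have h4 : Module.length R (R ⧸ maximalIdeal R ^ N) * 2
        ≤ 2 * Module.length S (S ⧸ maximalIdeal S ^ N) :=
      (mul_le_mul_right h2 _).trans h3
    have hfin2 : 2 * Module.length S (S ⧸ maximalIdeal S ^ N) ≠ ⊤ :=
      WithTop.mul_ne_top (ENat.natCast_ne_top 2) (length_quotient_maximalIdeal_pow_ne_top S N)
    have h5 := ENat.toNat_le_toNat h4 hfin2
    rw [ENat.toNat_mul, ENat.toNat_mul] at h5
    have e2 : (2 : ℕ∞).toNat = 2 := rfl
    rw [e2] at h5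
    omega
  obtain ⟨dR, hdR, hRt⟩ := heR
  obtain ⟨dS, hdS, hSt⟩ := heS
  have hdim : ringKrullDim S = ringKrullDim R := ringKrullDim_eq_of_pow_le 2 hsq
  have edS : dS = dR := by
    have : (dS : WithBot ℕ∞) = (dR : WithBot ℕ∞) := by rw [← hdS, ← hdR, hdim]
    exact_mod_cast this
  rw [edS] at hSt
  have := leading_coeff_ge _ _ dR 1 eS eR hSt hRt hkey
  simpa using this

end Vale.Agent.H54
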