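import Mathlib
import Vale.Agent.H54.LechPrincipal

/-!
# A dimension-free Lech-type bound along a chain of square-zero steps

Support file for P202.  If the maximal ideal `n` of `S` is obtained from `m S` by adjoining
elements `a 0, …, a (t - 1)` one at a time, the square of each lying in the ideal generated by
`m S` and the previous ones, then `ℓ(S / m S) * e(R) ≤ 2 ^ t * e(S)`.
-/

namespace Vale.Agent.H54

open IsLocalRing Filter Topology

section Chain

variable {S : Type*} [CommRing S]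

/-- Adjoining an element whose square lies in `I'` squares into `I'`. -/
theorem sup_span_sq_le (I' : Ideal S) (x : S) (hx : x ^ 2 ∈ I') :
    (Ideal.span {x} ⊔ I') ^ 2 ≤ I' := by
  rw [pow_two, Ideal.sup_mul, Ideal.mul_sup, Ideal.mul_sup]
  refine sup_le (sup_le ?_ Ideal.mul_le_right) (sup_le Ideal.mul_le_left Ideal.mul_le_left)
  rw [Ideal.span_singleton_mul_span_singleton, ← pow_two]
  exact (Ideal.span_singleton_le_iff_mem _).mpr hx

omit [CommRing S] in
theorem chain_image_castSucc {t : ℕ} (a : Fin (t + 1) → S) (j : Fin t) :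
    a '' {i : Fin (t + 1) | i < Fin.castSucc j} =
      (fun i : Fin t => a (Fin.castSucc i)) '' {i : Fin t | i < j} := by
  ext x
  constructor
  · rintro ⟨i, hi, rfl⟩
    have hi' : (i : ℕ) < (j : ℕ) := hi
    refine ⟨⟨i, lt_trans hi' j.2⟩, ?_, rfl⟩
    exact hi'
  · rintro ⟨i, hi, rfl⟩
    exact ⟨Fin.castSucc i, hi, rfl⟩

omit [CommRing S] in
theorem chain_image_last {t : ℕ} (a : Fin (t + 1) → S) :
    a '' {i : Fin (t + 1) | i < Fin.last t} =
      Set.range (fun i : Fin t => a (Fin.castSucc i)) := by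
  ext x
  constructor
  · rintro ⟨i, hi, rfl⟩
    have hi' : (i : ℕ) < t := hi
    exact ⟨⟨i, hi'⟩, rfl⟩
  · rintro ⟨i, rfl⟩
    exact ⟨Fin.castSucc i, Fin.castSucc_lt_last i, rfl⟩

theorem chain_range_succ {t : ℕ} (a : Fin (t + 1) → S) (I : Ideal S) :
    I ⊔ Ideal.span (Set.range a) =
      Ideal.span {a (Fin.last t)} ⊔
        (I ⊔ Ideal.span (Set.range (fun i : Fin t => a (Fin.castSucc i)))) := by
  have h : Set.range a = insert (a (Fin.last t))
      (Set.range (fun i : Fin t => a (Fin.castSucc i))) := by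
    ext x
    constructor
    · rintro ⟨i, rfl⟩
      refine Fin.lastCases ?_ (fun i => ?_) i
      · exact Set.mem_insert _ _
      · exact Set.mem_insert_of_mem _ ⟨i, rfl⟩
    · rintro (rfl | ⟨i, rfl⟩)
      · exact ⟨_, rfl⟩
      · exact ⟨_, rfl⟩
  rw [h, Ideal.span_insert]
  ac_rfl

/-- Along a chain of square-zero steps from `I` to `I ⊔ (a 0, …, a (t - 1))`, a suitable
power of the big ideal lies in `I`. -/
theorem chain_pow_le (I : Ideal S) (t : ℕ) (a : Fin t → S)
    (hsq : ∀ j : Fin t, a j ^ 2 ∈ I ⊔ Ideal.span (a '' {i | i < j})) :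
    (I ⊔ Ideal.span (Set.range a)) ^ (2 ^ t) ≤ I := by
  induction t with
  | zero =>
    have : Set.range a = ∅ := Set.range_eq_empty a
    rw [this, Ideal.span_empty, sup_bot_eq, pow_zero, pow_one]
  | succ t ih =>
    have ih' := ih (fun i : Fin t => a (Fin.castSucc i)) (fun j => by
      have := hsq (Fin.castSucc j)
      rwa [chain_image_castSucc] at this)
    have hlast : a (Fin.last t) ^ 2 ∈
        I ⊔ Ideal.span (Set.range (fun i : Fin t => a (Fin.castSucc i))) := by
      have := hsq (Fin.last t)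
      rwa [chain_image_last] at this
    rw [chain_range_succ, pow_succ, pow_mul']
    exact (Ideal.pow_right_mono (sup_span_sq_le _ _ hlast) _).trans ih'

/-- **Chain bound for lengths.**  Along a chain of `t` square-zero steps from `I` to
`I ⊔ (a 0, …, a (t - 1))` one has `ℓ(S / I ^ N) ≤ 2 ^ t * ℓ(S / (I ⊔ (a)) ^ N)`. -/
theorem length_quotient_pow_le_two_pow_mul (I : Ideal S) (t : ℕ) (a : Fin t → S)
    (hsq : ∀ j : Fin t, a j ^ 2 ∈ I ⊔ Ideal.span (a '' {i | i < j}))
    (hfin : ∀ N : ℕ, Module.length S (S ⧸ I ^ N) ≠ ⊤) (N : ℕ) :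
    Module.length S (S ⧸ I ^ N) ≤
      2 ^ t * Module.length S (S ⧸ (I ⊔ Ideal.span (Set.range a)) ^ N) := by
  induction t with
  | zero =>
    have : Set.range a = ∅ := Set.range_eq_empty a
    rw [this, Ideal.span_empty, sup_bot_eq, pow_zero, one_mul]
  | succ t ih =>
    have ih' := ih (fun i : Fin t => a (Fin.castSucc i)) (fun j => by
      have := hsq (Fin.castSucc j)
      rwa [chain_image_castSucc] at this)
    have hlast : a (Fin.last t) ^ 2 ∈
        I ⊔ Ideal.span (Set.range (fun i : Fin t => a (Fin.castSucc i))) := by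
      have := hsq (Fin.last t)
      rwa [chain_image_last] at this
    have hfin' : ∀ M : ℕ, Module.length S
        (S ⧸ (I ⊔ Ideal.span (Set.range (fun i : Fin t => a (Fin.castSucc i)))) ^ M) ≠ ⊤ := by
      intro M
      have hle : I ^ M ≤ (I ⊔ Ideal.span (Set.range (fun i : Fin t => a (Fin.castSucc i)))) ^ M :=
        Ideal.pow_right_mono le_sup_left M
      exact ne_top_of_le_ne_top (hfin M)
        (Module.length_le_of_surjective (Submodule.factor hle) (Submodule.factor_surjective _))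
    have hstep := length_quotient_pow_le_two_mul
      (I ⊔ Ideal.span (Set.range a)) (chain_range_succ a I) hlast hfin' N
    calc Module.length S (S ⧸ I ^ N)
        ≤ 2 ^ t * Module.length S
          (S ⧸ (I ⊔ Ideal.span (Set.range (fun i : Fin t => a (Fin.castSucc i)))) ^ N) := ih'
      _ ≤ 2 ^ t * (2 * Module.length S (S ⧸ (I ⊔ Ideal.span (Set.range a)) ^ N)) := by
          gcongr
      _ = 2 ^ (t + 1) * Module.length S (S ⧸ (I ⊔ Ideal.span (Set.range a)) ^ N) := by
          rw [pow_succ, mul_assoc]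

end Chain

/-- Comparison of leading coefficients with constants on both sides. -/
theorem leading_coeff_le_const (a b : ℕ → ℕ) (d lam C : ℕ) (eR eS : ℝ)
    (ha : Tendsto (fun N : ℕ => (d.factorial : ℝ) * (a N : ℝ) / (N : ℝ) ^ d) atTop (𝓝 eR))
    (hb : Tendsto (fun N : ℕ => (d.factorial : ℝ) * (b N : ℝ) / (N : ℝ) ^ d) atTop (𝓝 eS))
    (hab : ∀ N, lam * a N ≤ C * b N) :
    (lam : ℝ) * eR ≤ (C : ℝ) * eS := by
  refine le_of_tendsto_of_tendsto' (ha.const_mul (lam : ℝ)) (hb.const_mul (C : ℝ)) fun N => ?_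
  have hab' : (lam : ℝ) * (a N : ℝ) ≤ (C : ℝ) * (b N : ℝ) := by exact_mod_cast hab N
  have e1 : (lam : ℝ) * ((d.factorial : ℝ) * (a N : ℝ) / (N : ℝ) ^ d)
      = (d.factorial : ℝ) * ((lam : ℝ) * (a N : ℝ)) / (N : ℝ) ^ d := by ring
  have e2 : (C : ℝ) * ((d.factorial : ℝ) * (b N : ℝ) / (N : ℝ) ^ d)
      = (d.factorial : ℝ) * ((C : ℝ) * (b N : ℝ)) / (N : ℝ) ^ d := by ring
  rw [e1, e2]
  gcongr

/-- **Dimension-free Lech-type bound.**  Let `(R, m) → (S, n)` be a flat local homomorphism of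
Noetherian local rings such that `n = m S + (a 0, …, a (t - 1))` where the square of each `a j`
lies in `m S + (a 0, …, a (j - 1))`.  Then `ℓ(S / m S) * e(R) ≤ 2 ^ t * e(S)` and
`e(S) ≤ ℓ(S / m S) * e(R)`. -/
theorem lech_chain_bound {R S : Type*} [CommRing R] [CommRing S]
    [IsLocalRing R] [IsLocalRing S] [IsNoetherianRing R] [IsNoetherianRing S]
    [Algebra R S] [IsLocalHom (algebraMap R S)] [Module.Flat R S]
    (t : ℕ) (a : Fin t → S)
    (hsq : ∀ j : Fin t, a j ^ 2 ∈
      (maximalIdeal R).map (algebraMap R S) ⊔ Ideal.span (a '' {i | i < j}))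
    (hn : maximalIdeal S = (maximalIdeal R).map (algebraMap R S) ⊔ Ideal.span (Set.range a))
    (lam : ℕ) (hlam : Module.length S (S ⧸ (maximalIdeal R).map (algebraMap R S)) = lam)
    (eR eS : ℝ)
    (heR : IsHilbertSamuelMultiplicity R eR) (heS : IsHilbertSamuelMultiplicity S eS) :
    (lam : ℝ) * eR ≤ 2 ^ t * eS ∧ eS ≤ (lam : ℝ) * eR ∧
      ((2 : ℝ) ^ t ≤ (lam : ℝ) → eR ≤ eS) := by
  have hpow : maximalIdeal S ^ (2 ^ t) ≤ (maximalIdeal R).map (algebraMap R S) := by
    rw [hn]; exact chain_pow_le _ t a hsq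
  have hfin : ∀ N : ℕ,
      Module.length S (S ⧸ (maximalIdeal R).map (algebraMap R S) ^ N) ≠ ⊤ := by
    intro N
    have hle : maximalIdeal S ^ (2 ^ t * N) ≤ (maximalIdeal R).map (algebraMap R S) ^ N := by
      rw [pow_mul]
      exact Ideal.pow_right_mono hpow N
    exact ne_top_of_le_ne_top (length_quotient_maximalIdeal_pow_ne_top S (2 ^ t * N))
      (Module.length_le_of_surjective (Submodule.factor hle) (Submodule.factor_surjective _))
  obtain ⟨dR, hdR, hRt⟩ := heR
  obtain ⟨dS, hdS, hSt⟩ := heS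
  have hdim : ringKrullDim S = ringKrullDim R := ringKrullDim_eq_of_pow_le (2 ^ t) hpow
  have edS : dS = dR := by
    have : (dS : WithBot ℕ∞) = (dR : WithBot ℕ∞) := by rw [← hdS, ← hdR, hdim]
    exact_mod_cast this
  rw [edS] at hSt
  have heR0 : 0 ≤ eR := ge_of_tendsto' hRt (fun N => by positivity)
  have main : (lam : ℝ) * eR ≤ 2 ^ t * eS := by
    have hkey : ∀ N : ℕ, lam * (Module.length R (R ⧸ maximalIdeal R ^ N)).toNat
        ≤ 2 ^ t * (Module.length S (S ⧸ maximalIdeal S ^ N)).toNat := by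
      intro N
      have h3 := length_quotient_pow_le_two_pow_mul _ t a hsq hfin N
      rw [← hn, ← Ideal.map_pow, length_quotient_map_eq, hlam] at h3
      have hfin2 : 2 ^ t * Module.length S (S ⧸ maximalIdeal S ^ N) ≠ ⊤ :=
        WithTop.mul_ne_top (by exact_mod_cast ENat.natCast_ne_top (2 ^ t))
          (length_quotient_maximalIdeal_pow_ne_top S N)
      have h5 := ENat.toNat_le_toNat h3 hfin2
      rw [ENat.toNat_mul, ENat.toNat_mul, ENat.toNat_natCast] at h5
      have e2 : ((2 : ℕ∞) ^ t).toNat = 2 ^ t := by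
        have : ((2 : ℕ∞) ^ t) = ((2 ^ t : ℕ) : ℕ∞) := by push_cast; rfl
        rw [this, ENat.toNat_natCast]
      rw [e2, mul_comm] at h5
      exact h5
    have := leading_coeff_le_const _ _ dR lam (2 ^ t) eR eS hRt hSt hkey
    simpa using this
  refine ⟨main, ?_, fun h2l => ?_⟩
  · refine leading_coeff_ge _ _ dR lam eR eS hRt hSt fun N => ?_
    have h1 := length_le_length_mul (R := R) (S := S) N
    rw [hlam] at h1
    have hfin3 : Module.length R (R ⧸ maximalIdeal R ^ N) * (lam : ℕ∞) ≠ ⊤ :=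
      WithTop.mul_ne_top (length_quotient_maximalIdeal_pow_ne_top R N) (ENat.natCast_ne_top lam)
    have h2 := ENat.toNat_le_toNat h1 hfin3
    rw [ENat.toNat_mul, ENat.toNat_natCast, mul_comm] at h2
    exact h2
  · have h2t : (0 : ℝ) < (2 : ℝ) ^ t := by positivity
    have h3 : (2 : ℝ) ^ t * eR ≤ (2 : ℝ) ^ t * eS :=
      (mul_le_mul_of_nonneg_right h2l heR0).trans main
    exact le_of_mul_le_mul_left h3 h2t

end Vale.Agent.H54
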