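import Mathlib
import Vale.Agent.H54.LechPrincipal

/-!
# A principal step with an arbitrary exponent (support file for P202)

If `n = (a) + I` with `a ^ (k + 1) ∈ I`, then
`ℓ(S / I ^ (N + k)) ≤ ℓ(S / I ^ k) + (k + 1) * ℓ(S / n ^ (N + 2 * k))` for all `N`.
-/

namespace Vale.Agent.H54

open IsLocalRing

section Power

variable {S : Type*} [CommRing S]

/-- The auxiliary filtration `K N = ∑_q (a ^ (q * k)) * I ^ (N - q * k)` (truncated
subtraction). -/
def auxK (I : Ideal S) (a : S) (k : ℕ) (N : ℕ) : Ideal S :=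
  ⨆ q : ℕ, Ideal.span {a ^ (q * k)} * I ^ (N - q * k)

variable (I n : Ideal S) (a : S) (k : ℕ)

theorem pow_le_auxK (N : ℕ) : I ^ N ≤ auxK I a k N := by
  refine le_iSup_of_le 0 ?_
  simp

theorem auxK_anti {M N : ℕ} (h : M ≤ N) : auxK I a k N ≤ auxK I a k M :=
  iSup_mono fun q => Ideal.mul_mono_right (Ideal.pow_le_pow_right (by omega))

theorem auxK_add_le (N : ℕ) :
    auxK I a k (N + k) ≤ I ^ (N + k) ⊔ Ideal.span {a ^ k} * auxK I a k N := by
  refine iSup_le fun q => ?_
  rcases Nat.eq_zero_or_pos q with rfl | hq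
  · refine le_sup_of_le_left ?_
    simp
  · obtain ⟨q', rfl⟩ := Nat.exists_eq_succ_of_ne_zero hq.ne'
    refine le_sup_of_le_right ?_
    have e1 : N + k - (q' + 1) * k = N - q' * k := by
      rw [Nat.succ_mul, Nat.add_sub_add_right]
    have e2 : a ^ ((q' + 1) * k) = a ^ k * a ^ (q' * k) := by
      rw [← pow_add]; congr 1; ring
    rw [e1, e2, ← Ideal.span_singleton_mul_span_singleton, mul_assoc]
    exact Ideal.mul_mono_right (le_iSup (fun q => Ideal.span {a ^ (q * k)} * I ^ (N - q * k)) q')

/-- Binomial-type expansion of the powers of `(a) + I`. -/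
theorem sup_pow_le_iSup (M : ℕ) :
    (Ideal.span {a} ⊔ I) ^ M ≤ ⨆ j : ℕ, Ideal.span {a ^ j} * I ^ (M - j) := by
  induction M with
  | zero =>
    refine le_iSup_of_le 0 ?_
    simp
  | succ M ih =>
    calc (Ideal.span {a} ⊔ I) ^ (M + 1) = (Ideal.span {a} ⊔ I) ^ M * (Ideal.span {a} ⊔ I) :=
          pow_succ _ _
      _ ≤ (⨆ j : ℕ, Ideal.span {a ^ j} * I ^ (M - j)) * (Ideal.span {a} ⊔ I) :=
          Ideal.mul_mono_left ih
      _ ≤ ⨆ j : ℕ, Ideal.span {a ^ j} * I ^ (M + 1 - j) := by
          rw [Ideal.iSup_mul]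
          refine iSup_le fun j => ?_
          rw [Ideal.mul_sup]
          refine sup_le ?_ ?_
          · refine le_iSup_of_le (j + 1) ?_
            rw [mul_right_comm, Ideal.span_singleton_mul_span_singleton, ← pow_succ,
              Nat.add_sub_add_right]
          · refine le_iSup_of_le j ?_
            rw [mul_assoc, ← pow_succ]
            exact Ideal.mul_mono_right (Ideal.pow_le_pow_right (by omega))

/-- Powers of `(a) + I` lie in the auxiliary filtration, with a shift. -/
theorem sup_pow_le_auxK (k : ℕ) (M : ℕ) :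
    (Ideal.span {a} ⊔ I) ^ (M + k) ≤ auxK I a (k + 1) M := by
  refine (sup_pow_le_iSup I a (M + k)).trans (iSup_le fun j => ?_)
  refine le_iSup_of_le (j / (k + 1)) ?_
  have hj : j / (k + 1) * (k + 1) ≤ j := Nat.div_mul_le_self j (k + 1)
  have hj2 : j < j / (k + 1) * (k + 1) + (k + 1) := by
    have := Nat.lt_div_mul_add (a := j) (b := k + 1) (Nat.succ_pos k)
    exact this
  have h1 : Ideal.span {a ^ j} ≤ Ideal.span {a ^ (j / (k + 1) * (k + 1))} := by
    rw [Ideal.span_singleton_le_span_singleton]
    refine ⟨a ^ (j - j / (k + 1) * (k + 1)), ?_⟩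
    rw [← pow_add]; congr 1; omega
  exact Ideal.mul_mono h1 (Ideal.pow_le_pow_right (by omega))

variable {I a}

/-- **Principal step with exponent `k + 1`.**  If `n = (a) + I` with `a ^ (k + 1) ∈ I`, and the
quotients `S / I ^ N` have finite length, then
`ℓ(S / I ^ (N + k)) ≤ ℓ(S / I ^ k) + (k + 1) * ℓ(S / n ^ (N + 2 * k))`. -/
theorem length_quotient_pow_le_succ_mul (hn : n = Ideal.span {a} ⊔ I) (k : ℕ)
    (ha : a ^ (k + 1) ∈ I)
    (hfin : ∀ N : ℕ, Module.length S (S ⧸ I ^ N) ≠ ⊤) (N : ℕ) :
    Module.length S (S ⧸ I ^ (N + k)) ≤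
      Module.length S (S ⧸ I ^ k) + (k + 1) * Module.length S (S ⧸ n ^ (N + 2 * k)) := by
  have hDfin : ∀ N : ℕ, Module.length S (S ⧸ auxK I a (k + 1) N) ≠ ⊤ := fun N =>
    ne_top_of_le_ne_top (hfin N)
      (Module.length_le_of_surjective (Submodule.factor (pow_le_auxK I a (k + 1) N))
        (Submodule.factor_surjective _))
  have hmono : ∀ {M N : ℕ}, M ≤ N → Module.length S (S ⧸ auxK I a (k + 1) M) ≤
      Module.length S (S ⧸ auxK I a (k + 1) N) := fun h =>
    Module.length_le_of_surjective (Submodule.factor (auxK_anti I a (k + 1) h))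
      (Submodule.factor_surjective _)
  -- (Q)
  have hQ : ∀ N : ℕ, Module.length S (S ⧸ I ^ (N + (k + 1))) +
        Module.length S (S ⧸ auxK I a (k + 1) N)
      ≤ Module.length S (S ⧸ I ^ (N + k)) +
        Module.length S (S ⧸ auxK I a (k + 1) (N + (k + 1))) := by
    intro N
    refine length_add_le_length_add_of_mul (I ^ (N + (k + 1))) (auxK I a (k + 1) (N + (k + 1)))
      (I ^ (N + k)) (auxK I a (k + 1) N) (a ^ (k + 1)) (pow_le_auxK I a (k + 1) _)
      ((pow_le_auxK I a (k + 1) (N + k)).trans (auxK_anti I a (k + 1) (Nat.le_add_right N k)))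
      ?_ (auxK_add_le I a (k + 1) N)
    have : I ^ (N + (k + 1)) = I * I ^ (N + k) := by rw [← pow_succ', add_assoc]
    rw [this]
    exact Ideal.mul_mono_left ((Ideal.span_singleton_le_iff_mem _).mpr ha)
  -- telescoping
  have hC : ∀ N : ℕ, Module.length S (S ⧸ I ^ (N + k)) ≤ Module.length S (S ⧸ I ^ k) +
      ∑ i ∈ Finset.range (k + 1), Module.length S (S ⧸ auxK I a (k + 1) (N + i)) := by
    intro N
    induction N with
    | zero => rw [zero_add]; exact le_self_add
    | succ N ih =>
      have h1 := hQ N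
      have hsum : ∑ i ∈ Finset.range (k + 1), Module.length S (S ⧸ auxK I a (k + 1) (N + i))
          + Module.length S (S ⧸ auxK I a (k + 1) (N + (k + 1)))
          = ∑ i ∈ Finset.range (k + 1), Module.length S (S ⧸ auxK I a (k + 1) (N + 1 + i))
          + Module.length S (S ⧸ auxK I a (k + 1) N) := by
        rw [← Finset.sum_range_succ
          (fun i => Module.length S (S ⧸ auxK I a (k + 1) (N + i))) (k + 1),
          Finset.sum_range_succ'
          (fun i => Module.length S (S ⧸ auxK I a (k + 1) (N + i))) (k + 1)]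
        congr 1
        refine Finset.sum_congr rfl fun i _ => ?_
        rw [add_assoc, add_comm 1 i]
      have h2 : Module.length S (S ⧸ I ^ (N + 1 + k)) + Module.length S (S ⧸ auxK I a (k + 1) N)
          ≤ (Module.length S (S ⧸ I ^ k) +
            ∑ i ∈ Finset.range (k + 1), Module.length S (S ⧸ auxK I a (k + 1) (N + 1 + i)))
            + Module.length S (S ⧸ auxK I a (k + 1) N) := by
        have e0 : N + 1 + k = N + (k + 1) := by ring
        rw [e0]
        calc Module.length S (S ⧸ I ^ (N + (k + 1))) + Module.length S (S ⧸ auxK I a (k + 1) N)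
            ≤ Module.length S (S ⧸ I ^ (N + k)) +
              Module.length S (S ⧸ auxK I a (k + 1) (N + (k + 1))) := h1
          _ ≤ (Module.length S (S ⧸ I ^ k) +
              ∑ i ∈ Finset.range (k + 1), Module.length S (S ⧸ auxK I a (k + 1) (N + i)))
              + Module.length S (S ⧸ auxK I a (k + 1) (N + (k + 1))) := by gcongr
          _ = (Module.length S (S ⧸ I ^ k) +
              ∑ i ∈ Finset.range (k + 1), Module.length S (S ⧸ auxK I a (k + 1) (N + 1 + i)))
              + Module.length S (S ⧸ auxK I a (k + 1) N) := by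
            rw [add_assoc, hsum, ← add_assoc]
      exact (ENat.add_le_add_iff_right (hDfin N)).mp h2
  have hsumle : ∑ i ∈ Finset.range (k + 1), Module.length S (S ⧸ auxK I a (k + 1) (N + i))
      ≤ (k + 1) * Module.length S (S ⧸ n ^ (N + 2 * k)) := by
    have hterm : ∀ i ∈ Finset.range (k + 1), Module.length S (S ⧸ auxK I a (k + 1) (N + i))
        ≤ Module.length S (S ⧸ n ^ (N + 2 * k)) := by
      intro i hi
      have hi' : i ≤ k := Nat.lt_succ_iff.mp (Finset.mem_range.mp hi)
      have hle : n ^ (N + 2 * k) ≤ auxK I a (k + 1) (N + k) := by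
        rw [hn]
        have := sup_pow_le_auxK I a k (N + k)
        have e : N + k + k = N + 2 * k := by ring
        rwa [e] at this
      exact (hmono (by omega)).trans
        (Module.length_le_of_surjective (Submodule.factor hle) (Submodule.factor_surjective _))
    calc ∑ i ∈ Finset.range (k + 1), Module.length S (S ⧸ auxK I a (k + 1) (N + i))
        ≤ ∑ _i ∈ Finset.range (k + 1), Module.length S (S ⧸ n ^ (N + 2 * k)) :=
          Finset.sum_le_sum hterm
      _ = (k + 1) * Module.length S (S ⧸ n ^ (N + 2 * k)) := by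
          rw [Finset.sum_const, Finset.card_range, nsmul_eq_mul]
          push_cast
          rfl
  exact (hC N).trans (add_le_add le_rfl hsumle)

end Power

end Vale.Agent.H54
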