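import Mathlib
import Vale.Agent.H54.LechChain

/-!
# Socle reduction and a colength bound (support file for P202)

* `length_succ_le_of_lt`: a strict inclusion of ideals costs at least one unit of colength.
* `pow_mem_of_length_le`, `maximalIdeal_pow_le_of_length_le`: Loewy length is at most the length.
* `exists_socle_not_mem`: an ideal of finite colength in a Noetherian local ring has a nonzero
  socle element modulo it.
* `length_quotient_pow_le_two_pow`: `ℓ(S / I ^ N) ≤ 2 ^ (ℓ(S / I) - 1) * ℓ(S / n ^ N)`.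
* `socle_mul_le_map_mul`: for a flat local homomorphism whose closed fibre has non-principal
  maximal ideal, every ideal `J` with `J n ≤ m S` satisfies `J n ≤ m S n`.
-/

namespace Vale.Agent.H54

open IsLocalRing

section Local

variable {S : Type*} [CommRing S]

/-- A strict inclusion of ideals increases the colength by at least one. -/
theorem length_succ_le_of_lt (I I' : Ideal S) (h : I < I') :
    Module.length S (S ⧸ I') + 1 ≤ Module.length S (S ⧸ I) := by
  have e1 : Module.length S (S ⧸ I) =
      Module.length S (LinearMap.ker (Submodule.factor h.le)) + Module.length S (S ⧸ I') :=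
    Module.length_eq_add_of_exact (LinearMap.ker (Submodule.factor h.le)).subtype
      (Submodule.factor h.le) (Submodule.injective_subtype _)
      (Submodule.factor_surjective h.le) (LinearMap.exact_subtype_ker_map _)
  obtain ⟨x, hxn, hxI⟩ := SetLike.exists_of_lt h
  have hnt1 : Nontrivial (LinearMap.ker (Submodule.factor h.le)) := by
    refine ⟨⟨⟨Submodule.mkQ I x, ?_⟩, 0, ?_⟩⟩
    · rw [LinearMap.mem_ker, Submodule.factor_mk, Submodule.mkQ_apply,
        Submodule.Quotient.mk_eq_zero]
      exact hxn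
    · intro h'
      have h'' := congrArg Subtype.val h'
      simp only [Submodule.mkQ_apply, ZeroMemClass.coe_zero] at h''
      exact hxI ((Submodule.Quotient.mk_eq_zero I).mp h'')
  have h1 : 1 ≤ Module.length S (LinearMap.ker (Submodule.factor h.le)) :=
    Order.one_le_iff_pos.mpr Module.length_pos
  rw [e1, add_comm]
  exact add_le_add h1 le_rfl

variable [IsLocalRing S]

/-- If `a` lies in the maximal ideal and `a ^ j ∉ I`, then `S / I` has length at least `j + 1`. -/
theorem succ_le_length_of_pow_not_mem (I : Ideal S) (a : S) (ha : a ∈ maximalIdeal S) (j : ℕ)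
    (hj : a ^ j ∉ I) : ((j + 1 : ℕ) : ℕ∞) ≤ Module.length S (S ⧸ I) := by
  have hstep : ∀ i : ℕ, i ≤ j → ((i : ℕ) : ℕ∞) ≤ Module.length S (S ⧸ (I ⊔ Ideal.span {a ^ i})) := by
    intro i
    induction i with
    | zero => intro _; simp
    | succ i ih =>
      intro hi
      have hlt : I ⊔ Ideal.span {a ^ (i + 1)} < I ⊔ Ideal.span {a ^ i} := by
        refine lt_of_le_of_ne (sup_le_sup le_rfl ?_) ?_
        · rw [Ideal.span_singleton_le_span_singleton]
          exact ⟨a, by rw [pow_succ]⟩
        · intro heq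
          have hmem : a ^ i ∈ I ⊔ Ideal.span {a ^ (i + 1)} := by
            rw [heq]
            exact Ideal.mem_sup_right (Ideal.mem_span_singleton_self _)
          obtain ⟨x, hx, y, hy, hxy⟩ := Submodule.mem_sup.mp hmem
          obtain ⟨s, rfl⟩ := Ideal.mem_span_singleton'.mp hy
          have hu : IsUnit (1 - s * a) := by
            have hsa : s * a ∈ maximalIdeal S := Ideal.mul_mem_left _ _ ha
            by_contra hnu
            have h1 : (1 - s * a) ∈ maximalIdeal S := (IsLocalRing.mem_maximalIdeal _).mpr hnu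
            have h2 : (1 : S) ∈ maximalIdeal S := by
              have := Ideal.add_mem _ h1 hsa
              simp at this
            exact (Ideal.ne_top_iff_one _).mp (IsLocalRing.maximalIdeal.isMaximal S).ne_top h2
          have hxe : x = (1 - s * a) * a ^ i := by
            have : x = a ^ i - s * a ^ (i + 1) := by rw [← hxy]; ring
            rw [this]; ring
          have hai : a ^ i ∈ I := by
            obtain ⟨u, hu'⟩ := hu
            have : a ^ i = (↑u⁻¹ : S) * x := by
              rw [hxe, ← hu', ← mul_assoc, Units.inv_mul, one_mul]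
            rw [this]
            exact Ideal.mul_mem_left _ _ hx
          apply hj
          have hji : a ^ j = a ^ (j - i) * a ^ i := by
            rw [← pow_add]; congr 1; omega
          rw [hji]
          exact Ideal.mul_mem_left _ _ hai
      have h1 := length_succ_le_of_lt _ _ hlt
      have h2 := ih (by omega)
      calc ((i + 1 : ℕ) : ℕ∞) = (i : ℕ∞) + 1 := by push_cast; rfl
        _ ≤ Module.length S (S ⧸ (I ⊔ Ideal.span {a ^ i})) + 1 := by gcongr
        _ ≤ Module.length S (S ⧸ (I ⊔ Ideal.span {a ^ (i + 1)})) := h1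
  have hlt : I < I ⊔ Ideal.span {a ^ j} := by
    refine lt_of_le_of_ne le_sup_left ?_
    intro heq
    apply hj
    rw [heq]
    exact Ideal.mem_sup_right (Ideal.mem_span_singleton_self _)
  have h1 := length_succ_le_of_lt _ _ hlt
  calc ((j + 1 : ℕ) : ℕ∞) = (j : ℕ∞) + 1 := by push_cast; rfl
    _ ≤ Module.length S (S ⧸ (I ⊔ Ideal.span {a ^ j})) + 1 := by gcongr; exact hstep j le_rfl
    _ ≤ Module.length S (S ⧸ I) := h1

/-- If `S / I` has length at most `lam`, then the `lam`-th power of every element of the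
maximal ideal lies in `I`. -/
theorem pow_mem_of_length_le (I : Ideal S) (a : S) (ha : a ∈ maximalIdeal S) (lam : ℕ)
    (hlam : Module.length S (S ⧸ I) ≤ lam) : a ^ lam ∈ I := by
  by_contra h
  have h1 := succ_le_length_of_pow_not_mem I a ha lam h
  have h2 : ((lam + 1 : ℕ) : ℕ∞) ≤ (lam : ℕ∞) := h1.trans hlam
  have h3 : lam + 1 ≤ lam := by exact_mod_cast h2
  omega

variable [IsNoetherianRing S]

/-- In a Noetherian local ring, if `S / I` has length at most `lam` then `n ^ lam ≤ I`. -/
theorem maximalIdeal_pow_le_of_length_le (I : Ideal S) (lam : ℕ)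
    (hlam : Module.length S (S ⧸ I) ≤ lam) : maximalIdeal S ^ lam ≤ I := by
  -- some `i ≤ lam` has `I ⊔ n ^ (i + 1) = I ⊔ n ^ i`
  have hex : ∃ i : ℕ, i ≤ lam ∧ I ⊔ maximalIdeal S ^ i ≤ I ⊔ maximalIdeal S ^ (i + 1) := by
    by_contra hcon
    have hstrict : ∀ i : ℕ, i ≤ lam →
        I ⊔ maximalIdeal S ^ (i + 1) < I ⊔ maximalIdeal S ^ i := by
      intro i hi
      refine lt_of_le_of_ne (sup_le_sup le_rfl (Ideal.pow_le_pow_right (Nat.le_succ i))) ?_
      intro heq
      exact hcon ⟨i, hi, heq.ge⟩
    have hstep : ∀ i : ℕ, i ≤ lam + 1 →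
        ((i : ℕ) : ℕ∞) ≤ Module.length S (S ⧸ (I ⊔ maximalIdeal S ^ i)) := by
      intro i
      induction i with
      | zero => intro _; simp
      | succ i ih =>
        intro hi
        have h1 := length_succ_le_of_lt _ _ (hstrict i (by omega))
        have h2 := ih (by omega)
        calc ((i + 1 : ℕ) : ℕ∞) = (i : ℕ∞) + 1 := by push_cast; rfl
          _ ≤ Module.length S (S ⧸ (I ⊔ maximalIdeal S ^ i)) + 1 := by gcongr
          _ ≤ Module.length S (S ⧸ (I ⊔ maximalIdeal S ^ (i + 1))) := h1
    have h3 := hstep (lam + 1) le_rfl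
    have h4 : Module.length S (S ⧸ (I ⊔ maximalIdeal S ^ (lam + 1))) ≤ Module.length S (S ⧸ I) :=
      Module.length_le_of_surjective (Submodule.factor (le_sup_left : I ≤ I ⊔ _))
        (Submodule.factor_surjective _)
    have h5 : ((lam + 1 : ℕ) : ℕ∞) ≤ (lam : ℕ∞) := (h3.trans h4).trans hlam
    have h6 : lam + 1 ≤ lam := by exact_mod_cast h5
    omega
  obtain ⟨i, hi, hle⟩ := hex
  have hnak : maximalIdeal S ^ i ≤ I := by
    refine Submodule.le_of_le_smul_of_le_jacobson_bot (I := maximalIdeal S)
      (Ideal.fg_of_isNoetherianRing _) ?_ ?_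
    · rw [IsLocalRing.jacobson_eq_maximalIdeal ⊥ bot_ne_top]
    · rw [smul_eq_mul, ← pow_succ']
      exact le_sup_right.trans hle
  exact (Ideal.pow_le_pow_right hi).trans hnak

/-- A proper ideal of finite colength in a Noetherian local ring has a socle element modulo it:
some `x ∉ I` with `x n ≤ I`. -/
theorem exists_socle_not_mem (I : Ideal S) (hI : I ≠ ⊤)
    (hfin : Module.length S (S ⧸ I) ≠ ⊤) :
    ∃ x : S, x ∉ I ∧ ∀ y ∈ maximalIdeal S, x * y ∈ I := by
  classical
  obtain ⟨lam, hlam⟩ := ENat.ne_top_iff_exists.mp hfin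
  have hex : ∃ N : ℕ, maximalIdeal S ^ N ≤ I :=
    ⟨lam, maximalIdeal_pow_le_of_length_le I lam (le_of_eq hlam.symm)⟩
  have hN := Nat.find_spec hex
  have hN0 : Nat.find hex ≠ 0 := by
    intro h0
    rw [h0, pow_zero, Ideal.one_eq_top, top_le_iff] at hN
    exact hI hN
  obtain ⟨M, hM⟩ := Nat.exists_eq_succ_of_ne_zero hN0
  have hMn : ¬ maximalIdeal S ^ M ≤ I := Nat.find_min hex (by omega)
  obtain ⟨x, hx, hxI⟩ := SetLike.not_le_iff_exists.mp hMn
  refine ⟨x, hxI, fun y hy => ?_⟩
  apply hN
  rw [hM, pow_succ]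
  exact Ideal.mul_mem_mul hx hy

/-- **Colength bound.**  If `I` is a proper ideal of a Noetherian local ring `S` with
`ℓ(S / I) ≤ j + 1`, then `ℓ(S / I ^ N) ≤ 2 ^ j * ℓ(S / n ^ N)` for all `N`. -/
theorem length_quotient_pow_le_two_pow (j : ℕ) :
    ∀ I : Ideal S, I ≠ ⊤ → Module.length S (S ⧸ I) ≤ ((j + 1 : ℕ) : ℕ∞) →
      (∀ N : ℕ, Module.length S (S ⧸ I ^ N) ≠ ⊤) →
      ∀ N : ℕ, Module.length S (S ⧸ I ^ N) ≤ 2 ^ j * Module.length S (S ⧸ maximalIdeal S ^ N) := by
  induction j with
  | zero =>
    intro I hI hlen hfin N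
    have hIn : I = maximalIdeal S := by
      by_contra hne
      have hlt : I < maximalIdeal S := lt_of_le_of_ne (IsLocalRing.le_maximalIdeal hI) hne
      have h2 := two_le_length_quotient_of_lt I hlt
      have h3 : (2 : ℕ∞) ≤ ((0 + 1 : ℕ) : ℕ∞) := h2.trans hlen
      have h4 : (2 : ℕ) ≤ 0 + 1 := by exact_mod_cast h3
      omega
    rw [hIn, pow_zero, one_mul]
  | succ j ih =>
    intro I hI hlen hfin N
    by_cases hIn : I = maximalIdeal S
    · rw [hIn]
      exact le_mul_of_one_le_left zero_le (one_le_pow_of_one_le' (by norm_num) _)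
    have hIle : I ≤ maximalIdeal S := IsLocalRing.le_maximalIdeal hI
    have hfin1 : Module.length S (S ⧸ I) ≠ ⊤ := by
      have := hfin 1
      rwa [pow_one] at this
    obtain ⟨x, hxI, hxn⟩ := exists_socle_not_mem I hI hfin1
    have hxmem : x ∈ maximalIdeal S := by
      by_contra hx
      have hu : IsUnit x := by
        by_contra h
        exact hx ((IsLocalRing.mem_maximalIdeal _).mpr h)
      obtain ⟨u, rfl⟩ := hu
      apply hIn
      refine le_antisymm hIle fun y hy => ?_
      have h1 := hxn y hy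
      have : y = (↑u⁻¹ : S) * ((u : S) * y) := by rw [← mul_assoc, Units.inv_mul, one_mul]
      rw [this]
      exact Ideal.mul_mem_left _ _ h1
    have hx2 : x ^ 2 ∈ I := by rw [pow_two]; exact hxn x hxmem
    have hlt : I < Ideal.span {x} ⊔ I := by
      refine lt_of_le_of_ne le_sup_right ?_
      intro heq
      apply hxI
      rw [heq]
      exact Ideal.mem_sup_left (Ideal.mem_span_singleton_self x)
    have hI'le : Ideal.span {x} ⊔ I ≤ maximalIdeal S :=
      sup_le ((Ideal.span_singleton_le_iff_mem _).mpr hxmem) hIle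
    have hI'top : Ideal.span {x} ⊔ I ≠ ⊤ := fun h =>
      (IsLocalRing.maximalIdeal.isMaximal S).ne_top (top_le_iff.mp (h ▸ hI'le))
    have hlen' : Module.length S (S ⧸ (Ideal.span {x} ⊔ I)) ≤ ((j + 1 : ℕ) : ℕ∞) := by
      have h1 := (length_succ_le_of_lt _ _ hlt).trans hlen
      have h2 : ((j + 1 + 1 : ℕ) : ℕ∞) = ((j + 1 : ℕ) : ℕ∞) + 1 := by push_cast; rfl
      rw [h2] at h1
      exact (ENat.add_le_add_iff_right ENat.one_ne_top).mp h1
    have hfin' : ∀ M : ℕ, Module.length S (S ⧸ (Ideal.span {x} ⊔ I) ^ M) ≠ ⊤ := by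
      intro M
      have hle : I ^ M ≤ (Ideal.span {x} ⊔ I) ^ M := Ideal.pow_right_mono le_sup_right M
      exact ne_top_of_le_ne_top (hfin M)
        (Module.length_le_of_surjective (Submodule.factor hle) (Submodule.factor_surjective _))
    have h1 := ih (Ideal.span {x} ⊔ I) hI'top hlen' hfin' N
    have h2 := length_quotient_pow_le_two_mul (Ideal.span {x} ⊔ I) rfl hx2 hfin N
    calc Module.length S (S ⧸ I ^ N) ≤ 2 * Module.length S (S ⧸ (Ideal.span {x} ⊔ I) ^ N) := h2
      _ ≤ 2 * (2 ^ j * Module.length S (S ⧸ maximalIdeal S ^ N)) := by gcongr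
      _ = 2 ^ (j + 1) * Module.length S (S ⧸ maximalIdeal S ^ N) := by
          rw [pow_succ, ← mul_assoc, mul_comm 2 (2 ^ j)]

end Local

section Flat

variable {R S : Type*} [CommRing R] [CommRing S] [IsLocalRing R] [IsLocalRing S]
  [IsNoetherianRing R] [Algebra R S] [IsLocalHom (algebraMap R S)] [Module.Flat R S]

omit [IsNoetherianRing R] [Module.Flat R S] in
/-- If the maximal ideal of the closed fibre is not principal, then for every `a ∈ n` there is
`c ∈ n` that is not a multiple of `a` modulo `m S`. -/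
theorem exists_indep_of_not_principal
    (hnp : ∀ a : S, maximalIdeal S ≠
      Ideal.span {a} ⊔ (maximalIdeal R).map (algebraMap R S))
    (a : S) (ha : a ∈ maximalIdeal S) :
    ∃ c ∈ maximalIdeal S, ∀ s s' : S,
      s * c - s' * a ∈ (maximalIdeal R).map (algebraMap R S) → s ∈ maximalIdeal S := by
  by_contra hcon
  apply hnp a
  apply le_antisymm
  · intro c hc
    by_contra hcm
    apply hcon
    refine ⟨c, hc, fun s s' hmem => ?_⟩
    by_contra hs
    have hu : IsUnit s := by
      by_contra h
      exact hs ((IsLocalRing.mem_maximalIdeal _).mpr h)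
    obtain ⟨v, rfl⟩ := hu
    apply hcm
    have hceq : c = (↑v⁻¹ : S) * s' * a + (↑v⁻¹ : S) * ((v : S) * c - s' * a) := by
      have h1 : (↑v⁻¹ : S) * (v : S) = 1 := Units.inv_mul v
      calc c = ((↑v⁻¹ : S) * (v : S)) * c := by rw [h1, one_mul]
        _ = (↑v⁻¹ : S) * s' * a + (↑v⁻¹ : S) * ((v : S) * c - s' * a) := by ring
    rw [hceq]
    exact Ideal.add_mem _
      (Ideal.mem_sup_left (Ideal.mul_mem_left _ _ (Ideal.mem_span_singleton_self a)))
      (Ideal.mem_sup_right (Ideal.mul_mem_left _ _ hmem))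
  · exact sup_le ((Ideal.span_singleton_le_iff_mem _).mpr ha)
      (map_maximalIdeal_le (algebraMap R S))

/-- **Socle reduction.**  If the maximal ideal of the closed fibre is not principal and
`J n ≤ m S`, then `J n ≤ m S n`. -/
theorem socle_mul_le_map_mul
    (hnp : ∀ a : S, maximalIdeal S ≠
      Ideal.span {a} ⊔ (maximalIdeal R).map (algebraMap R S))
    (J : Ideal S) (hJ : J * maximalIdeal S ≤ (maximalIdeal R).map (algebraMap R S)) :
    J * maximalIdeal S ≤ (maximalIdeal R).map (algebraMap R S) * maximalIdeal S := by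
  rw [Ideal.mul_le]
  intro b hb a ha
  obtain ⟨c, hc, hind⟩ := exists_indep_of_not_principal hnp a ha
  have hab : a * b ∈ (maximalIdeal R).map (algebraMap R S) := by
    rw [mul_comm]; exact hJ (Ideal.mul_mem_mul hb ha)
  have hcb : c * b ∈ (maximalIdeal R).map (algebraMap R S) := by
    rw [mul_comm]; exact hJ (Ideal.mul_mem_mul hb hc)
  rw [mul_comm b a]
  exact mul_mem_map_mul_of_indep a b c hab hcb hind

omit [IsNoetherianRing R] [IsLocalHom (algebraMap R S)] [Module.Flat R S] in
/-- If `J ≤ n` and `J n ≤ m S n`, then `J ^ (N + 1) ≤ m ^ N S` for all `N`. -/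
theorem socle_pow_succ_le_map_pow (J : Ideal S) (hJn : J ≤ maximalIdeal S)
    (h : J * maximalIdeal S ≤ (maximalIdeal R).map (algebraMap R S) * maximalIdeal S) (N : ℕ) :
    J ^ (N + 1) ≤ (maximalIdeal R ^ N).map (algebraMap R S) := by
  have key : ∀ N : ℕ, J ^ N * maximalIdeal S ≤
      (maximalIdeal R).map (algebraMap R S) ^ N * maximalIdeal S := by
    intro N
    induction N with
    | zero => simp
    | succ N ih =>
      calc J ^ (N + 1) * maximalIdeal S = J ^ N * (J * maximalIdeal S) := by
            rw [pow_succ, mul_assoc]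
        _ ≤ J ^ N * ((maximalIdeal R).map (algebraMap R S) * maximalIdeal S) :=
            Ideal.mul_mono_right h
        _ = (maximalIdeal R).map (algebraMap R S) * (J ^ N * maximalIdeal S) := by
            rw [← mul_assoc, mul_comm (J ^ N), mul_assoc]
        _ ≤ (maximalIdeal R).map (algebraMap R S) *
            ((maximalIdeal R).map (algebraMap R S) ^ N * maximalIdeal S) :=
            Ideal.mul_mono_right ih
        _ = (maximalIdeal R).map (algebraMap R S) ^ (N + 1) * maximalIdeal S := by
            rw [← mul_assoc, ← pow_succ']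
  rw [Ideal.map_pow]
  calc J ^ (N + 1) = J ^ N * J := pow_succ _ _
    _ ≤ J ^ N * maximalIdeal S := Ideal.mul_mono_right hJn
    _ ≤ (maximalIdeal R).map (algebraMap R S) ^ N * maximalIdeal S := key N
    _ ≤ (maximalIdeal R).map (algebraMap R S) ^ N := Ideal.mul_le_left

end Flat

end Vale.Agent.H54
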