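import Mathlib
import Vale.Agent.H54.LechSocle
import Vale.Agent.H54.LechPower

/-!
# Lech's inequality for closed fibres of small length (support file for P202)

* `lech_of_principal_fibre`: `e(R) ≤ e(S)` when the maximal ideal of the closed fibre is
  principal.
* `lech_colength_bound`: `ℓ(S / m S) * e(R) ≤ 2 ^ (ℓ(S / m S) - 1) * e(S)`.
* `lech_socle_bound`: if the maximal ideal of the closed fibre is not principal and `J n ≤ m S`,
  `ℓ(S / J) ≤ j + 1`, then `ℓ(S / m S) * e(R) ≤ 2 ^ j * e(S)`.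
* `lech_of_length_le_four`: `e(R) ≤ e(S)` when the closed fibre has length at most four.
-/

namespace Vale.Agent.H54

open IsLocalRing Filter Topology

/-- Comparison of leading coefficients with an additive constant and a shift. -/
theorem leading_coeff_le_add_shift (a b : ℕ → ℕ) (d lam K C c : ℕ) (hC : C = 0 ∨ 0 < d)
    (eR eS : ℝ)
    (ha : Tendsto (fun N : ℕ => (d.factorial : ℝ) * (a N : ℝ) / (N : ℝ) ^ d) atTop (𝓝 eR))
    (hb : Tendsto (fun N : ℕ => (d.factorial : ℝ) * (b N : ℝ) / (N : ℝ) ^ d) atTop (𝓝 eS))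
    (hab : ∀ N, lam * a N ≤ C + K * b (N + c)) :
    (lam : ℝ) * eR ≤ (K : ℝ) * eS := by
  have hb' : Tendsto (fun N : ℕ => (d.factorial : ℝ) * (b (N + c) : ℝ) /
      ((N + c : ℕ) : ℝ) ^ d) atTop (𝓝 eS) := hb.comp (tendsto_add_atTop_nat c)
  have hratio : Tendsto (fun N : ℕ => (((N + c : ℕ) : ℝ) / (N : ℝ)) ^ d) atTop (𝓝 1) := by
    have h0 : Tendsto (fun N : ℕ => (c : ℝ) / (N : ℝ)) atTop (𝓝 0) :=
      tendsto_const_div_atTop_nhds_zero_nat (c : ℝ)
    have h1 : Tendsto (fun N : ℕ => 1 + (c : ℝ) / (N : ℝ)) atTop (𝓝 (1 + 0)) :=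
      tendsto_const_nhds.add h0
    have h2 := h1.pow d
    simp only [add_zero, one_pow] at h2
    refine h2.congr' ?_
    filter_upwards [eventually_gt_atTop 0] with N hN
    have hN0 : (N : ℝ) ≠ 0 := by positivity
    congr 1
    rw [Nat.cast_add]
    field_simp
  have hconst : Tendsto (fun N : ℕ => (d.factorial : ℝ) * (C : ℝ) / (N : ℝ) ^ d) atTop (𝓝 0) := by
    rcases hC with rfl | hd
    · simp
    · exact tendsto_const_nhds.div_atTop
        ((tendsto_pow_atTop hd.ne').comp tendsto_natCast_atTop_atTop)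
  have h3 := hconst.add (((hb'.mul hratio).const_mul (K : ℝ)))
  rw [mul_one, zero_add] at h3
  refine le_of_tendsto_of_tendsto (ha.const_mul (lam : ℝ)) h3 ?_
  filter_upwards [eventually_gt_atTop 0] with N hN
  have hN' : (0 : ℝ) < N := by exact_mod_cast hN
  have hNc : (0 : ℝ) < ((N + c : ℕ) : ℝ) := by positivity
  have hab' : (lam : ℝ) * (a N : ℝ) ≤ (C : ℝ) + (K : ℝ) * (b (N + c) : ℝ) := by
    exact_mod_cast hab N
  have e2 : (d.factorial : ℝ) * (C : ℝ) / (N : ℝ) ^ d +
      (K : ℝ) * ((d.factorial : ℝ) * (b (N + c) : ℝ) / ((N + c : ℕ) : ℝ) ^ d *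
        (((N + c : ℕ) : ℝ) / (N : ℝ)) ^ d)
      = (d.factorial : ℝ) * ((C : ℝ) + (K : ℝ) * (b (N + c) : ℝ)) / (N : ℝ) ^ d := by
    rw [div_pow]
    field_simp
  have e1 : (lam : ℝ) * ((d.factorial : ℝ) * (a N : ℝ) / (N : ℝ) ^ d)
      = (d.factorial : ℝ) * ((lam : ℝ) * (a N : ℝ)) / (N : ℝ) ^ d := by ring
  rw [e2, e1]
  gcongr

/-- Passing from extended natural numbers to natural numbers in a length inequality. -/
theorem enat_toNat_le_aux {x y z : ℕ∞} (hx : x ≠ ⊤) (hy : y ≠ ⊤) (hz : z ≠ ⊤) (A B : ℕ)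
    (h : x * (A : ℕ∞) ≤ y + (B : ℕ∞) * z) : A * x.toNat ≤ y.toNat + B * z.toNat := by
  lift x to ℕ using hx
  lift y to ℕ using hy
  lift z to ℕ using hz
  simp only [ENat.toNat_natCast]
  rw [mul_comm]
  exact_mod_cast h

section Flat

variable {R S : Type*} [CommRing R] [CommRing S]
  [IsLocalRing R] [IsLocalRing S] [IsNoetherianRing R] [IsNoetherianRing S]
  [Algebra R S] [IsLocalHom (algebraMap R S)] [Module.Flat R S]

omit [IsNoetherianRing R] [Module.Flat R S] [IsLocalHom (algebraMap R S)] in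
/-- Powers of `m S` have finite colength when `n ^ k ≤ m S`. -/
theorem length_quotient_map_pow_ne_top (k : ℕ)
    (hpow : maximalIdeal S ^ k ≤ (maximalIdeal R).map (algebraMap R S)) (N : ℕ) :
    Module.length S (S ⧸ (maximalIdeal R).map (algebraMap R S) ^ N) ≠ ⊤ := by
  have hle : maximalIdeal S ^ (k * N) ≤ (maximalIdeal R).map (algebraMap R S) ^ N := by
    rw [pow_mul]
    exact Ideal.pow_right_mono hpow N
  exact ne_top_of_le_ne_top (length_quotient_maximalIdeal_pow_ne_top S (k * N))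
    (Module.length_le_of_surjective (Submodule.factor hle) (Submodule.factor_surjective _))

/-- **Lech's inequality for closed fibres with principal maximal ideal.** -/
theorem lech_of_principal_fibre (a : S)
    (hn : maximalIdeal S = Ideal.span {a} ⊔ (maximalIdeal R).map (algebraMap R S))
    (lam : ℕ) (hlam : Module.length S (S ⧸ (maximalIdeal R).map (algebraMap R S)) = lam)
    (eR eS : ℝ)
    (heR : IsHilbertSamuelMultiplicity R eR) (heS : IsHilbertSamuelMultiplicity S eS) :
    eR ≤ eS := by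
  have hpow : maximalIdeal S ^ lam ≤ (maximalIdeal R).map (algebraMap R S) :=
    maximalIdeal_pow_le_of_length_le _ lam (le_of_eq hlam)
  have hlam1 : 1 ≤ lam := by
    have h1 := one_le_length_fibre (R := R) (S := S)
    rw [hlam] at h1
    exact_mod_cast h1
  obtain ⟨k, rfl⟩ : ∃ k, lam = k + 1 := ⟨lam - 1, by omega⟩
  have han : a ∈ maximalIdeal S := by
    rw [hn]; exact Ideal.mem_sup_left (Ideal.mem_span_singleton_self a)
  have hak : a ^ (k + 1) ∈ (maximalIdeal R).map (algebraMap R S) :=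
    pow_mem_of_length_le _ a han (k + 1) (le_of_eq hlam)
  have hfin := length_quotient_map_pow_ne_top (R := R) (S := S) (k + 1) hpow
  -- small dimension: direct
  have hsmall := lech_inequality_of_pow_le (R := R) (S := S)
  obtain ⟨dR, hdR, hRt⟩ := heR
  obtain ⟨dS, hdS, hSt⟩ := heS
  have hdim : ringKrullDim S = ringKrullDim R := ringKrullDim_eq_of_pow_le (k + 1) hpow
  have edS : dS = dR := by
    have : (dS : WithBot ℕ∞) = (dR : WithBot ℕ∞) := by rw [← hdS, ← hdR, hdim]
    exact_mod_cast this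
  rw [edS] at hSt
  have heR0 : 0 ≤ eR := ge_of_tendsto' hRt (fun N => by positivity)
  rcases Nat.eq_zero_or_pos dR with hd0 | hdpos
  · have h1 := hsmall dR hdR eR eS ⟨dR, hdR, hRt⟩ ⟨dR, by rw [hdim, hdR], hSt⟩ 1 (k + 1) (k + 1)
      one_pos (by rwa [pow_one]) hlam
    refine h1.2 ?_
    rw [hd0]
    simp only [pow_zero, mul_one]
    exact_mod_cast Nat.succ_pos k |>.le |> fun h => (by omega : 1 ≤ k + 1)
  -- general dimension: the principal step lemma
  have hkey : ∀ N : ℕ, (k + 1) * (Module.length R (R ⧸ maximalIdeal R ^ N)).toNat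
      ≤ (Module.length S (S ⧸ (maximalIdeal R).map (algebraMap R S) ^ k)).toNat +
        (k + 1) * (Module.length S (S ⧸ maximalIdeal S ^ (N + 2 * k))).toNat := by
    intro N
    have h3 := length_quotient_pow_le_succ_mul (maximalIdeal S) hn k hak hfin N
    have hmono : Module.length S (S ⧸ (maximalIdeal R).map (algebraMap R S) ^ N) ≤
        Module.length S (S ⧸ (maximalIdeal R).map (algebraMap R S) ^ (N + k)) :=
      Module.length_le_of_surjective
        (Submodule.factor (Ideal.pow_le_pow_right (Nat.le_add_right N k)))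
        (Submodule.factor_surjective _)
    have h4 := hmono.trans h3
    rw [← Ideal.map_pow, length_quotient_map_eq, hlam] at h4
    have h4' : Module.length R (R ⧸ maximalIdeal R ^ N) * ((k + 1 : ℕ) : ℕ∞) ≤
        Module.length S (S ⧸ (maximalIdeal R).map (algebraMap R S) ^ k) +
          ((k + 1 : ℕ) : ℕ∞) * Module.length S (S ⧸ maximalIdeal S ^ (N + 2 * k)) := by
      have := h4
      push_cast at this ⊢
      exact this
    exact enat_toNat_le_aux (length_quotient_maximalIdeal_pow_ne_top R N) (hfin k)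
      (length_quotient_maximalIdeal_pow_ne_top S _) (k + 1) (k + 1) h4'
  have main := leading_coeff_le_add_shift _ _ dR (k + 1) (k + 1) _ (2 * k) (Or.inr hdpos)
    eR eS hRt hSt hkey
  have hk0 : (0 : ℝ) < ((k + 1 : ℕ) : ℝ) := by positivity
  exact le_of_mul_le_mul_left main hk0

/-- **Colength bound.**  If the closed fibre has length `j + 1`, then
`(j + 1) * e(R) ≤ 2 ^ j * e(S)`. -/
theorem lech_colength_bound (j : ℕ)
    (hlam : Module.length S (S ⧸ (maximalIdeal R).map (algebraMap R S)) = ((j + 1 : ℕ) : ℕ∞))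
    (eR eS : ℝ)
    (heR : IsHilbertSamuelMultiplicity R eR) (heS : IsHilbertSamuelMultiplicity S eS) :
    ((j + 1 : ℕ) : ℝ) * eR ≤ 2 ^ j * eS := by
  have hpow : maximalIdeal S ^ (j + 1) ≤ (maximalIdeal R).map (algebraMap R S) :=
    maximalIdeal_pow_le_of_length_le _ (j + 1) (le_of_eq hlam)
  have hfin := length_quotient_map_pow_ne_top (R := R) (S := S) (j + 1) hpow
  obtain ⟨dR, hdR, hRt⟩ := heR
  obtain ⟨dS, hdS, hSt⟩ := heS
  have hdim : ringKrullDim S = ringKrullDim R := ringKrullDim_eq_of_pow_le (j + 1) hpow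
  have edS : dS = dR := by
    have : (dS : WithBot ℕ∞) = (dR : WithBot ℕ∞) := by rw [← hdS, ← hdR, hdim]
    exact_mod_cast this
  rw [edS] at hSt
  have hkey : ∀ N : ℕ, (j + 1) * (Module.length R (R ⧸ maximalIdeal R ^ N)).toNat
      ≤ 2 ^ j * (Module.length S (S ⧸ maximalIdeal S ^ N)).toNat := by
    intro N
    have h3 := length_quotient_pow_le_two_pow j ((maximalIdeal R).map (algebraMap R S))
      (map_maximalIdeal_lt_top (algebraMap R S)).ne (le_of_eq hlam) hfin N
    rw [← Ideal.map_pow, length_quotient_map_eq, hlam] at h3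
    have hfin2 : 2 ^ j * Module.length S (S ⧸ maximalIdeal S ^ N) ≠ ⊤ :=
      WithTop.mul_ne_top (by exact_mod_cast ENat.natCast_ne_top (2 ^ j))
        (length_quotient_maximalIdeal_pow_ne_top S N)
    have h5 := ENat.toNat_le_toNat h3 hfin2
    rw [ENat.toNat_mul, ENat.toNat_mul, ENat.toNat_natCast] at h5
    have e2 : ((2 : ℕ∞) ^ j).toNat = 2 ^ j := by
      have : ((2 : ℕ∞) ^ j) = ((2 ^ j : ℕ) : ℕ∞) := by push_cast; rfl
      rw [this, ENat.toNat_natCast]
    rw [e2, mul_comm] at h5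
    exact h5
  have := leading_coeff_le_const _ _ dR (j + 1) (2 ^ j) eR eS hRt hSt hkey
  simpa using this

/-- **Socle bound.**  If the maximal ideal of the closed fibre is not principal, `J` is a proper
ideal with `J n ≤ m S` and `ℓ(S / J) ≤ j + 1`, then `ℓ(S / m S) * e(R) ≤ 2 ^ j * e(S)`. -/
theorem lech_socle_bound
    (hnp : ∀ a : S, maximalIdeal S ≠
      Ideal.span {a} ⊔ (maximalIdeal R).map (algebraMap R S))
    (J : Ideal S) (hJtop : J ≠ ⊤)
    (hJ : J * maximalIdeal S ≤ (maximalIdeal R).map (algebraMap R S))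
    (j : ℕ) (hj : Module.length S (S ⧸ J) ≤ ((j + 1 : ℕ) : ℕ∞))
    (lam : ℕ) (hlam : Module.length S (S ⧸ (maximalIdeal R).map (algebraMap R S)) = lam)
    (eR eS : ℝ)
    (heR : IsHilbertSamuelMultiplicity R eR) (heS : IsHilbertSamuelMultiplicity S eS) :
    (lam : ℝ) * eR ≤ 2 ^ j * eS := by
  have hpow : maximalIdeal S ^ lam ≤ (maximalIdeal R).map (algebraMap R S) :=
    maximalIdeal_pow_le_of_length_le _ lam (le_of_eq hlam)
  have hJn : J ≤ maximalIdeal S := IsLocalRing.le_maximalIdeal hJtop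
  have hJpow : maximalIdeal S ^ (j + 1) ≤ J := maximalIdeal_pow_le_of_length_le J (j + 1) hj
  have hfinJ : ∀ N : ℕ, Module.length S (S ⧸ J ^ N) ≠ ⊤ := by
    intro N
    have hle : maximalIdeal S ^ ((j + 1) * N) ≤ J ^ N := by
      rw [pow_mul]
      exact Ideal.pow_right_mono hJpow N
    exact ne_top_of_le_ne_top (length_quotient_maximalIdeal_pow_ne_top S ((j + 1) * N))
      (Module.length_le_of_surjective (Submodule.factor hle) (Submodule.factor_surjective _))
  have hred := socle_pow_succ_le_map_pow (R := R) J hJn (socle_mul_le_map_mul hnp J hJ)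
  obtain ⟨dR, hdR, hRt⟩ := heR
  obtain ⟨dS, hdS, hSt⟩ := heS
  have hdim : ringKrullDim S = ringKrullDim R := ringKrullDim_eq_of_pow_le lam hpow
  have edS : dS = dR := by
    have : (dS : WithBot ℕ∞) = (dR : WithBot ℕ∞) := by rw [← hdS, ← hdR, hdim]
    exact_mod_cast this
  rw [edS] at hSt
  have hkey : ∀ N : ℕ, lam * (Module.length R (R ⧸ maximalIdeal R ^ N)).toNat
      ≤ 0 + 2 ^ j * (Module.length S (S ⧸ maximalIdeal S ^ (N + 1))).toNat := by
    intro N
    have h1 : Module.length S (S ⧸ (maximalIdeal R ^ N).map (algebraMap R S)) ≤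
        Module.length S (S ⧸ J ^ (N + 1)) :=
      Module.length_le_of_surjective (Submodule.factor (hred N)) (Submodule.factor_surjective _)
    have h3 := h1.trans (length_quotient_pow_le_two_pow j J hJtop hj hfinJ (N + 1))
    rw [length_quotient_map_eq, hlam] at h3
    have hfin2 : 2 ^ j * Module.length S (S ⧸ maximalIdeal S ^ (N + 1)) ≠ ⊤ :=
      WithTop.mul_ne_top (by exact_mod_cast ENat.natCast_ne_top (2 ^ j))
        (length_quotient_maximalIdeal_pow_ne_top S (N + 1))
    have h5 := ENat.toNat_le_toNat h3 hfin2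
    rw [ENat.toNat_mul, ENat.toNat_mul, ENat.toNat_natCast] at h5
    have e2 : ((2 : ℕ∞) ^ j).toNat = 2 ^ j := by
      have : ((2 : ℕ∞) ^ j) = ((2 ^ j : ℕ) : ℕ∞) := by push_cast; rfl
      rw [this, ENat.toNat_natCast]
    rw [e2, mul_comm] at h5
    rw [zero_add]
    exact h5
  have := leading_coeff_le_add_shift _ _ dR lam (2 ^ j) 0 1 (Or.inl rfl) eR eS hRt hSt hkey
  simpa using this

/-- **Lech's inequality for closed fibres of length at most four.** -/
theorem lech_of_length_le_four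
    (h4 : Module.length S (S ⧸ (maximalIdeal R).map (algebraMap R S)) ≤ 4)
    (eR eS : ℝ)
    (heR : IsHilbertSamuelMultiplicity R eR) (heS : IsHilbertSamuelMultiplicity S eS) :
    eR ≤ eS := by
  have hfinl : Module.length S (S ⧸ (maximalIdeal R).map (algebraMap R S)) ≠ ⊤ :=
    ne_top_of_le_ne_top (ENat.natCast_ne_top 4) h4
  obtain ⟨lam, hlam⟩ := ENat.ne_top_iff_exists.mp hfinl
  have hlam' : Module.length S (S ⧸ (maximalIdeal R).map (algebraMap R S)) = lam := hlam.symm
  have hlam4 : lam ≤ 4 := by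
    rw [hlam'] at h4
    exact_mod_cast h4
  by_cases hp : ∃ a : S, maximalIdeal S = Ideal.span {a} ⊔ (maximalIdeal R).map (algebraMap R S)
  · obtain ⟨a, ha⟩ := hp
    exact lech_of_principal_fibre a ha lam hlam' eR eS heR heS
  have hnp : ∀ a : S, maximalIdeal S ≠
      Ideal.span {a} ⊔ (maximalIdeal R).map (algebraMap R S) := fun a ha => hp ⟨a, ha⟩
  set mS := (maximalIdeal R).map (algebraMap R S) with hmS
  have hmSn : mS ≤ maximalIdeal S := map_maximalIdeal_le (algebraMap R S)
  have hmStop : mS ≠ ⊤ := (map_maximalIdeal_lt_top (algebraMap R S)).ne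
  let J : Ideal S := mS.colon (maximalIdeal S : Set S)
  have hJ : J * maximalIdeal S ≤ mS := by
    rw [Ideal.mul_le]
    intro x hx y hy
    have := Submodule.mem_colon.mp hx y hy
    simpa [smul_eq_mul] using this
  have hJtop : J ≠ ⊤ := by
    intro htop
    have h1 : (1 : S) ∈ J := by rw [htop]; exact Submodule.mem_top
    apply hnp 0
    refine le_antisymm (fun y hy => ?_) (sup_le (by simp) hmSn)
    have := Submodule.mem_colon.mp h1 y hy
    rw [smul_eq_mul, one_mul] at this
    exact Ideal.mem_sup_right this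
  have hlt : mS < J := by
    obtain ⟨x, hxI, hxn⟩ := exists_socle_not_mem mS hmStop hfinl
    refine lt_of_le_of_ne (fun z hz => ?_) ?_
    · refine Submodule.mem_colon.mpr fun y _ => ?_
      rw [smul_eq_mul]
      exact Ideal.mul_mem_right _ _ hz
    · intro heq
      apply hxI
      rw [heq]
      refine Submodule.mem_colon.mpr fun y hy => ?_
      rw [smul_eq_mul]
      exact hxn y hy
  have hJlen := length_succ_le_of_lt mS J hlt
  rw [hlam'] at hJlen
  have hJpos : 1 ≤ Module.length S (S ⧸ J) := by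
    have : Nontrivial (S ⧸ J) := Ideal.Quotient.nontrivial_iff.mpr hJtop
    exact Order.one_le_iff_pos.mpr Module.length_pos
  have hlam2 : 2 ≤ lam := by
    have h1 : (1 : ℕ∞) + 1 ≤ (lam : ℕ∞) := (add_le_add hJpos le_rfl).trans hJlen
    have h2 : ((2 : ℕ) : ℕ∞) ≤ (lam : ℕ∞) := by
      rw [← one_add_one_eq_two] at *
      exact_mod_cast h1
    exact_mod_cast h2
  obtain ⟨j, rfl⟩ : ∃ j, lam = j + 2 := ⟨lam - 2, by omega⟩
  have hj : Module.length S (S ⧸ J) ≤ ((j + 1 : ℕ) : ℕ∞) := by
    have h2 : ((j + 2 : ℕ) : ℕ∞) = ((j + 1 : ℕ) : ℕ∞) + 1 := by push_cast; rfl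
    rw [h2] at hJlen
    exact (ENat.add_le_add_iff_right ENat.one_ne_top).mp hJlen
  have hj2 : j ≤ 2 := by omega
  have main := lech_socle_bound hnp J hJtop hJ j hj (j + 2) hlam' eR eS heR heS
  obtain ⟨dS, hdS, hSt⟩ := heS
  have heS0 : 0 ≤ eS := ge_of_tendsto' hSt (fun N => by positivity)
  have h2j : (2 : ℝ) ^ j ≤ ((j + 2 : ℕ) : ℝ) := by
    interval_cases j <;> norm_num
  have hpos : (0 : ℝ) < ((j + 2 : ℕ) : ℝ) := by positivity
  have h3 : ((j + 2 : ℕ) : ℝ) * eR ≤ ((j + 2 : ℕ) : ℝ) * eS :=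
    main.trans (mul_le_mul_of_nonneg_right h2j heS0)
  exact le_of_mul_le_mul_left h3 hpos

end Flat

end Vale.Agent.H54
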