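import Mathlib
import Vale.Agent.H54.LechSmall

/-!
# Chains of principal steps with arbitrary exponents, starting from a socle ideal
(support file for P202)

`lech_socle_chain_bound`: let `(R, m) → (S, n)` be a flat local homomorphism of Noetherian local
rings with closed fibre of length `lam`.  Let `J` be either `m S`, or (when the maximal ideal of
the closed fibre is not principal) any ideal with `J n ≤ m S`.  If
`n = J + (a 0, …, a (t - 1))` and `a j ^ k j ∈ J + (a i : i < j)` with all `k j ≥ 1`, then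
`lam * e(R) ≤ (∏ j, k j) * e(S)`.
-/

namespace Vale.Agent.H54

open IsLocalRing Filter Topology

section Chain

variable {S : Type*} [CommRing S]

/-- **Chain bound with exponents.**  Along a chain of principal steps from `I` to
`I ⊔ (a 0, …, a (t - 1))`, where `a j ^ k j` lies in the ideal generated by `I` and the previous
elements, one has `ℓ(S / I ^ N) ≤ C + (∏ j, k j) * ℓ(S / (I ⊔ (a)) ^ (N + c))` for suitable
constants `C` and `c`. -/
theorem length_quotient_pow_le_prod_mul (I : Ideal S) (t : ℕ) (a : Fin t → S) (k : Fin t → ℕ)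
    (hk1 : ∀ j : Fin t, 1 ≤ k j)
    (hk : ∀ j : Fin t, a j ^ k j ∈ I ⊔ Ideal.span (a '' {i | i < j}))
    (hfin : ∀ N : ℕ, Module.length S (S ⧸ I ^ N) ≠ ⊤) :
    ∃ C c : ℕ, ∀ N : ℕ, Module.length S (S ⧸ I ^ N) ≤
      (C : ℕ∞) + ((∏ j, k j : ℕ) : ℕ∞) *
        Module.length S (S ⧸ (I ⊔ Ideal.span (Set.range a)) ^ (N + c)) := by
  induction t with
  | zero =>
    refine ⟨0, 0, fun N => ?_⟩
    have : Set.range a = ∅ := Set.range_eq_empty a
    rw [this, Ideal.span_empty, sup_bot_eq]
    simp
  | succ t ih =>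
    obtain ⟨C, c, hC⟩ := ih (fun i : Fin t => a (Fin.castSucc i))
      (fun i : Fin t => k (Fin.castSucc i)) (fun j => hk1 (Fin.castSucc j)) (fun j => by
        have := hk (Fin.castSucc j)
        rwa [chain_image_castSucc] at this)
    set I' : Ideal S := I ⊔ Ideal.span (Set.range (fun i : Fin t => a (Fin.castSucc i))) with hI'
    have hlast : a (Fin.last t) ^ k (Fin.last t) ∈ I' := by
      have := hk (Fin.last t)
      rwa [chain_image_last] at this
    have hfin' : ∀ M : ℕ, Module.length S (S ⧸ I' ^ M) ≠ ⊤ := by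
      intro M
      have hle : I ^ M ≤ I' ^ M := Ideal.pow_right_mono le_sup_left M
      exact ne_top_of_le_ne_top (hfin M)
        (Module.length_le_of_surjective (Submodule.factor hle) (Submodule.factor_surjective _))
    obtain ⟨k', hk'⟩ : ∃ k', k (Fin.last t) = k' + 1 :=
      ⟨k (Fin.last t) - 1, by have := hk1 (Fin.last t); omega⟩
    rw [hk'] at hlast
    have hstep := length_quotient_pow_le_succ_mul
      (I ⊔ Ideal.span (Set.range a)) (chain_range_succ a I) k' hlast hfin'
    obtain ⟨C', hC'⟩ := ENat.ne_top_iff_exists.mp (hfin' k')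
    refine ⟨C + (∏ j : Fin t, k (Fin.castSucc j)) * C', c + 2 * k', fun N => ?_⟩
    have hmono : Module.length S (S ⧸ I' ^ (N + c)) ≤ Module.length S (S ⧸ I' ^ (N + c + k')) :=
      Module.length_le_of_surjective
        (Submodule.factor (Ideal.pow_le_pow_right (Nat.le_add_right _ k')))
        (Submodule.factor_surjective _)
    have h2 := hstep (N + c)
    rw [← hC'] at h2
    have e1 : N + (c + 2 * k') = N + c + 2 * k' := by ring
    rw [Fin.prod_univ_castSucc, hk', e1]
    calc Module.length S (S ⧸ I ^ N)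
        ≤ (C : ℕ∞) + ((∏ j : Fin t, k (Fin.castSucc j) : ℕ) : ℕ∞) *
          Module.length S (S ⧸ I' ^ (N + c)) := hC N
      _ ≤ (C : ℕ∞) + ((∏ j : Fin t, k (Fin.castSucc j) : ℕ) : ℕ∞) *
          ((C' : ℕ∞) + ((k' : ℕ∞) + 1) *
            Module.length S (S ⧸ (I ⊔ Ideal.span (Set.range a)) ^ (N + c + 2 * k'))) := by
          gcongr
          exact hmono.trans h2
      _ = ((C + (∏ j : Fin t, k (Fin.castSucc j)) * C' : ℕ) : ℕ∞) +
          (((∏ j : Fin t, k (Fin.castSucc j)) * (k' + 1) : ℕ) : ℕ∞) *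
            Module.length S (S ⧸ (I ⊔ Ideal.span (Set.range a)) ^ (N + c + 2 * k')) := by
          push_cast
          ring

end Chain

section Flat

variable {R S : Type*} [CommRing R] [CommRing S]
  [IsLocalRing R] [IsLocalRing S] [IsNoetherianRing R] [IsNoetherianRing S]
  [Algebra R S] [IsLocalHom (algebraMap R S)] [Module.Flat R S]

/-- **Dimension-free Lech-type bound along a chain starting from a socle ideal.** -/
theorem lech_socle_chain_bound
    (J : Ideal S)
    (hJ : J = (maximalIdeal R).map (algebraMap R S) ∨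
      ((∀ a : S, maximalIdeal S ≠ Ideal.span {a} ⊔ (maximalIdeal R).map (algebraMap R S)) ∧
        (maximalIdeal R).map (algebraMap R S) ≤ J ∧
        J * maximalIdeal S ≤ (maximalIdeal R).map (algebraMap R S)))
    (t : ℕ) (a : Fin t → S) (k : Fin t → ℕ) (hk1 : ∀ j : Fin t, 1 ≤ k j)
    (hk : ∀ j : Fin t, a j ^ k j ∈ J ⊔ Ideal.span (a '' {i | i < j}))
    (hn : maximalIdeal S = J ⊔ Ideal.span (Set.range a))
    (lam : ℕ) (hlam : Module.length S (S ⧸ (maximalIdeal R).map (algebraMap R S)) = lam)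
    (eR eS : ℝ)
    (heR : IsHilbertSamuelMultiplicity R eR) (heS : IsHilbertSamuelMultiplicity S eS) :
    (lam : ℝ) * eR ≤ ((∏ j, k j : ℕ) : ℝ) * eS ∧ eS ≤ (lam : ℝ) * eR ∧
      (((∏ j, k j : ℕ) : ℝ) ≤ (lam : ℝ) → eR ≤ eS) := by
  have hpow : maximalIdeal S ^ lam ≤ (maximalIdeal R).map (algebraMap R S) :=
    maximalIdeal_pow_le_of_length_le _ lam (le_of_eq hlam)
  have hJn : J ≤ maximalIdeal S := by rw [hn]; exact le_sup_left
  have hmJ : (maximalIdeal R).map (algebraMap R S) ≤ J := by
    rcases hJ with rfl | ⟨-, h, -⟩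
    · exact le_rfl
    · exact h
  have hlam1 : 1 ≤ lam := by
    have h1 := one_le_length_fibre (R := R) (S := S)
    rw [hlam] at h1
    exact_mod_cast h1
  have hprod1 : 1 ≤ ∏ j, k j := Nat.one_le_iff_ne_zero.mpr
    (Finset.prod_ne_zero_iff.mpr fun j _ => by have := hk1 j; omega)
  -- a power of `J` is contained in `m ^ N S`, with a uniform shift
  have hred : ∀ N : ℕ, J ^ (N + 1) ≤ (maximalIdeal R ^ N).map (algebraMap R S) := by
    rcases hJ with rfl | ⟨hnp, -, hJm⟩
    · intro N
      rw [Ideal.map_pow]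
      exact Ideal.pow_le_pow_right (Nat.le_succ N)
    · exact socle_pow_succ_le_map_pow (R := R) J hJn (socle_mul_le_map_mul hnp J hJm)
  have hfinJ : ∀ N : ℕ, Module.length S (S ⧸ J ^ N) ≠ ⊤ := by
    intro N
    have hle : (maximalIdeal R).map (algebraMap R S) ^ N ≤ J ^ N := Ideal.pow_right_mono hmJ N
    exact ne_top_of_le_ne_top (length_quotient_map_pow_ne_top (R := R) (S := S) lam hpow N)
      (Module.length_le_of_surjective (Submodule.factor hle) (Submodule.factor_surjective _))
  obtain ⟨C, c, hC⟩ := length_quotient_pow_le_prod_mul J t a k hk1 hk hfinJ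
  have hsmall := lech_inequality_of_pow_le (R := R) (S := S)
  obtain ⟨dR, hdR, hRt⟩ := heR
  obtain ⟨dS, hdS, hSt⟩ := heS
  have hdim : ringKrullDim S = ringKrullDim R := ringKrullDim_eq_of_pow_le lam hpow
  have edS : dS = dR := by
    have : (dS : WithBot ℕ∞) = (dR : WithBot ℕ∞) := by rw [← hdS, ← hdR, hdim]
    exact_mod_cast this
  rw [edS] at hSt
  have heR0 : 0 ≤ eR := ge_of_tendsto' hRt (fun N => by positivity)
  have heS0 : 0 ≤ eS := ge_of_tendsto' hSt (fun N => by positivity)
  have hP1 : (1 : ℝ) ≤ ((∏ j, k j : ℕ) : ℝ) := by exact_mod_cast hprod1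
  have main : (lam : ℝ) * eR ≤ ((∏ j, k j : ℕ) : ℝ) * eS := by
    rcases Nat.eq_zero_or_pos dR with hd0 | hdpos
    · have h1 := (hsmall dR hdR eR eS ⟨dR, hdR, hRt⟩ ⟨dR, by rw [hdim, hdR], hSt⟩ 1 lam lam
        one_pos (by rwa [pow_one]) hlam).1
      rw [hd0] at h1
      simp only [pow_zero, mul_one, one_mul] at h1
      calc (lam : ℝ) * eR ≤ eS := h1
        _ = 1 * eS := (one_mul _).symm
        _ ≤ ((∏ j, k j : ℕ) : ℝ) * eS := mul_le_mul_of_nonneg_right hP1 heS0
    · have hkey : ∀ N : ℕ, lam * (Module.length R (R ⧸ maximalIdeal R ^ N)).toNat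
          ≤ C + (∏ j, k j) * (Module.length S (S ⧸ maximalIdeal S ^ (N + (1 + c)))).toNat := by
        intro N
        have h1 : Module.length S (S ⧸ (maximalIdeal R ^ N).map (algebraMap R S)) ≤
            Module.length S (S ⧸ J ^ (N + 1)) :=
          Module.length_le_of_surjective (Submodule.factor (hred N))
            (Submodule.factor_surjective _)
        have h3 := h1.trans (hC (N + 1))
        rw [length_quotient_map_eq, hlam, ← hn, add_assoc] at h3
        exact enat_toNat_le_aux (length_quotient_maximalIdeal_pow_ne_top R N)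
          (ENat.natCast_ne_top C) (length_quotient_maximalIdeal_pow_ne_top S _) lam _ h3
      exact leading_coeff_le_add_shift _ _ dR lam (∏ j, k j) C (1 + c) (Or.inr hdpos)
        eR eS hRt hSt hkey
  refine ⟨main, ?_, fun hPl => ?_⟩
  · refine leading_coeff_ge _ _ dR lam eR eS hRt hSt fun N => ?_
    have h1 := length_le_length_mul (R := R) (S := S) N
    rw [hlam] at h1
    have hfin3 : Module.length R (R ⧸ maximalIdeal R ^ N) * (lam : ℕ∞) ≠ ⊤ :=
      WithTop.mul_ne_top (length_quotient_maximalIdeal_pow_ne_top R N) (ENat.natCast_ne_top lam)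
    have h2 := ENat.toNat_le_toNat h1 hfin3
    rw [ENat.toNat_mul, ENat.toNat_natCast, mul_comm] at h2
    exact h2
  · have hlam0 : (0 : ℝ) < (lam : ℝ) := by exact_mod_cast hlam1
    have h3 : (lam : ℝ) * eR ≤ (lam : ℝ) * eS :=
      main.trans (mul_le_mul_of_nonneg_right hPl heS0)
    exact le_of_mul_le_mul_left h3 hlam0

end Flat

end Vale.Agent.H54
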