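import Mathlib
import Vale.Agent.H54.LechSocleChain

/-!
# Lech's inequality for closed fibres that are small modulo their socle (support file for P202)

`lech_of_socle_quotient`: let `(R, m) → (S, n)` be a flat local homomorphism of Noetherian local
rings with closed fibre of finite length, and let `J = (m S : n)` be the preimage in `S` of the
socle of the closed fibre.  If `ℓ(S / J) ≤ 3`, or `n = (a) + J` for some `a`, then `e(R) ≤ e(S)`.
-/

namespace Vale.Agent.H54

open IsLocalRing Filter Topology

section Flat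

variable {R S : Type*} [CommRing R] [CommRing S]
  [IsLocalRing R] [IsLocalRing S] [IsNoetherianRing R] [IsNoetherianRing S]
  [Algebra R S] [IsLocalHom (algebraMap R S)] [Module.Flat R S]

/-- **Lech's inequality for closed fibres that are small modulo their socle.** -/
theorem lech_of_socle_quotient
    (lam : ℕ) (hlam : Module.length S (S ⧸ (maximalIdeal R).map (algebraMap R S)) = lam)
    (J : Ideal S)
    (hJdef : ∀ x : S, x ∈ J ↔
      ∀ y ∈ maximalIdeal S, x * y ∈ (maximalIdeal R).map (algebraMap R S))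
    (h : Module.length S (S ⧸ J) ≤ 3 ∨ ∃ a : S, maximalIdeal S = Ideal.span {a} ⊔ J)
    (eR eS : ℝ)
    (heR : IsHilbertSamuelMultiplicity R eR) (heS : IsHilbertSamuelMultiplicity S eS) :
    eR ≤ eS := by
  by_cases hp : ∃ a : S, maximalIdeal S = Ideal.span {a} ⊔ (maximalIdeal R).map (algebraMap R S)
  · obtain ⟨a, ha⟩ := hp
    exact lech_of_principal_fibre a ha lam hlam eR eS heR heS
  have hnp : ∀ a : S, maximalIdeal S ≠
      Ideal.span {a} ⊔ (maximalIdeal R).map (algebraMap R S) := fun a ha => hp ⟨a, ha⟩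
  have hmSn : (maximalIdeal R).map (algebraMap R S) ≤ maximalIdeal S :=
    map_maximalIdeal_le (algebraMap R S)
  have hmStop : (maximalIdeal R).map (algebraMap R S) ≠ ⊤ :=
    (map_maximalIdeal_lt_top (algebraMap R S)).ne
  have hfinl : Module.length S (S ⧸ (maximalIdeal R).map (algebraMap R S)) ≠ ⊤ := by
    rw [hlam]; exact ENat.natCast_ne_top lam
  have hmJ : (maximalIdeal R).map (algebraMap R S) ≤ J := fun z hz =>
    (hJdef z).mpr fun y _ => Ideal.mul_mem_right _ _ hz
  have hJ : J * maximalIdeal S ≤ (maximalIdeal R).map (algebraMap R S) := by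
    rw [Ideal.mul_le]
    intro x hx y hy
    exact (hJdef x).mp hx y hy
  have hlam1 : 1 ≤ lam := by
    have h1 := one_le_length_fibre (R := R) (S := S)
    rw [hlam] at h1
    exact_mod_cast h1
  rcases h with h3 | ⟨a, ha⟩
  · have hJtop : J ≠ ⊤ := by
      intro htop
      have h1 : (1 : S) ∈ J := by rw [htop]; exact Submodule.mem_top
      apply hnp 0
      refine le_antisymm (fun y hy => ?_) (sup_le (by simp) hmSn)
      have := (hJdef 1).mp h1 y hy
      rw [one_mul] at this
      exact Ideal.mem_sup_right this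
    have hlt : (maximalIdeal R).map (algebraMap R S) < J := by
      obtain ⟨x, hxI, hxn⟩ := exists_socle_not_mem _ hmStop hfinl
      refine lt_of_le_of_ne hmJ ?_
      intro heq
      apply hxI
      rw [heq]
      exact (hJdef x).mpr hxn
    have hJlen := length_succ_le_of_lt _ J hlt
    rw [hlam] at hJlen
    have hJpos : 1 ≤ Module.length S (S ⧸ J) := by
      have : Nontrivial (S ⧸ J) := Ideal.Quotient.nontrivial_iff.mpr hJtop
      exact Order.one_le_iff_pos.mpr Module.length_pos
    have hfinJ : Module.length S (S ⧸ J) ≠ ⊤ :=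
      ne_top_of_le_ne_top (ENat.natCast_ne_top 3) h3
    obtain ⟨l, hl⟩ := ENat.ne_top_iff_exists.mp hfinJ
    rw [← hl] at hJlen hJpos h3
    have hl1 : 1 ≤ l := by exact_mod_cast hJpos
    have hl3 : l ≤ 3 := by exact_mod_cast h3
    have hllam : l + 1 ≤ lam := by exact_mod_cast hJlen
    obtain ⟨j, rfl⟩ : ∃ j, l = j + 1 := ⟨l - 1, by omega⟩
    have hj : Module.length S (S ⧸ J) ≤ ((j + 1 : ℕ) : ℕ∞) := le_of_eq hl.symm
    have main := lech_socle_bound hnp J hJtop hJ j hj lam hlam eR eS heR heS
    obtain ⟨dS, hdS, hSt⟩ := heS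
    have heS0 : 0 ≤ eS := ge_of_tendsto' hSt (fun N => by positivity)
    have h2j : (2 : ℝ) ^ j ≤ (lam : ℝ) := by
      have hj2 : j ≤ 2 := by omega
      have h2j' : 2 ^ j ≤ j + 2 := by interval_cases j <;> norm_num
      have : 2 ^ j ≤ lam := by omega
      exact_mod_cast this
    have hpos : (0 : ℝ) < (lam : ℝ) := by exact_mod_cast hlam1
    have h4 : (lam : ℝ) * eR ≤ (lam : ℝ) * eS :=
      main.trans (mul_le_mul_of_nonneg_right h2j heS0)
    exact le_of_mul_le_mul_left h4 hpos
  · have han : a ∈ maximalIdeal S := by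
      rw [ha]; exact Ideal.mem_sup_left (Ideal.mem_span_singleton_self a)
    have hak : a ^ lam ∈ (maximalIdeal R).map (algebraMap R S) :=
      pow_mem_of_length_le _ a han lam (le_of_eq hlam)
    have hrange : Set.range (fun _ : Fin 1 => a) = {a} := Set.range_const
    have key := lech_socle_chain_bound J (Or.inr ⟨hnp, hmJ, hJ⟩) 1 (fun _ => a) (fun _ => lam)
      (fun _ => hlam1) (fun _ => Ideal.mem_sup_left (hmJ hak))
      (by rw [hrange, sup_comm]; exact ha) lam hlam eR eS heR heS
    refine key.2.2 ?_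
    simp

end Flat

end Vale.Agent.H54
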