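import Mathlib
import Vale.Agent.H54.LechSocleChain

/-!
# Reductions of the maximal ideal and Lech's inequality (support file for P202)

* `lech_reduction_chain_bound`: the chain bound of `lech_socle_chain_bound`, where the chain only
  has to end at an ideal `I'` with `n ^ 2 ≤ I' * n` (a reduction of `n` with reduction number
  at most one) instead of at `n` itself.
* `lech_of_principal_reduction`: if `n ^ 2 ≤ (a S + m S) * n` for some `a ∈ n`, then
  `e(R) ≤ e(S)`.
* `lech_of_sq_cyclic`: if `n ^ 3 ≤ m S` and `n ^ 2 ≤ (e f) S + m S` for some `e, f ∈ n`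
  (the square of the maximal ideal of the closed fibre is cyclic and its cube is zero), then
  `e(R) ≤ e(S)`.
-/

namespace Vale.Agent.H54

open IsLocalRing Filter Topology

/-- If `n ^ 2 ≤ I * n` then `n ^ (M + 1) ≤ I ^ M`. -/
theorem pow_succ_le_pow_of_sq_le_mul {S : Type*} [CommRing S] (I n : Ideal S)
    (hred : n ^ 2 ≤ I * n) (M : ℕ) : n ^ (M + 1) ≤ I ^ M := by
  induction M with
  | zero => simp
  | succ M ih =>
    calc n ^ (M + 1 + 1) = n ^ M * n ^ 2 := by ring
      _ ≤ n ^ M * (I * n) := Ideal.mul_mono_right hred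
      _ = I * n ^ (M + 1) := by ring
      _ ≤ I * I ^ M := Ideal.mul_mono_right ih
      _ = I ^ (M + 1) := by ring

/-- Adding to `I` one element `x` with `x n ≤ I` lowers the colength by at most one. -/
theorem length_quotient_le_succ_of_mul_mem {S : Type*} [CommRing S] [IsLocalRing S]
    (I : Ideal S) (x : S) (hx : ∀ y ∈ maximalIdeal S, x * y ∈ I) :
    Module.length S (S ⧸ I) ≤ Module.length S (S ⧸ (Ideal.span {x} ⊔ I)) + 1 := by
  have h := length_add_le_length_add_of_mul I (Ideal.span {x} ⊔ I) (maximalIdeal S) ⊤ x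
    le_sup_right le_top
    (by
      rw [Ideal.span_singleton_mul_le_iff]
      exact hx)
    (by
      rw [Ideal.mul_top, sup_comm])
  have h1 : Module.length S (S ⧸ maximalIdeal S) = 1 := by
    rw [Module.length_eq_one_iff, isSimpleModule_iff_isCoatom]
    exact Ideal.isMaximal_def.mp (maximalIdeal.isMaximal S)
  have h2 : Module.length S (S ⧸ (⊤ : Ideal S)) = 0 := by
    rw [Module.length_eq_zero_iff]
    exact Ideal.Quotient.subsingleton_iff.mpr rfl
  rw [h1, h2, add_zero, add_comm] at h
  exact h

section Flat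

variable {R S : Type*} [CommRing R] [CommRing S]
  [IsLocalRing R] [IsLocalRing S] [IsNoetherianRing R] [IsNoetherianRing S]
  [Algebra R S] [IsLocalHom (algebraMap R S)] [Module.Flat R S]

/-- **Dimension-free Lech-type bound along a chain ending at a reduction of `n`.** -/
theorem lech_reduction_chain_bound
    (J : Ideal S)
    (hJ : J = (maximalIdeal R).map (algebraMap R S) ∨
      ((∀ a : S, maximalIdeal S ≠ Ideal.span {a} ⊔ (maximalIdeal R).map (algebraMap R S)) ∧
        (maximalIdeal R).map (algebraMap R S) ≤ J ∧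
        J * maximalIdeal S ≤ (maximalIdeal R).map (algebraMap R S)))
    (t : ℕ) (a : Fin t → S) (k : Fin t → ℕ) (hk1 : ∀ j : Fin t, 1 ≤ k j)
    (hk : ∀ j : Fin t, a j ^ k j ∈ J ⊔ Ideal.span (a '' {i | i < j}))
    (hred : maximalIdeal S ^ 2 ≤ (J ⊔ Ideal.span (Set.range a)) * maximalIdeal S)
    (lam : ℕ) (hlam : Module.length S (S ⧸ (maximalIdeal R).map (algebraMap R S)) = lam)
    (eR eS : ℝ)
    (heR : IsHilbertSamuelMultiplicity R eR) (heS : IsHilbertSamuelMultiplicity S eS) :
    (lam : ℝ) * eR ≤ ((∏ j, k j : ℕ) : ℝ) * eS ∧ eS ≤ (lam : ℝ) * eR ∧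
      (((∏ j, k j : ℕ) : ℝ) ≤ (lam : ℝ) → eR ≤ eS) := by
  have hpow : maximalIdeal S ^ lam ≤ (maximalIdeal R).map (algebraMap R S) :=
    maximalIdeal_pow_le_of_length_le _ lam (le_of_eq hlam)
  have hmSn : (maximalIdeal R).map (algebraMap R S) ≤ maximalIdeal S :=
    map_maximalIdeal_le (algebraMap R S)
  have hJn : J ≤ maximalIdeal S := by
    rcases hJ with rfl | ⟨hnp, -, hJm⟩
    · exact hmSn
    · refine IsLocalRing.le_maximalIdeal fun htop => hnp 0 ?_
      refine le_antisymm (fun y hy => ?_) (sup_le (by simp) hmSn)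
      refine Ideal.mem_sup_right (hJm ?_)
      have h1 : (1 : S) ∈ J := by rw [htop]; exact Submodule.mem_top
      have := Ideal.mul_mem_mul h1 hy
      rwa [one_mul] at this
  have hmJ : (maximalIdeal R).map (algebraMap R S) ≤ J := by
    rcases hJ with rfl | ⟨-, h, -⟩
    · exact le_rfl
    · exact h
  have hlam1 : 1 ≤ lam := by
    have h1 := one_le_length_fibre (R := R) (S := S)
    rw [hlam] at h1
    exact_mod_cast h1
  have hprod1 : 1 ≤ ∏ j, k j := Nat.one_le_iff_ne_zero.mpr
    (Finset.prod_ne_zero_iff.mpr fun j _ => by have := hk1 j; omega)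
  -- a power of `J` is contained in `m ^ N S`, with a uniform shift
  have hredJ : ∀ N : ℕ, J ^ (N + 1) ≤ (maximalIdeal R ^ N).map (algebraMap R S) := by
    rcases hJ with rfl | ⟨hnp, -, hJm⟩
    · intro N
      rw [Ideal.map_pow]
      exact Ideal.pow_le_pow_right (Nat.le_succ N)
    · exact socle_pow_succ_le_map_pow (R := R) J hJn (socle_mul_le_map_mul hnp J hJm)
  have hfinJ : ∀ N : ℕ, Module.length S (S ⧸ J ^ N) ≠ ⊤ := by
    intro N
    have hle : (maximalIdeal R).map (algebraMap R S) ^ N ≤ J ^ N := Ideal.pow_right_mono hmJ N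
    exact ne_top_of_le_ne_top (length_quotient_map_pow_ne_top (R := R) (S := S) lam hpow N)
      (Module.length_le_of_surjective (Submodule.factor hle) (Submodule.factor_surjective _))
  obtain ⟨C, c, hC⟩ := length_quotient_pow_le_prod_mul J t a k hk1 hk hfinJ
  have hsmall := lech_inequality_of_pow_le (R := R) (S := S)
  obtain ⟨dR, hdR, hRt⟩ := heR
  obtain ⟨dS, hdS, hSt⟩ := heS
  have hdim : ringKrullDim S = ringKrullDim R := ringKrullDim_eq_of_pow_le lam hpow
  have edS : dS = dR := by
    have : (dS : WithBot ℕ∞) = (dR : WithBot ℕ∞) := by rw [← hdS, ← hdR, hdim]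
    exact_mod_cast this
  rw [edS] at hSt
  have heR0 : 0 ≤ eR := ge_of_tendsto' hRt (fun N => by positivity)
  have heS0 : 0 ≤ eS := ge_of_tendsto' hSt (fun N => by positivity)
  have hP1 : (1 : ℝ) ≤ ((∏ j, k j : ℕ) : ℝ) := by exact_mod_cast hprod1
  have main : (lam : ℝ) * eR ≤ ((∏ j, k j : ℕ) : ℝ) * eS := by
    rcases Nat.eq_zero_or_pos dR with hd0 | hdpos
    · have h1 := (hsmall dR hdR eR eS ⟨dR, hdR, hRt⟩ ⟨dR, by rw [hdim, hdR], hSt⟩ 1 lam lam
        one_pos (by rwa [pow_one]) hlam).1
      rw [hd0] at h1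
      simp only [pow_zero, mul_one, one_mul] at h1
      calc (lam : ℝ) * eR ≤ eS := h1
        _ = 1 * eS := (one_mul _).symm
        _ ≤ ((∏ j, k j : ℕ) : ℝ) * eS := mul_le_mul_of_nonneg_right hP1 heS0
    · have hkey : ∀ N : ℕ, lam * (Module.length R (R ⧸ maximalIdeal R ^ N)).toNat
          ≤ C + (∏ j, k j) *
            (Module.length S (S ⧸ maximalIdeal S ^ (N + (1 + c + 1)))).toNat := by
        intro N
        have h1 : Module.length S (S ⧸ (maximalIdeal R ^ N).map (algebraMap R S)) ≤
            Module.length S (S ⧸ J ^ (N + 1)) :=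
          Module.length_le_of_surjective (Submodule.factor (hredJ N))
            (Submodule.factor_surjective _)
        have h2 : Module.length S (S ⧸ (J ⊔ Ideal.span (Set.range a)) ^ (N + 1 + c)) ≤
            Module.length S (S ⧸ maximalIdeal S ^ (N + 1 + c + 1)) :=
          Module.length_le_of_surjective
            (Submodule.factor (pow_succ_le_pow_of_sq_le_mul _ _ hred (N + 1 + c)))
            (Submodule.factor_surjective _)
        have h3 : Module.length S (S ⧸ (maximalIdeal R ^ N).map (algebraMap R S)) ≤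
            (C : ℕ∞) + ((∏ j, k j : ℕ) : ℕ∞) *
              Module.length S (S ⧸ maximalIdeal S ^ (N + 1 + c + 1)) := by
          refine (h1.trans (hC (N + 1))).trans ?_
          gcongr
        rw [length_quotient_map_eq, hlam] at h3
        have e1 : N + (1 + c + 1) = N + 1 + c + 1 := by ring
        rw [e1]
        exact enat_toNat_le_aux (length_quotient_maximalIdeal_pow_ne_top R N)
          (ENat.natCast_ne_top C) (length_quotient_maximalIdeal_pow_ne_top S _) lam _ h3
      exact leading_coeff_le_add_shift _ _ dR lam (∏ j, k j) C (1 + c + 1) (Or.inr hdpos)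
        eR eS hRt hSt hkey
  refine ⟨main, ?_, fun hPl => ?_⟩
  · refine leading_coeff_ge _ _ dR lam eR eS hRt hSt fun N => ?_
    have h1 := length_le_length_mul (R := R) (S := S) N
    rw [hlam] at h1
    have hfin3 : Module.length R (R ⧸ maximalIdeal R ^ N) * (lam : ℕ∞) ≠ ⊤ :=
      WithTop.mul_ne_top (length_quotient_maximalIdeal_pow_ne_top R N) (ENat.natCast_ne_top lam)
    have h2 := ENat.toNat_le_toNat h1 hfin3
    rw [ENat.toNat_mul, ENat.toNat_natCast, mul_comm] at h2
    exact h2
  · have hlam0 : (0 : ℝ) < (lam : ℝ) := by exact_mod_cast hlam1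
    have h3 : (lam : ℝ) * eR ≤ (lam : ℝ) * eS :=
      main.trans (mul_le_mul_of_nonneg_right hPl heS0)
    exact le_of_mul_le_mul_left h3 hlam0

/-- **Principal reductions.**  If `n ^ 2 ≤ (a S + m S) * n` and `a ^ k ∈ m S` with `k ≥ 1`, then
`ℓ(S / m S) * e(R) ≤ k * e(S)`. -/
theorem lech_principal_reduction_bound (a : S)
    (hred : maximalIdeal S ^ 2 ≤
      (Ideal.span {a} ⊔ (maximalIdeal R).map (algebraMap R S)) * maximalIdeal S)
    (k : ℕ) (hk1 : 1 ≤ k) (hk : a ^ k ∈ (maximalIdeal R).map (algebraMap R S))
    (lam : ℕ) (hlam : Module.length S (S ⧸ (maximalIdeal R).map (algebraMap R S)) = lam)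
    (eR eS : ℝ)
    (heR : IsHilbertSamuelMultiplicity R eR) (heS : IsHilbertSamuelMultiplicity S eS) :
    (lam : ℝ) * eR ≤ (k : ℝ) * eS ∧ ((k : ℝ) ≤ (lam : ℝ) → eR ≤ eS) := by
  have h := lech_reduction_chain_bound (R := R) (S := S) _ (Or.inl rfl) 1 (fun _ => a)
    (fun _ => k) (fun _ => hk1) (fun _ => Ideal.mem_sup_left hk)
    (by
      rw [Set.range_const, sup_comm]
      exact hred) lam hlam eR eS heR heS
  simp only [Finset.univ_unique, Finset.prod_const, Finset.card_singleton, pow_one] at h
  exact ⟨h.1, h.2.2⟩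

/-- **Lech's inequality when `n` has a principal reduction modulo `m S`.**  If
`n ^ 2 ≤ (a S + m S) * n` for some `a ∈ n`, then `e(R) ≤ e(S)`. -/
theorem lech_of_principal_reduction (a : S) (ha : a ∈ maximalIdeal S)
    (hred : maximalIdeal S ^ 2 ≤
      (Ideal.span {a} ⊔ (maximalIdeal R).map (algebraMap R S)) * maximalIdeal S)
    (lam : ℕ) (hlam : Module.length S (S ⧸ (maximalIdeal R).map (algebraMap R S)) = lam)
    (eR eS : ℝ)
    (heR : IsHilbertSamuelMultiplicity R eR) (heS : IsHilbertSamuelMultiplicity S eS) :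
    eR ≤ eS := by
  have hlam1 : 1 ≤ lam := by
    have h1 := one_le_length_fibre (R := R) (S := S)
    rw [hlam] at h1
    exact_mod_cast h1
  have hak : a ^ lam ∈ (maximalIdeal R).map (algebraMap R S) :=
    pow_mem_of_length_le _ a ha lam (le_of_eq hlam)
  exact (lech_principal_reduction_bound a hred lam hlam1 hak lam hlam eR eS heR heS).2 le_rfl

/-- **Lech's inequality when the square of the maximal ideal of the closed fibre is cyclic and
its cube is zero.**  If `n ^ 3 ≤ m S` and `n ^ 2 ≤ (e f) S + m S` with `e, f ∈ n`, then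
`e(R) ≤ e(S)`. -/
theorem lech_of_sq_cyclic (e f : S) (he : e ∈ maximalIdeal S) (hf : f ∈ maximalIdeal S)
    (hsq : maximalIdeal S ^ 2 ≤ Ideal.span {e * f} ⊔ (maximalIdeal R).map (algebraMap R S))
    (hcube : maximalIdeal S ^ 3 ≤ (maximalIdeal R).map (algebraMap R S))
    (eR eS : ℝ)
    (heR : IsHilbertSamuelMultiplicity R eR) (heS : IsHilbertSamuelMultiplicity S eS) :
    eR ≤ eS := by
  set mS := (maximalIdeal R).map (algebraMap R S) with hmS
  have hmSn : mS ≤ maximalIdeal S := map_maximalIdeal_le (algebraMap R S)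
  -- coefficient extraction
  have hcoef : ∀ x y : S, x ∈ maximalIdeal S → y ∈ maximalIdeal S →
      ∃ u : S, x * y - u * (e * f) ∈ mS := by
    intro x y hx hy
    have h1 : x * y ∈ maximalIdeal S ^ 2 := by rw [pow_two]; exact Ideal.mul_mem_mul hx hy
    obtain ⟨p, hp, q, hq, hpq⟩ := Submodule.mem_sup.mp (hsq h1)
    obtain ⟨u, rfl⟩ := Ideal.mem_span_singleton'.mp hp
    refine ⟨u, ?_⟩
    have h2 : x * y - u * (e * f) = q := by rw [← hpq]; ring
    rw [h2]
    exact hq
  -- triple products
  have htriple : ∀ x y z : S, x ∈ maximalIdeal S → y ∈ maximalIdeal S → z ∈ maximalIdeal S →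
      x * y * z ∈ mS := by
    intro x y z hx hy hz
    apply hcube
    rw [pow_succ, pow_two]
    exact Ideal.mul_mem_mul (Ideal.mul_mem_mul hx hy) hz
  have hsqmem : ∀ x y : S, x ∈ maximalIdeal S → y ∈ maximalIdeal S →
      x * y ∈ Ideal.span {e * f} ⊔ mS := by
    intro x y hx hy
    apply hsq
    rw [pow_two]
    exact Ideal.mul_mem_mul hx hy
  have hfinl : Module.length S (S ⧸ mS) ≠ ⊤ := by
    have h1 := length_quotient_map_pow_ne_top (R := R) (S := S) 3 hcube 1
    rwa [pow_one] at h1
  obtain ⟨lam, hlam⟩ := ENat.ne_top_iff_exists.mp hfinl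
  by_cases h2 : ∃ a a' : S, maximalIdeal S = Ideal.span {a, a'} ⊔ mS
  · -- the maximal ideal of the fibre has two generators: the fibre has length at most four
    obtain ⟨a, a', hn⟩ := h2
    have ha : a ∈ maximalIdeal S := by
      rw [hn]; exact Ideal.mem_sup_left (Ideal.subset_span (by simp))
    have ha' : a' ∈ maximalIdeal S := by
      rw [hn]; exact Ideal.mem_sup_left (Ideal.subset_span (by simp))
    have hn' : maximalIdeal S =
        Ideal.span {a} ⊔ (Ideal.span {a'} ⊔ (Ideal.span {e * f} ⊔ mS)) := by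
      apply le_antisymm
      · rw [hn]
        refine sup_le ?_ (le_sup_right.trans (le_sup_right.trans le_sup_right))
        rw [Ideal.span_le]
        intro z hz
        rcases hz with rfl | rfl
        · exact Ideal.mem_sup_left (Ideal.mem_span_singleton_self _)
        · exact Ideal.mem_sup_right (Ideal.mem_sup_left (Ideal.mem_span_singleton_self _))
      · refine sup_le ((Ideal.span_singleton_le_iff_mem _).mpr ha)
          (sup_le ((Ideal.span_singleton_le_iff_mem _).mpr ha')
            (sup_le ((Ideal.span_singleton_le_iff_mem _).mpr (Ideal.mul_mem_left _ _ hf)) hmSn))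
    have s1 := length_quotient_le_succ_of_mul_mem mS (e * f) (fun y hy => htriple e f y he hf hy)
    have s2 := length_quotient_le_succ_of_mul_mem (Ideal.span {e * f} ⊔ mS) a'
      (fun y hy => hsqmem a' y ha' hy)
    have s3 := length_quotient_le_succ_of_mul_mem
      (Ideal.span {a'} ⊔ (Ideal.span {e * f} ⊔ mS)) a
      (fun y hy => Ideal.mem_sup_right (hsqmem a y ha hy))
    rw [← hn'] at s3
    have h1 : Module.length S (S ⧸ maximalIdeal S) = 1 := by
      rw [Module.length_eq_one_iff, isSimpleModule_iff_isCoatom]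
      exact Ideal.isMaximal_def.mp (maximalIdeal.isMaximal S)
    rw [h1] at s3
    have h4 : Module.length S (S ⧸ mS) ≤ 4 := by
      calc Module.length S (S ⧸ mS)
          ≤ Module.length S (S ⧸ (Ideal.span {e * f} ⊔ mS)) + 1 := s1
        _ ≤ (Module.length S (S ⧸ (Ideal.span {a'} ⊔ (Ideal.span {e * f} ⊔ mS))) + 1) + 1 := by
            gcongr
        _ ≤ ((1 + 1) + 1) + 1 := by gcongr
        _ = 4 := by norm_num
    exact lech_of_length_le_four h4 eR eS heR heS
  · -- the maximal ideal of the fibre needs at least three generators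
    have hn2 : ∀ a a' : S, maximalIdeal S ≠ Ideal.span {a, a'} ⊔ mS :=
      fun a a' h => h2 ⟨a, a', h⟩
    have hnp : ∀ a : S, maximalIdeal S ≠ Ideal.span {a} ⊔ mS := by
      intro a h
      apply hn2 a a
      rw [Set.pair_eq_singleton]
      exact h
    -- Lemma A: products that vanish in the fibre lie in `m S * n`
    have hA : ∀ a b : S, a ∈ maximalIdeal S → b ∈ maximalIdeal S → a * b ∈ mS →
        a * b ∈ mS * maximalIdeal S := by
      intro a b ha hb hab
      by_cases hbn : ∀ y ∈ maximalIdeal S, y * b ∈ mS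
      · have hJ : Ideal.span {b} * maximalIdeal S ≤ mS := by
          rw [Ideal.span_singleton_mul_le_iff]
          intro y hy
          rw [mul_comm]
          exact hbn y hy
        have h1 := socle_mul_le_map_mul hnp (Ideal.span {b}) hJ
        have h3 : b * a ∈ mS * maximalIdeal S :=
          h1 (Ideal.mul_mem_mul (Ideal.mem_span_singleton_self b) ha)
        rw [mul_comm a b]
        exact h3
      · obtain ⟨c, hc, hcb⟩ : ∃ c ∈ maximalIdeal S, c * b ∉ mS := by
          by_contra h
          exact hbn fun y hy => by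
            by_contra h'
            exact h ⟨y, hy, h'⟩
        obtain ⟨v, hv⟩ := hcoef c b hc hb
        have hvu : IsUnit v := by
          by_contra hnv
          have hvn : v ∈ maximalIdeal S := (IsLocalRing.mem_maximalIdeal _).mpr hnv
          apply hcb
          have h1 : v * (e * f) ∈ mS := by
            have := htriple v e f hvn he hf
            rwa [mul_assoc] at this
          have h3 : c * b = (c * b - v * (e * f)) + v * (e * f) := by ring
          rw [h3]
          exact Ideal.add_mem _ hv h1
        obtain ⟨v', rfl⟩ := hvu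
        by_contra hcon
        apply hn2 a c
        apply le_antisymm
        · intro y hy
          obtain ⟨u, hu⟩ := hcoef y b hy hb
          have htn : y - u * ↑v'⁻¹ * c ∈ maximalIdeal S :=
            sub_mem hy (Ideal.mul_mem_left _ _ hc)
          have htb : (y - u * ↑v'⁻¹ * c) * b ∈ mS := by
            have h1 : (↑v'⁻¹ : S) * ↑v' = 1 := Units.inv_mul v'
            have h3 : (y - u * ↑v'⁻¹ * c) * b =
                (y * b - u * (e * f)) - u * ↑v'⁻¹ * (c * b - ↑v' * (e * f)) := by
              linear_combination (-(u * e * f)) * h1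
            rw [h3]
            exact sub_mem hu (Ideal.mul_mem_left _ _ hv)
          have htmem : y - u * ↑v'⁻¹ * c ∈ Ideal.span {a} ⊔ mS := by
            by_contra htm
            apply hcon
            have hind : ∀ s s' : S, s * (y - u * ↑v'⁻¹ * c) - s' * a ∈ mS →
                s ∈ maximalIdeal S := by
              intro s s' hmem
              by_contra hs
              have hu' : IsUnit s := by
                by_contra h
                exact hs ((IsLocalRing.mem_maximalIdeal _).mpr h)
              obtain ⟨w, rfl⟩ := hu'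
              apply htm
              have hteq : y - u * ↑v'⁻¹ * c = (↑w⁻¹ : S) * s' * a +
                  (↑w⁻¹ : S) * ((w : S) * (y - u * ↑v'⁻¹ * c) - s' * a) := by
                have h1 : (↑w⁻¹ : S) * (w : S) = 1 := Units.inv_mul w
                linear_combination (-(y - u * ↑v'⁻¹ * c)) * h1
              rw [hteq]
              exact Ideal.add_mem _
                (Ideal.mem_sup_left (Ideal.mul_mem_left _ _ (Ideal.mem_span_singleton_self a)))
                (Ideal.mem_sup_right (Ideal.mul_mem_left _ _ hmem))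
            exact mul_mem_map_mul_of_indep a b _ hab htb hind
          have hy' : y = (y - u * ↑v'⁻¹ * c) + u * ↑v'⁻¹ * c := by ring
          rw [hy']
          refine Ideal.add_mem _ ?_ ?_
          · exact (sup_le_sup_right (Ideal.span_mono (by simp)) mS) htmem
          · exact Ideal.mem_sup_left (Ideal.mul_mem_left _ _ (Ideal.subset_span (by simp)))
        · refine sup_le ?_ hmSn
          rw [Ideal.span_le]
          intro z hz
          rcases hz with rfl | rfl
          · exact ha
          · exact hc
    -- Lemma B: `e` generates a reduction of `n` modulo `m S`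
    have hB : maximalIdeal S ^ 2 ≤ (Ideal.span {e} ⊔ mS) * maximalIdeal S := by
      rw [pow_two, Ideal.mul_le]
      intro a ha b hb
      obtain ⟨p, hp⟩ := hcoef a f ha hf
      obtain ⟨q, hq⟩ := hcoef e b he hb
      have ha₁ : a - p * e ∈ maximalIdeal S := sub_mem ha (Ideal.mul_mem_left _ _ he)
      have hb₁ : b - q * f ∈ maximalIdeal S := sub_mem hb (Ideal.mul_mem_left _ _ hf)
      have h1 : (a - p * e) * f ∈ mS := by
        have h : (a - p * e) * f = a * f - p * (e * f) := by ring
        rw [h]; exact hp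
      have h3 : e * (b - q * f) ∈ mS := by
        have h : e * (b - q * f) = e * b - q * (e * f) := by ring
        rw [h]; exact hq
      obtain ⟨w, hw⟩ := hcoef (a - p * e) (b - q * f) ha₁ hb₁
      have h1' := hA _ _ ha₁ hf h1
      have h3' := hA _ _ he hb₁ h3
      have h5 : ((a - p * e) + e) * ((b - q * f) - w * f) ∈ mS := by
        have h : ((a - p * e) + e) * ((b - q * f) - w * f) =
            ((a - p * e) * (b - q * f) - w * (e * f)) - w * ((a - p * e) * f)
              + e * (b - q * f) := by ring
        rw [h]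
        exact add_mem (sub_mem hw (Ideal.mul_mem_left _ _ h1)) h3
      have h5' := hA _ _ (add_mem ha₁ he) (sub_mem hb₁ (Ideal.mul_mem_left _ _ hf)) h5
      have hle : mS * maximalIdeal S ≤ (Ideal.span {e} ⊔ mS) * maximalIdeal S :=
        Ideal.mul_mono_left le_sup_right
      have hab : a * b = ((a - p * e) + e) * ((b - q * f) - w * f)
          + (w + q) * ((a - p * e) * f) + (p - 1) * (e * (b - q * f))
          + e * ((w + p * q) * f) := by ring
      rw [hab]
      refine add_mem (add_mem (add_mem (hle h5') (Ideal.mul_mem_left _ _ (hle h1')))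
        (Ideal.mul_mem_left _ _ (hle h3'))) ?_
      exact Ideal.mul_mem_mul (Ideal.mem_sup_left (Ideal.mem_span_singleton_self e))
        (Ideal.mul_mem_left _ _ hf)
    exact lech_of_principal_reduction e he hB lam hlam.symm eR eS heR heS

/-- **Lech's inequality for stretched closed fibres of embedding dimension at least three.**
If `n ^ 2 ≤ (e ^ 2) S + m S` for some `e ∈ n` (the square of the maximal ideal of the closed
fibre is generated by the square of one element), the closed fibre has finite length, and the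
maximal ideal of the closed fibre is not generated by two elements, then `e(R) ≤ e(S)`. -/
theorem lech_of_stretched (e : S) (he : e ∈ maximalIdeal S)
    (hsq : maximalIdeal S ^ 2 ≤ Ideal.span {e ^ 2} ⊔ (maximalIdeal R).map (algebraMap R S))
    (hn2 : ∀ a a' : S, maximalIdeal S ≠
      Ideal.span {a, a'} ⊔ (maximalIdeal R).map (algebraMap R S))
    (lam : ℕ) (hlam : Module.length S (S ⧸ (maximalIdeal R).map (algebraMap R S)) = lam)
    (eR eS : ℝ)
    (heR : IsHilbertSamuelMultiplicity R eR) (heS : IsHilbertSamuelMultiplicity S eS) :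
    eR ≤ eS := by
  set mS := (maximalIdeal R).map (algebraMap R S) with hmS
  have hmSn : mS ≤ maximalIdeal S := map_maximalIdeal_le (algebraMap R S)
  have hmStop : mS ≠ ⊤ := (map_maximalIdeal_lt_top (algebraMap R S)).ne
  by_cases he2 : e ^ 2 ∈ mS
  · -- square-zero fibre
    have hsq' : maximalIdeal S ^ 2 ≤ mS :=
      hsq.trans (sup_le ((Ideal.span_singleton_le_iff_mem _).mpr he2) le_rfl)
    exact (lech_of_sq_le hsq' eR eS heR heS).1
  -- the largest power of `e` outside `m S`
  obtain ⟨s', hes, hes1⟩ : ∃ s' : ℕ, e ^ (s' + 2) ∉ mS ∧ e ^ (s' + 3) ∈ mS := by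
    classical
    have hex : ∃ j : ℕ, e ^ j ∈ mS := ⟨lam, pow_mem_of_length_le _ e he lam (le_of_eq hlam)⟩
    have h0 : Nat.find hex ≠ 0 := by
      intro h
      have h1 := Nat.find_spec hex
      rw [h, pow_zero] at h1
      exact hmStop ((Ideal.eq_top_iff_one _).mpr h1)
    have h1 : Nat.find hex ≠ 1 := by
      intro h
      have h1 := Nat.find_spec hex
      rw [h, pow_one] at h1
      apply he2
      rw [pow_two]
      exact Ideal.mul_mem_left _ _ h1
    have h2 : Nat.find hex ≠ 2 := by
      intro h
      have h1 := Nat.find_spec hex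
      rw [h] at h1
      exact he2 h1
    refine ⟨Nat.find hex - 3, ?_, ?_⟩
    · exact Nat.find_min hex (by omega)
    · have h3 : Nat.find hex - 3 + 3 = Nat.find hex := by omega
      rw [h3]
      exact Nat.find_spec hex
  -- units can be cancelled modulo `m S`
  have hunit : ∀ v x : S, v ∉ maximalIdeal S → v * x ∈ mS → x ∈ mS := by
    intro v x hv hvx
    have hu : IsUnit v := by
      by_contra h
      exact hv ((IsLocalRing.mem_maximalIdeal _).mpr h)
    obtain ⟨w, rfl⟩ := hu
    have h1 : x = (↑w⁻¹ : S) * ((w : S) * x) := by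
      rw [← mul_assoc, Units.inv_mul, one_mul]
    rw [h1]
    exact Ideal.mul_mem_left _ _ hvx
  -- coefficient extraction
  have hcoef : ∀ x y : S, x ∈ maximalIdeal S → y ∈ maximalIdeal S →
      ∃ u : S, x * y - u * e ^ 2 ∈ mS := by
    intro x y hx hy
    have h1 : x * y ∈ maximalIdeal S ^ 2 := by rw [pow_two]; exact Ideal.mul_mem_mul hx hy
    obtain ⟨p, hp, q, hq, hpq⟩ := Submodule.mem_sup.mp (hsq h1)
    obtain ⟨u, rfl⟩ := Ideal.mem_span_singleton'.mp hp
    refine ⟨u, ?_⟩
    have h2 : x * y - u * e ^ 2 = q := by rw [← hpq]; ring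
    rw [h2]
    exact hq
  -- the top power of `e` is killed by `n` modulo `m S`
  have htop : ∀ v : S, v ∈ maximalIdeal S → v * e ^ (s' + 2) ∈ mS := by
    intro v hv
    obtain ⟨u, hu⟩ := hcoef v e hv he
    have h1 : v * e ^ (s' + 2) = (v * e - u * e ^ 2) * e ^ (s' + 1) + u * e ^ (s' + 3) := by ring
    rw [h1]
    exact add_mem (Ideal.mul_mem_right _ _ hu) (Ideal.mul_mem_left _ _ hes1)
  have hpow_not : ∀ j : ℕ, j ≤ s' → e ^ (j + 2) ∉ mS := by
    intro j hj hmem
    apply hes
    have h1 : e ^ (s' + 2) = e ^ (j + 2) * e ^ (s' - j) := by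
      rw [← pow_add]; congr 1; omega
    rw [h1]
    exact Ideal.mul_mem_right _ _ hmem
  -- products of two elements of the annihilator of `e` are multiples of the top power
  have hann : ∀ c d : S, c * e ∈ mS → ∃ u : S, c ∈ maximalIdeal S → d ∈ maximalIdeal S →
      c * d - u * e ^ (s' + 2) ∈ mS := by
    intro c d hce
    by_cases hc : c ∈ maximalIdeal S
    swap
    · exact ⟨0, fun h => absurd h hc⟩
    by_cases hd : d ∈ maximalIdeal S
    swap
    · exact ⟨0, fun _ h => absurd h hd⟩
    have key : ∀ j : ℕ, j ≤ s' → ∃ u : S, c * d - u * e ^ (j + 2) ∈ mS := by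
      intro j
      induction j with
      | zero => intro _; exact hcoef c d hc hd
      | succ j ih =>
        intro hj
        obtain ⟨u, hu⟩ := ih (by omega)
        have h1 : u * e ^ (j + 1 + 2) ∈ mS := by
          have h : u * e ^ (j + 1 + 2) = (c * e) * d - e * (c * d - u * e ^ (j + 2)) := by ring
          rw [h]
          exact sub_mem (Ideal.mul_mem_right _ _ hce) (Ideal.mul_mem_left _ _ hu)
        have hun : u ∈ maximalIdeal S := by
          by_contra h
          exact hpow_not (j + 1) hj (hunit u _ h h1)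
        obtain ⟨u', hu'⟩ := hcoef u e hun he
        refine ⟨u', ?_⟩
        have h3 : c * d - u' * e ^ (j + 1 + 2) =
            (c * d - u * e ^ (j + 2)) + (u * e - u' * e ^ 2) * e ^ (j + 1) := by ring
        rw [h3]
        exact add_mem hu (Ideal.mul_mem_right _ _ hu')
    obtain ⟨u, hu⟩ := key s' le_rfl
    exact ⟨u, fun _ _ => hu⟩
  -- `e` generates a reduction of `n` modulo `m S`
  have hB : maximalIdeal S ^ 2 ≤ (Ideal.span {e} ⊔ mS) * maximalIdeal S := by
    rw [pow_two, Ideal.mul_le]
    intro a ha b hb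
    obtain ⟨p, hp⟩ := hcoef a e ha he
    obtain ⟨q, hq⟩ := hcoef b e hb he
    have ha₁ : a - p * e ∈ maximalIdeal S := sub_mem ha (Ideal.mul_mem_left _ _ he)
    have hb₁ : b - q * e ∈ maximalIdeal S := sub_mem hb (Ideal.mul_mem_left _ _ he)
    have ha₁e : (a - p * e) * e ∈ mS := by
      have h : (a - p * e) * e = a * e - p * e ^ 2 := by ring
      rw [h]; exact hp
    have hb₁e : (b - q * e) * e ∈ mS := by
      have h : (b - q * e) * e = b * e - q * e ^ 2 := by ring
      rw [h]; exact hq
    obtain ⟨u, hu⟩ := hann (a - p * e) (b - q * e) ha₁e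
    have hu' := hu ha₁ hb₁
    have hAn : (a - p * e) + e ^ (s' + 1) ∈ maximalIdeal S :=
      add_mem ha₁ (Ideal.pow_mem_of_mem _ he _ (Nat.succ_pos s'))
    have hAB : ((a - p * e) + e ^ (s' + 1)) * ((b - q * e) - u * e) ∈ mS := by
      have h : ((a - p * e) + e ^ (s' + 1)) * ((b - q * e) - u * e) =
          ((a - p * e) * (b - q * e) - u * e ^ (s' + 2)) - u * ((a - p * e) * e)
            + e ^ s' * ((b - q * e) * e) := by ring
      rw [h]
      exact add_mem (sub_mem hu' (Ideal.mul_mem_left _ _ ha₁e)) (Ideal.mul_mem_left _ _ hb₁e)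
    -- an annihilator of the second factor which is independent of the first factor
    have hx : ∃ x : S, x * ((b - q * e) - u * e) ∈ mS ∧
        ∀ s₀ s₁ : S, s₀ * x - s₁ * ((a - p * e) + e ^ (s' + 1)) ∈ mS →
          s₀ ∈ maximalIdeal S := by
      by_contra hcon
      -- every element of the annihilator of `e` and of `b₁` is in `n A + m S`
      have hstar : ∀ x : S, x ∈ maximalIdeal S → x * e ∈ mS → x * (b - q * e) ∈ mS →
          ∃ α : S, α ∈ maximalIdeal S ∧ x - α * ((a - p * e) + e ^ (s' + 1)) ∈ mS := by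
        intro x hxn hxe hxb
        by_contra hno
        apply hcon
        refine ⟨x, ?_, ?_⟩
        · have h : x * ((b - q * e) - u * e) = x * (b - q * e) - u * (x * e) := by ring
          rw [h]
          exact sub_mem hxb (Ideal.mul_mem_left _ _ hxe)
        · intro s₀ s₁ hmem
          by_contra hs₀
          have hu₀ : IsUnit s₀ := by
            by_contra h
            exact hs₀ ((IsLocalRing.mem_maximalIdeal _).mpr h)
          obtain ⟨w, rfl⟩ := hu₀
          apply hno
          have h1 : (↑w⁻¹ : S) * (w : S) = 1 := Units.inv_mul w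
          have hxeq : x - (↑w⁻¹ : S) * s₁ * ((a - p * e) + e ^ (s' + 1)) =
              (↑w⁻¹ : S) * ((w : S) * x - s₁ * ((a - p * e) + e ^ (s' + 1))) := by
            linear_combination (-x) * h1
          have hmem' : x - (↑w⁻¹ : S) * s₁ * ((a - p * e) + e ^ (s' + 1)) ∈ mS := by
            rw [hxeq]
            exact Ideal.mul_mem_left _ _ hmem
          refine ⟨(↑w⁻¹ : S) * s₁, ?_, hmem'⟩
          by_contra hα
          apply hes
          refine hunit ((↑w⁻¹ : S) * s₁) _ hα ?_
          have h5 : (↑w⁻¹ : S) * s₁ * e ^ (s' + 2) =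
              x * e - (↑w⁻¹ : S) * s₁ * ((a - p * e) * e)
                - (x - (↑w⁻¹ : S) * s₁ * ((a - p * e) + e ^ (s' + 1))) * e := by ring
          rw [h5]
          exact sub_mem (sub_mem hxe (Ideal.mul_mem_left _ _ ha₁e))
            (Ideal.mul_mem_right _ _ hmem')
      -- a complement of the annihilator of `b₁` inside the annihilator of `e`
      have hc' : ∃ c' : S, c' ∈ maximalIdeal S ∧ ∀ y : S, y ∈ maximalIdeal S → y * e ∈ mS →
          ∃ w α : S, α ∈ maximalIdeal S ∧
            y - w * c' - α * ((a - p * e) + e ^ (s' + 1)) ∈ mS := by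
        by_cases hall : ∀ y : S, y ∈ maximalIdeal S → y * e ∈ mS → y * (b - q * e) ∈ mS
        · refine ⟨0, zero_mem _, fun y hy hye => ?_⟩
          obtain ⟨α, hα, hmem⟩ := hstar y hy hye (hall y hy hye)
          refine ⟨0, α, hα, ?_⟩
          have h : y - 0 * 0 - α * ((a - p * e) + e ^ (s' + 1)) =
              y - α * ((a - p * e) + e ^ (s' + 1)) := by ring
          rw [h]
          exact hmem
        · obtain ⟨c', hc'n, hc'e, hc'b⟩ : ∃ c' : S, c' ∈ maximalIdeal S ∧ c' * e ∈ mS ∧
              c' * (b - q * e) ∉ mS := by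
            by_contra h
            exact hall fun y hy hye => by
              by_contra h'
              exact h ⟨y, hy, hye, h'⟩
          obtain ⟨v, hv⟩ := hann c' (b - q * e) hc'e
          have hv' := hv hc'n hb₁
          have hvu : IsUnit v := by
            by_contra hnv
            have hvn : v ∈ maximalIdeal S := (IsLocalRing.mem_maximalIdeal _).mpr hnv
            apply hc'b
            have h3 : c' * (b - q * e) =
                (c' * (b - q * e) - v * e ^ (s' + 2)) + v * e ^ (s' + 2) := by ring
            rw [h3]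
            exact add_mem hv' (htop v hvn)
          obtain ⟨v', rfl⟩ := hvu
          refine ⟨c', hc'n, fun y hy hye => ?_⟩
          obtain ⟨uy, huy⟩ := hann y (b - q * e) hye
          have huy' := huy hy hb₁
          have h1 : (↑v'⁻¹ : S) * (v' : S) = 1 := Units.inv_mul v'
          have hzn : y - uy * ↑v'⁻¹ * c' ∈ maximalIdeal S :=
            sub_mem hy (Ideal.mul_mem_left _ _ hc'n)
          have hze : (y - uy * ↑v'⁻¹ * c') * e ∈ mS := by
            have h : (y - uy * ↑v'⁻¹ * c') * e = y * e - uy * ↑v'⁻¹ * (c' * e) := by ring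
            rw [h]
            exact sub_mem hye (Ideal.mul_mem_left _ _ hc'e)
          have hzb : (y - uy * ↑v'⁻¹ * c') * (b - q * e) ∈ mS := by
            have h : (y - uy * ↑v'⁻¹ * c') * (b - q * e) =
                (y * (b - q * e) - uy * e ^ (s' + 2))
                  - uy * ↑v'⁻¹ * (c' * (b - q * e) - ↑v' * e ^ (s' + 2)) := by
              linear_combination (-(uy * e ^ (s' + 2))) * h1
            rw [h]
            exact sub_mem huy' (Ideal.mul_mem_left _ _ hv')
          obtain ⟨α, hα, hmem⟩ := hstar _ hzn hze hzb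
          exact ⟨uy * ↑v'⁻¹, α, hα, hmem⟩
      obtain ⟨c', hc'n, hc'⟩ := hc'
      -- every element of `n` lies in `(c', e) + n A + m S`
      have hall : ∀ z : S, z ∈ maximalIdeal S → ∃ α : S, α ∈ maximalIdeal S ∧
          z - α * ((a - p * e) + e ^ (s' + 1)) ∈ Ideal.span {c', e} ⊔ mS := by
        intro z hz
        obtain ⟨pz, hpz⟩ := hcoef z e hz he
        have hz₁ : z - pz * e ∈ maximalIdeal S := sub_mem hz (Ideal.mul_mem_left _ _ he)
        have hz₁e : (z - pz * e) * e ∈ mS := by
          have h : (z - pz * e) * e = z * e - pz * e ^ 2 := by ring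
          rw [h]; exact hpz
        obtain ⟨w, α, hα, hmem⟩ := hc' _ hz₁ hz₁e
        refine ⟨α, hα, ?_⟩
        have h : z - α * ((a - p * e) + e ^ (s' + 1)) =
            (w * c' + pz * e) +
              (z - pz * e - w * c' - α * ((a - p * e) + e ^ (s' + 1))) := by ring
        rw [h]
        refine add_mem (Ideal.mem_sup_left (add_mem ?_ ?_)) (Ideal.mem_sup_right hmem)
        · exact Ideal.mul_mem_left _ _ (Ideal.subset_span (by simp))
        · exact Ideal.mul_mem_left _ _ (Ideal.subset_span (by simp))
      -- hence `A` itself, and then all of `n`, lies in `(c', e) + m S`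
      have hAmem : (a - p * e) + e ^ (s' + 1) ∈ Ideal.span {c', e} ⊔ mS := by
        obtain ⟨α, hα, hmem⟩ := hall _ hAn
        have hu1 : IsUnit (1 - α) := by
          by_contra h
          have h1 : (1 - α) ∈ maximalIdeal S := (IsLocalRing.mem_maximalIdeal _).mpr h
          have h2 : (1 : S) ∈ maximalIdeal S := by
            have h3 : (1 : S) = (1 - α) + α := by ring
            rw [h3]
            exact add_mem h1 hα
          exact (Ideal.ne_top_iff_one _).mp (maximalIdeal.isMaximal S).ne_top h2
        obtain ⟨w, hw⟩ := hu1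
        have h4 : (a - p * e) + e ^ (s' + 1) = (↑w⁻¹ : S) *
            (((a - p * e) + e ^ (s' + 1)) - α * ((a - p * e) + e ^ (s' + 1))) := by
          have h5 : (↑w⁻¹ : S) * (1 - α) = 1 := by rw [← hw, Units.inv_mul]
          linear_combination (-((a - p * e) + e ^ (s' + 1))) * h5
        rw [h4]
        exact Ideal.mul_mem_left _ _ hmem
      apply hn2 c' e
      apply le_antisymm
      · intro z hz
        obtain ⟨α, hα, hmem⟩ := hall z hz
        have h : z = (z - α * ((a - p * e) + e ^ (s' + 1))) +
            α * ((a - p * e) + e ^ (s' + 1)) := by ring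
        rw [h]
        exact add_mem hmem (Ideal.mul_mem_left _ _ hAmem)
      · refine sup_le ?_ hmSn
        rw [Ideal.span_le]
        intro z hz
        rcases hz with rfl | rfl
        · exact hc'n
        · exact he
    obtain ⟨x, hxB, hind⟩ := hx
    have hABn := mul_mem_map_mul_of_indep _ _ x hAB hxB hind
    have hle : mS * maximalIdeal S ≤ (Ideal.span {e} ⊔ mS) * maximalIdeal S :=
      Ideal.mul_mono_left le_sup_right
    have hab : a * b = ((a - p * e) + e ^ (s' + 1)) * ((b - q * e) - u * e)
        + e * (u * (a - p * e) - e ^ s' * (b - q * e) + u * e ^ (s' + 1)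
          + q * (a - p * e) + p * (b - q * e) + p * q * e) := by ring
    rw [hab]
    refine add_mem (hle hABn) (Ideal.mul_mem_mul
      (Ideal.mem_sup_left (Ideal.mem_span_singleton_self e)) ?_)
    refine add_mem (add_mem (add_mem (add_mem (sub_mem ?_ ?_) ?_) ?_) ?_) ?_
    · exact Ideal.mul_mem_left _ _ ha₁
    · exact Ideal.mul_mem_left _ _ hb₁
    · exact Ideal.mul_mem_left _ _ (Ideal.pow_mem_of_mem _ he _ (Nat.succ_pos s'))
    · exact Ideal.mul_mem_left _ _ ha₁
    · exact Ideal.mul_mem_left _ _ hb₁
    · exact Ideal.mul_mem_left _ _ he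
  exact lech_of_principal_reduction e he hB lam hlam eR eS heR heS

/-- **Lech's inequality when the pairwise products of a system of generators of the maximal
ideal of the closed fibre lie in `m S * n`.**  If `n = (y 0, …, y (r - 1)) + m S` and
`y i * y j ∈ m S * n` for `i ≠ j`, and the closed fibre has finite length, then
`e(R) ≤ e(S)`. -/
theorem lech_of_pairwise_products (r : ℕ) (y : Fin r → S)
    (hn : maximalIdeal S = Ideal.span (Set.range y) ⊔ (maximalIdeal R).map (algebraMap R S))
    (horth' : ∀ i j : Fin r, i ≠ j →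
      y i * y j ∈ (maximalIdeal R).map (algebraMap R S) * maximalIdeal S)
    (lam : ℕ) (hlam : Module.length S (S ⧸ (maximalIdeal R).map (algebraMap R S)) = lam)
    (eR eS : ℝ)
    (heR : IsHilbertSamuelMultiplicity R eR) (heS : IsHilbertSamuelMultiplicity S eS) :
    eR ≤ eS := by
  classical
  set mS := (maximalIdeal R).map (algebraMap R S) with hmS
  have hmSn : mS ≤ maximalIdeal S := map_maximalIdeal_le (algebraMap R S)
  have hy : ∀ i : Fin r, y i ∈ maximalIdeal S := by
    intro i
    rw [hn]
    exact Ideal.mem_sup_left (Ideal.subset_span (Set.mem_range_self i))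
  have hσ : ∑ i, y i ∈ maximalIdeal S := Ideal.sum_mem _ fun i _ => hy i
  have hle : mS * maximalIdeal S ≤ (Ideal.span {∑ i, y i} ⊔ mS) * maximalIdeal S :=
    Ideal.mul_mono_left le_sup_right
  -- squares of generators
  have hsqr : ∀ i : Fin r, y i * y i ∈ (Ideal.span {∑ i, y i} ⊔ mS) * maximalIdeal S := by
    intro i
    have h1 : y i * y i = (∑ j, y j) * y i - ∑ j ∈ Finset.univ.erase i, y j * y i := by
      rw [← Finset.add_sum_erase Finset.univ y (Finset.mem_univ i), add_mul, Finset.sum_mul]
      ring
    rw [h1]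
    refine sub_mem (Ideal.mul_mem_mul (Ideal.mem_sup_left (Ideal.mem_span_singleton_self _))
      (hy i)) (Ideal.sum_mem _ fun j hj => hle (horth' j i (Finset.ne_of_mem_erase hj)))
  have hgen : ∀ i j : Fin r, y i * y j ∈ (Ideal.span {∑ i, y i} ⊔ mS) * maximalIdeal S := by
    intro i j
    by_cases hij : i = j
    · rw [hij]; exact hsqr j
    · exact hle (horth' i j hij)
  -- the sum of the generators generates a reduction of `n` modulo `m S`
  have hB : maximalIdeal S ^ 2 ≤ (Ideal.span {∑ i, y i} ⊔ mS) * maximalIdeal S := by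
    have h1 : ∀ i : Fin r, ∀ b ∈ maximalIdeal S,
        y i * b ∈ (Ideal.span {∑ i, y i} ⊔ mS) * maximalIdeal S := by
      intro i b hb
      rw [hn] at hb
      obtain ⟨b', hb', μ, hμ, rfl⟩ := Submodule.mem_sup.mp hb
      rw [mul_add]
      refine add_mem ?_ ?_
      · refine Submodule.span_induction (p := fun b' _ =>
          y i * b' ∈ (Ideal.span {∑ i, y i} ⊔ mS) * maximalIdeal S) ?_ ?_ ?_ ?_ hb'
        · rintro _ ⟨j, rfl⟩
          exact hgen i j
        · rw [mul_zero]; exact zero_mem _
        · intro u v _ _ hu hv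
          rw [mul_add]; exact add_mem hu hv
        · intro c u _ hu
          rw [smul_eq_mul, mul_left_comm]
          exact Ideal.mul_mem_left _ _ hu
      · rw [mul_comm (y i) μ]
        exact hle (Ideal.mul_mem_mul hμ (hy i))
    rw [pow_two, Ideal.mul_le]
    intro a ha b hb
    rw [hn] at ha
    obtain ⟨a', ha', μ, hμ, rfl⟩ := Submodule.mem_sup.mp ha
    rw [add_mul]
    refine add_mem ?_ (hle (Ideal.mul_mem_mul hμ hb))
    refine Submodule.span_induction (p := fun a' _ =>
      a' * b ∈ (Ideal.span {∑ i, y i} ⊔ mS) * maximalIdeal S) ?_ ?_ ?_ ?_ ha'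
    · rintro _ ⟨i, rfl⟩
      exact h1 i b hb
    · rw [zero_mul]; exact zero_mem _
    · intro u v _ _ hu hv
      rw [add_mul]; exact add_mem hu hv
    · intro c u _ hu
      rw [smul_eq_mul, mul_assoc]
      exact Ideal.mul_mem_left _ _ hu
  exact lech_of_principal_reduction _ hσ hB lam hlam eR eS heR heS

/-- **Lech's inequality when the maximal ideal of the closed fibre is generated by at least
three pairwise orthogonal elements.**  If `n = (y 0, …, y (r - 1)) + m S` with `r ≥ 3`,
`y i * y j ∈ m S` for `i ≠ j`, no `y i` is a multiple of another `y j` modulo `m S`, and the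
closed fibre has finite length, then `e(R) ≤ e(S)`. -/
theorem lech_of_orthogonal_generators (r : ℕ) (hr : 3 ≤ r) (y : Fin r → S)
    (hn : maximalIdeal S = Ideal.span (Set.range y) ⊔ (maximalIdeal R).map (algebraMap R S))
    (horth : ∀ i j : Fin r, i ≠ j → y i * y j ∈ (maximalIdeal R).map (algebraMap R S))
    (hind : ∀ i j : Fin r, i ≠ j → ∀ s s' : S,
      s * y i - s' * y j ∈ (maximalIdeal R).map (algebraMap R S) → s ∈ maximalIdeal S)
    (lam : ℕ) (hlam : Module.length S (S ⧸ (maximalIdeal R).map (algebraMap R S)) = lam)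
    (eR eS : ℝ)
    (heR : IsHilbertSamuelMultiplicity R eR) (heS : IsHilbertSamuelMultiplicity S eS) :
    eR ≤ eS := by
  classical
  refine lech_of_pairwise_products r y hn (fun i j hij => ?_) lam hlam eR eS heR heS
  obtain ⟨l, hli, hlj⟩ : ∃ l : Fin r, l ≠ i ∧ l ≠ j := by
    have hcard : ({i, j} : Finset (Fin r)).card < (Finset.univ : Finset (Fin r)).card := by
      have h1 : ({i, j} : Finset (Fin r)).card ≤ 2 := Finset.card_le_two
      rw [Finset.card_univ, Fintype.card_fin]
      omega
    obtain ⟨l, -, hl⟩ := Finset.exists_mem_notMem_of_card_lt_card hcard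
    refine ⟨l, fun h => hl ?_, fun h => hl ?_⟩
    · rw [h]; simp
    · rw [h]; simp
  exact mul_mem_map_mul_of_indep (y i) (y j) (y l) (horth i j hij) (horth l j hlj)
    (hind l i hli)

end Flat

end Vale.Agent.H54
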