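import Mathlib
import Vale.Agent.H54.LechReduction
import Vale.Agent.H54.LechFibreLength
import Vale.Agent.H54.FatPoint

/-!
# Classes of closed fibres for which Lech's inequality holds (support file for P202)

* `lech_of_sq_principal`: the square of the maximal ideal of the closed fibre is generated by
  a product of two elements, and either its cube is zero or the maximal ideal of the fibre is
  not generated by two elements.
* `lech_of_cube_le_of_two_pow_le`: the cube of the maximal ideal of the closed fibre is zero and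
  the maximal ideal of the fibre is generated by `t` elements with `2 ^ t ≤ ℓ(S / m S)`.
* `lech_of_fibre_classes`: a list of classes of closed fibres of finite length for which
  `e(R) ≤ e(S)`.
-/

namespace Vale.Agent.H54

open IsLocalRing Filter Topology

section Flat

variable {R S : Type*} [CommRing R] [CommRing S]
  [IsLocalRing R] [IsLocalRing S] [IsNoetherianRing R] [IsNoetherianRing S]
  [Algebra R S] [IsLocalHom (algebraMap R S)] [Module.Flat R S]

/-- **Lech's inequality for stretched closed fibres.**  If `n ^ 2 ≤ (e f) S + m S` with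
`e, f ∈ n`, the closed fibre has finite length, and either `n ^ 3 ≤ m S` or the maximal ideal
of the closed fibre is not generated by two elements, then `e(R) ≤ e(S)`. -/
theorem lech_of_sq_principal (e f : S) (he : e ∈ maximalIdeal S) (hf : f ∈ maximalIdeal S)
    (hsq : maximalIdeal S ^ 2 ≤ Ideal.span {e * f} ⊔ (maximalIdeal R).map (algebraMap R S))
    (h : maximalIdeal S ^ 3 ≤ (maximalIdeal R).map (algebraMap R S) ∨
      ∀ a a' : S, maximalIdeal S ≠
        Ideal.span {a, a'} ⊔ (maximalIdeal R).map (algebraMap R S))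
    (lam : ℕ) (hlam : Module.length S (S ⧸ (maximalIdeal R).map (algebraMap R S)) = lam)
    (eR eS : ℝ)
    (heR : IsHilbertSamuelMultiplicity R eR) (heS : IsHilbertSamuelMultiplicity S eS) :
    eR ≤ eS := by
  rcases h with hcube | hn2
  · exact lech_of_sq_cyclic e f he hf hsq hcube eR eS heR heS
  set mS := (maximalIdeal R).map (algebraMap R S) with hmS
  have hcoef : ∀ x y : S, x ∈ maximalIdeal S → y ∈ maximalIdeal S →
      ∃ u : S, x * y - u * (e * f) ∈ mS := by
    intro x y hx hy
    have h1 : x * y ∈ maximalIdeal S ^ 2 := by rw [pow_two]; exact Ideal.mul_mem_mul hx hy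
    obtain ⟨p, hp, q, hq, hpq⟩ := Submodule.mem_sup.mp (hsq h1)
    obtain ⟨u, rfl⟩ := Ideal.mem_span_singleton'.mp hp
    refine ⟨u, ?_⟩
    have h2 : x * y - u * (e * f) = q := by rw [← hpq]; ring
    rw [h2]
    exact hq
  obtain ⟨v, hv⟩ := hcoef f f hf hf
  by_cases hvn : v ∈ maximalIdeal S
  · -- the square of `f` does not generate: the cube of the maximal ideal of the fibre is zero
    have hpow : maximalIdeal S ^ lam ≤ mS :=
      maximalIdeal_pow_le_of_length_le _ lam (le_of_eq hlam)
    have h34 : maximalIdeal S ^ 3 ≤ maximalIdeal S ^ 4 ⊔ mS := by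
      rw [pow_succ (maximalIdeal S) 2, Ideal.mul_le]
      intro w hw z hz
      obtain ⟨c, hc⟩ : ∃ c : S, w - c * (e * f) ∈ mS := by
        obtain ⟨p, hp, q, hq, hpq⟩ := Submodule.mem_sup.mp (hsq hw)
        obtain ⟨c, rfl⟩ := Ideal.mem_span_singleton'.mp hp
        refine ⟨c, ?_⟩
        have h2 : w - c * (e * f) = q := by rw [← hpq]; ring
        rw [h2]
        exact hq
      obtain ⟨c', hc'⟩ := hcoef z e hz he
      have h4 : v * e * e * f ∈ maximalIdeal S ^ 4 := by
        rw [pow_succ, pow_succ, pow_succ, pow_one]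
        exact Ideal.mul_mem_mul (Ideal.mul_mem_mul (Ideal.mul_mem_mul hvn he) he) hf
      have hwz : w * z = (c * c') * (v * e * e * f) +
          ((w - c * (e * f)) * z + c * f * (z * e - c' * (e * f))
            + c * c' * e * (f * f - v * (e * f))) := by ring
      rw [hwz]
      exact add_mem (Ideal.mem_sup_left (Ideal.mul_mem_left _ _ h4))
        (Ideal.mem_sup_right (add_mem (add_mem (Ideal.mul_mem_right _ _ hc)
          (Ideal.mul_mem_left _ _ hc')) (Ideal.mul_mem_left _ _ hv)))
    have hiter : ∀ j : ℕ, maximalIdeal S ^ 3 ≤ maximalIdeal S ^ (3 + j) ⊔ mS := by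
      intro j
      induction j with
      | zero => exact le_sup_left
      | succ j ih =>
        refine ih.trans (sup_le ?_ le_sup_right)
        calc maximalIdeal S ^ (3 + j) = maximalIdeal S ^ 3 * maximalIdeal S ^ j := pow_add _ _ _
          _ ≤ (maximalIdeal S ^ 4 ⊔ mS) * maximalIdeal S ^ j := Ideal.mul_mono_left h34
          _ = maximalIdeal S ^ 4 * maximalIdeal S ^ j ⊔ mS * maximalIdeal S ^ j :=
              Ideal.sup_mul _ _ _
          _ ≤ maximalIdeal S ^ (3 + (j + 1)) ⊔ mS := by
              refine sup_le_sup ?_ Ideal.mul_le_left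
              rw [← pow_add]
              exact le_of_eq (by congr 1; ring)
    have hcube : maximalIdeal S ^ 3 ≤ mS :=
      (hiter lam).trans (sup_le ((Ideal.pow_le_pow_right (by omega)).trans hpow) le_rfl)
    exact lech_of_sq_cyclic e f he hf hsq hcube eR eS heR heS
  · -- the square of `f` generates the square of the maximal ideal of the fibre
    have hu : IsUnit v := by
      by_contra h
      exact hvn ((IsLocalRing.mem_maximalIdeal _).mpr h)
    obtain ⟨w, rfl⟩ := hu
    have hef : e * f ∈ Ideal.span {f ^ 2} ⊔ mS := by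
      have h1 : (↑w⁻¹ : S) * (w : S) = 1 := Units.inv_mul w
      have h2 : e * f = (↑w⁻¹ : S) * f ^ 2 + (-(↑w⁻¹ : S)) * (f * f - ↑w * (e * f)) := by
        linear_combination (-(e * f)) * h1
      rw [h2]
      exact add_mem (Ideal.mem_sup_left (Ideal.mul_mem_left _ _ (Ideal.mem_span_singleton_self _)))
        (Ideal.mem_sup_right (Ideal.mul_mem_left _ _ hv))
    have hsq' : maximalIdeal S ^ 2 ≤ Ideal.span {f ^ 2} ⊔ mS :=
      hsq.trans (sup_le ((Ideal.span_singleton_le_iff_mem _).mpr hef) le_sup_right)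
    exact lech_of_stretched f hf hsq' hn2 lam hlam eR eS heR heS

omit [IsNoetherianRing R] [IsLocalHom (algebraMap R S)] [Module.Flat R S] in
/-- If the square of the maximal ideal of the closed fibre is principal (and the fibre has
finite length), then it is generated by a product of two elements of the maximal ideal. -/
theorem exists_mul_of_sq_principal (g : S) (hg : g ∈ maximalIdeal S ^ 2)
    (hsq : maximalIdeal S ^ 2 ≤ Ideal.span {g} ⊔ (maximalIdeal R).map (algebraMap R S))
    (lam : ℕ) (hlam : Module.length S (S ⧸ (maximalIdeal R).map (algebraMap R S)) = lam) :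
    ∃ e ∈ maximalIdeal S, ∃ f ∈ maximalIdeal S,
      maximalIdeal S ^ 2 ≤ Ideal.span {e * f} ⊔ (maximalIdeal R).map (algebraMap R S) := by
  set mS := (maximalIdeal R).map (algebraMap R S) with hmS
  by_cases h0 : maximalIdeal S ^ 2 ≤ mS
  · exact ⟨0, zero_mem _, 0, zero_mem _, h0.trans le_sup_right⟩
  have hpow : maximalIdeal S ^ lam ≤ mS :=
    maximalIdeal_pow_le_of_length_le _ lam (le_of_eq hlam)
  obtain ⟨e, he, f, hf, hef⟩ : ∃ e ∈ maximalIdeal S, ∃ f ∈ maximalIdeal S,
      e * f ∉ maximalIdeal S ^ 3 ⊔ mS := by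
    by_contra hcon
    apply h0
    have h23 : maximalIdeal S ^ 2 ≤ maximalIdeal S ^ 3 ⊔ mS := by
      rw [pow_two, Ideal.mul_le]
      intro e he f hf
      by_contra h
      exact hcon ⟨e, he, f, hf, h⟩
    have hiter : ∀ j : ℕ, maximalIdeal S ^ 2 ≤ maximalIdeal S ^ (2 + j) ⊔ mS := by
      intro j
      induction j with
      | zero => exact le_sup_left
      | succ j ih =>
        refine ih.trans (sup_le ?_ le_sup_right)
        calc maximalIdeal S ^ (2 + j) = maximalIdeal S ^ 2 * maximalIdeal S ^ j := pow_add _ _ _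
          _ ≤ (maximalIdeal S ^ 3 ⊔ mS) * maximalIdeal S ^ j := Ideal.mul_mono_left h23
          _ = maximalIdeal S ^ 3 * maximalIdeal S ^ j ⊔ mS * maximalIdeal S ^ j :=
              Ideal.sup_mul _ _ _
          _ ≤ maximalIdeal S ^ (2 + (j + 1)) ⊔ mS := by
              refine sup_le_sup ?_ Ideal.mul_le_left
              rw [← pow_add]
              exact le_of_eq (by congr 1; ring)
    exact (hiter lam).trans (sup_le ((Ideal.pow_le_pow_right (by omega)).trans hpow) le_rfl)
  refine ⟨e, he, f, hf, ?_⟩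
  have hefsq : e * f ∈ maximalIdeal S ^ 2 := by rw [pow_two]; exact Ideal.mul_mem_mul he hf
  obtain ⟨p, hp, q, hq, hpq⟩ := Submodule.mem_sup.mp (hsq hefsq)
  obtain ⟨u, rfl⟩ := Ideal.mem_span_singleton'.mp hp
  have hu : IsUnit u := by
    by_contra h
    have hun : u ∈ maximalIdeal S := (IsLocalRing.mem_maximalIdeal _).mpr h
    apply hef
    rw [← hpq]
    refine add_mem (Ideal.mem_sup_left ?_) (Ideal.mem_sup_right hq)
    rw [pow_succ' (maximalIdeal S) 2]
    exact Ideal.mul_mem_mul hun hg
  obtain ⟨w, rfl⟩ := hu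
  have hgmem : g ∈ Ideal.span {e * f} ⊔ mS := by
    have h1 : (↑w⁻¹ : S) * (w : S) = 1 := Units.inv_mul w
    have h2 : g = (↑w⁻¹ : S) * (e * f) + (-(↑w⁻¹ : S)) * q := by
      linear_combination (-g) * h1 + (↑w⁻¹ : S) * hpq
    rw [h2]
    exact add_mem (Ideal.mem_sup_left (Ideal.mul_mem_left _ _ (Ideal.mem_span_singleton_self _)))
      (Ideal.mem_sup_right (Ideal.mul_mem_left _ _ hq))
  exact hsq.trans (sup_le ((Ideal.span_singleton_le_iff_mem _).mpr hgmem) le_sup_right)

/-- **Lech's inequality when the cube of the maximal ideal of the closed fibre is zero and the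
fibre is long enough.**  If `n ^ 3 ≤ m S`, `n = (a 0, …, a (t - 1)) + m S` and
`2 ^ t ≤ ℓ(S / m S)`, then `e(R) ≤ e(S)`. -/
theorem lech_of_cube_le_of_two_pow_le
    (hcube : maximalIdeal S ^ 3 ≤ (maximalIdeal R).map (algebraMap R S))
    (t : ℕ) (a : Fin t → S)
    (hn : maximalIdeal S = Ideal.span (Set.range a) ⊔ (maximalIdeal R).map (algebraMap R S))
    (lam : ℕ) (hlam : Module.length S (S ⧸ (maximalIdeal R).map (algebraMap R S)) = lam)
    (h2 : 2 ^ t ≤ lam)
    (eR eS : ℝ)
    (heR : IsHilbertSamuelMultiplicity R eR) (heS : IsHilbertSamuelMultiplicity S eS) :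
    eR ≤ eS := by
  by_cases hp : ∃ a₀ : S, maximalIdeal S =
      Ideal.span {a₀} ⊔ (maximalIdeal R).map (algebraMap R S)
  · obtain ⟨a₀, ha₀⟩ := hp
    exact lech_of_principal_fibre a₀ ha₀ lam hlam eR eS heR heS
  have hnp : ∀ a₀ : S, maximalIdeal S ≠
      Ideal.span {a₀} ⊔ (maximalIdeal R).map (algebraMap R S) := fun a₀ ha₀ => hp ⟨a₀, ha₀⟩
  set mS := (maximalIdeal R).map (algebraMap R S) with hmS
  have hmSn : mS ≤ maximalIdeal S := map_maximalIdeal_le (algebraMap R S)
  have ha : ∀ j : Fin t, a j ∈ maximalIdeal S := by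
    intro j
    rw [hn]
    exact Ideal.mem_sup_left (Ideal.subset_span (Set.mem_range_self j))
  have hJn : (maximalIdeal S ^ 2 ⊔ mS) * maximalIdeal S ≤ mS := by
    rw [Ideal.sup_mul]
    refine sup_le ?_ Ideal.mul_le_left
    rw [← pow_succ]
    exact hcube
  have hn' : maximalIdeal S = (maximalIdeal S ^ 2 ⊔ mS) ⊔ Ideal.span (Set.range a) := by
    apply le_antisymm
    · rw [hn]
      exact sup_le le_sup_right (le_sup_of_le_left le_sup_right)
    · refine sup_le (sup_le (Ideal.pow_le_self (by norm_num)) hmSn) ?_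
      rw [Ideal.span_le]
      rintro _ ⟨j, rfl⟩
      exact ha j
  have main := lech_socle_chain_bound (R := R) (S := S) (maximalIdeal S ^ 2 ⊔ mS)
    (Or.inr ⟨hnp, le_sup_right, hJn⟩) t a (fun _ => 2) (fun _ => by norm_num)
    (fun j => Ideal.mem_sup_left (Ideal.mem_sup_left (Ideal.pow_mem_pow (ha j) 2)))
    hn' lam hlam eR eS heR heS
  refine main.2.2 ?_
  rw [Finset.prod_const, Finset.card_univ, Fintype.card_fin]
  exact_mod_cast h2

omit [IsNoetherianRing R] [IsNoetherianRing S] [IsLocalHom (algebraMap R S)]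
  [Module.Flat R S] [IsLocalRing R] [IsLocalRing S] in
/-- One strict inclusion of ideals raises a lower bound for the colength by one. -/
theorem succ_le_length_of_lt (I I' : Ideal S) (h : I < I') (j : ℕ)
    (hj : (j : ℕ∞) ≤ Module.length S (S ⧸ I')) :
    ((j + 1 : ℕ) : ℕ∞) ≤ Module.length S (S ⧸ I) := by
  push_cast
  exact (add_le_add hj le_rfl).trans (length_succ_le_of_lt I I' h)

/-- **Lech's inequality for closed fibres of length at most five whose maximal ideal has cube
zero.** -/
theorem lech_of_length_le_five_of_cube_le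
    (hcube : maximalIdeal S ^ 3 ≤ (maximalIdeal R).map (algebraMap R S))
    (lam : ℕ) (hlam : Module.length S (S ⧸ (maximalIdeal R).map (algebraMap R S)) = lam)
    (h5 : lam ≤ 5)
    (eR eS : ℝ)
    (heR : IsHilbertSamuelMultiplicity R eR) (heS : IsHilbertSamuelMultiplicity S eS) :
    eR ≤ eS := by
  by_cases h4 : lam ≤ 4
  · refine lech_of_length_le_four ?_ eR eS heR heS
    rw [hlam]
    exact_mod_cast h4
  by_cases h2 : ∃ a a' : S, maximalIdeal S =
      Ideal.span {a, a'} ⊔ (maximalIdeal R).map (algebraMap R S)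
  · obtain ⟨a, a', hn⟩ := h2
    refine lech_of_cube_le_of_two_pow_le hcube 2 ![a, a'] ?_ lam hlam (by omega) eR eS heR heS
    rw [hn]
    congr 2
    ext z
    simp only [Matrix.range_cons, Matrix.range_empty, Set.union_empty, Set.mem_insert_iff,
      Set.mem_singleton_iff, Set.mem_union]
  have hn2 : ∀ a a' : S, maximalIdeal S ≠
      Ideal.span {a, a'} ⊔ (maximalIdeal R).map (algebraMap R S) := fun a a' h => h2 ⟨a, a', h⟩
  set mS := (maximalIdeal R).map (algebraMap R S) with hmS
  have hmSn : mS ≤ maximalIdeal S := map_maximalIdeal_le (algebraMap R S)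
  -- Nakayama's lemma for the maximal ideal
  have nak : ∀ I₀ : Ideal S, maximalIdeal S ≤ I₀ ⊔ maximalIdeal S ^ 2 → maximalIdeal S ≤ I₀ := by
    intro I₀ h
    refine Submodule.le_of_le_smul_of_le_jacobson_bot (IsNoetherian.noetherian _)
      (IsLocalRing.maximalIdeal_le_jacobson ⊥) ?_
    rwa [smul_eq_mul, ← pow_two]
  have hnot2 : ∀ a a' : S, a ∈ maximalIdeal S → a' ∈ maximalIdeal S →
      ¬ maximalIdeal S ≤ Ideal.span {a, a'} ⊔ (maximalIdeal S ^ 2 ⊔ mS) := by
    intro a a' ha ha' h
    apply hn2 a a'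
    have hspan : Ideal.span {a, a'} ≤ maximalIdeal S := by
      rw [Ideal.span_le]
      intro z hz
      rcases hz with rfl | rfl
      · exact ha
      · exact ha'
    refine le_antisymm (nak _ ?_) (sup_le hspan hmSn)
    refine h.trans (le_of_eq ?_)
    rw [sup_assoc, sup_comm (maximalIdeal S ^ 2) mS]
  -- the square of the maximal ideal of the fibre is principal
  have hprin : ∃ g ∈ maximalIdeal S ^ 2, maximalIdeal S ^ 2 ≤ Ideal.span {g} ⊔ mS := by
    by_cases h0 : maximalIdeal S ^ 2 ≤ mS
    · exact ⟨0, zero_mem _, h0.trans le_sup_right⟩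
    obtain ⟨g, hg, hgm⟩ := SetLike.not_le_iff_exists.mp h0
    refine ⟨g, hg, ?_⟩
    by_contra hnot
    obtain ⟨g', hg', hg'm⟩ := SetLike.not_le_iff_exists.mp hnot
    obtain ⟨a, ha, ha0⟩ := SetLike.not_le_iff_exists.mp (hnot2 0 0 (zero_mem _) (zero_mem _))
    obtain ⟨a', ha', ha'0⟩ := SetLike.not_le_iff_exists.mp (hnot2 a 0 ha (zero_mem _))
    obtain ⟨a'', ha'', ha''0⟩ := SetLike.not_le_iff_exists.mp (hnot2 a a' ha ha')
    have hsqn : maximalIdeal S ^ 2 ≤ maximalIdeal S := Ideal.pow_le_self (by norm_num)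
    have hB0n : maximalIdeal S ^ 2 ⊔ mS ≤ maximalIdeal S := sup_le hsqn hmSn
    -- the strict chain
    have c7 : maximalIdeal S < ⊤ := lt_top_iff_ne_top.mpr (maximalIdeal.isMaximal S).ne_top
    have c6 : Ideal.span {a, a'} ⊔ (maximalIdeal S ^ 2 ⊔ mS) < maximalIdeal S := by
      have hspan : Ideal.span {a, a'} ≤ maximalIdeal S := by
        rw [Ideal.span_le]
        intro z hz
        rcases hz with rfl | rfl
        · exact ha
        · exact ha'
      refine lt_of_le_of_ne (sup_le hspan hB0n) fun h => ha''0 ?_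
      rw [h]
      exact ha''
    have c5 : Ideal.span {a, 0} ⊔ (maximalIdeal S ^ 2 ⊔ mS) <
        Ideal.span {a, a'} ⊔ (maximalIdeal S ^ 2 ⊔ mS) := by
      refine lt_of_le_of_ne (sup_le_sup_right ?_ _) fun h => ha'0 ?_
      · rw [Ideal.span_le]
        intro z hz
        rcases hz with rfl | rfl
        · exact Ideal.subset_span (by simp)
        · exact zero_mem _
      · rw [h]
        exact Ideal.mem_sup_left (Ideal.subset_span (by simp))
    have c4 : maximalIdeal S ^ 2 ⊔ mS < Ideal.span {a, 0} ⊔ (maximalIdeal S ^ 2 ⊔ mS) := by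
      refine lt_of_le_of_ne le_sup_right fun h => ha0 ?_
      refine Ideal.mem_sup_right ?_
      rw [h]
      exact Ideal.mem_sup_left (Ideal.subset_span (by simp))
    have c3 : Ideal.span {g'} ⊔ (Ideal.span {g} ⊔ mS) ≤ maximalIdeal S ^ 2 ⊔ mS :=
      sup_le ((Ideal.span_singleton_le_iff_mem _).mpr (Ideal.mem_sup_left hg'))
        (sup_le ((Ideal.span_singleton_le_iff_mem _).mpr (Ideal.mem_sup_left hg)) le_sup_right)
    have c2 : Ideal.span {g} ⊔ mS < Ideal.span {g'} ⊔ (Ideal.span {g} ⊔ mS) := by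
      refine lt_of_le_of_ne le_sup_right fun h => hg'm ?_
      rw [h]
      exact Ideal.mem_sup_left (Ideal.mem_span_singleton_self _)
    have c1 : mS < Ideal.span {g} ⊔ mS := by
      refine lt_of_le_of_ne le_sup_right fun h => hgm ?_
      rw [h]
      exact Ideal.mem_sup_left (Ideal.mem_span_singleton_self _)
    have l7 : ((0 : ℕ) : ℕ∞) ≤ Module.length S (S ⧸ (⊤ : Ideal S)) := by simp
    have l6 := succ_le_length_of_lt _ _ c7 0 l7
    have l5 := succ_le_length_of_lt _ _ c6 _ l6
    have l4 := succ_le_length_of_lt _ _ c5 _ l5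
    have l3 := succ_le_length_of_lt _ _ c4 _ l4
    have l3' : ((0 + 1 + 1 + 1 + 1 : ℕ) : ℕ∞) ≤
        Module.length S (S ⧸ (Ideal.span {g'} ⊔ (Ideal.span {g} ⊔ mS))) :=
      l3.trans (Module.length_le_of_surjective (Submodule.factor c3)
        (Submodule.factor_surjective _))
    have l2 := succ_le_length_of_lt _ _ c2 _ l3'
    have l1 := succ_le_length_of_lt _ _ c1 _ l2
    rw [hlam] at l1
    have : 0 + 1 + 1 + 1 + 1 + 1 + 1 ≤ lam := by exact_mod_cast l1
    omega
  obtain ⟨g, hg, hsq⟩ := hprin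
  obtain ⟨e, he, f, hf, hsq'⟩ := exists_mul_of_sq_principal (R := R) g hg hsq lam hlam
  exact lech_of_sq_principal e f he hf hsq' (Or.inl hcube) lam hlam eR eS heR heS

/-- **Lech's inequality for closed fibres of embedding dimension two with a product relation.**
If `n = (x, y) + m S`, and `a, b ∈ n` lie outside `n ^ 2 + m S`, `a * b ∈ m S`, `c * b ∈ m S`
for some `c` which is not a multiple of `a` modulo `m S`, and the closed fibre has finite
length, then `e(R) ≤ e(S)`. -/
theorem lech_of_two_generators_of_product (x y : S)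
    (hn : maximalIdeal S = Ideal.span {x, y} ⊔ (maximalIdeal R).map (algebraMap R S))
    (a b c : S) (ha : a ∈ maximalIdeal S) (hb : b ∈ maximalIdeal S)
    (ha2 : a ∉ maximalIdeal S ^ 2 ⊔ (maximalIdeal R).map (algebraMap R S))
    (hb2 : b ∉ maximalIdeal S ^ 2 ⊔ (maximalIdeal R).map (algebraMap R S))
    (hab : a * b ∈ (maximalIdeal R).map (algebraMap R S))
    (hcb : c * b ∈ (maximalIdeal R).map (algebraMap R S))
    (hind : ∀ s s' : S, s * c - s' * a ∈ (maximalIdeal R).map (algebraMap R S) →
      s ∈ maximalIdeal S)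
    (lam : ℕ) (hlam : Module.length S (S ⧸ (maximalIdeal R).map (algebraMap R S)) = lam)
    (eR eS : ℝ)
    (heR : IsHilbertSamuelMultiplicity R eR) (heS : IsHilbertSamuelMultiplicity S eS) :
    eR ≤ eS := by
  have habn := mul_mem_map_mul_of_indep a b c hab hcb hind
  set mS := (maximalIdeal R).map (algebraMap R S) with hmS
  have hmSn : mS ≤ maximalIdeal S := map_maximalIdeal_le (algebraMap R S)
  -- exchange: if `n = (u, v) + m S` and `w ∈ n` is outside `n ^ 2 + m S`, then
  -- `n = (w, v') + m S` for some `v' ∈ n`, or more precisely for `v' = u` or `v' = v`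
  have exch : ∀ u v w : S, maximalIdeal S = Ideal.span {u, v} ⊔ mS →
      w ∈ maximalIdeal S → w ∉ maximalIdeal S ^ 2 ⊔ mS →
      ∃ v' ∈ maximalIdeal S, maximalIdeal S = Ideal.span {w, v'} ⊔ mS := by
    intro u v w huv hw hw2
    have hu : u ∈ maximalIdeal S := by
      rw [huv]; exact Ideal.mem_sup_left (Ideal.subset_span (by simp))
    have hv : v ∈ maximalIdeal S := by
      rw [huv]; exact Ideal.mem_sup_left (Ideal.subset_span (by simp))
    have hw' := hw
    rw [huv] at hw'
    obtain ⟨p, hp, μ, hμ, hpμ⟩ := Submodule.mem_sup.mp hw'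
    obtain ⟨α, β, rfl⟩ := Ideal.mem_span_pair.mp hp
    have key : ∀ u₁ v₁ α₁ β₁ : S, u₁ ∈ maximalIdeal S → v₁ ∈ maximalIdeal S →
        maximalIdeal S ≤ Ideal.span {u₁, v₁} ⊔ mS → α₁ * u₁ + β₁ * v₁ + μ = w →
        α₁ ∉ maximalIdeal S →
        ∃ v' ∈ maximalIdeal S, maximalIdeal S = Ideal.span {w, v'} ⊔ mS := by
      intro u₁ v₁ α₁ β₁ hu₁ hv₁ hle hw₁ hα₁
      have hunit : IsUnit α₁ := by
        by_contra h
        exact hα₁ ((IsLocalRing.mem_maximalIdeal _).mpr h)
      obtain ⟨ε, rfl⟩ := hunit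
      refine ⟨v₁, hv₁, le_antisymm (hle.trans (sup_le ?_ le_sup_right)) (sup_le ?_ hmSn)⟩
      · rw [Ideal.span_le]
        intro z hz
        rcases hz with rfl | rfl
        · have h1 : (↑ε⁻¹ : S) * (ε : S) = 1 := Units.inv_mul ε
          have h2 : z = (↑ε⁻¹ : S) * w + (-(↑ε⁻¹ : S) * β₁) * v₁ + (-(↑ε⁻¹ : S)) * μ := by
            rw [← hw₁]
            linear_combination (-z) * h1
          rw [h2]
          exact add_mem (Ideal.mem_sup_left (add_mem
            (Ideal.mul_mem_left _ _ (Ideal.subset_span (by simp)))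
            (Ideal.mul_mem_left _ _ (Ideal.subset_span (by simp)))))
            (Ideal.mem_sup_right (Ideal.mul_mem_left _ _ hμ))
        · exact Ideal.mem_sup_left (Ideal.subset_span (by simp))
      · rw [Ideal.span_le]
        intro z hz
        rcases hz with rfl | rfl
        · exact hw
        · exact hv₁
    by_cases hα : α ∈ maximalIdeal S
    · by_cases hβ : β ∈ maximalIdeal S
      · exfalso
        apply hw2
        rw [← hpμ]
        refine add_mem (Ideal.mem_sup_left ?_) (Ideal.mem_sup_right hμ)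
        rw [pow_two]
        exact add_mem (Ideal.mul_mem_mul hα hu) (Ideal.mul_mem_mul hβ hv)
      · refine key v u β α hv hu ?_ ?_ hβ
        · rw [huv, Set.pair_comm]
        · rw [← hpμ]; ring
    · exact key u v α β hu hv (le_of_eq huv) hpμ hα
  obtain ⟨y', hy', hn'⟩ := exch x y a hn ha ha2
  have hb' := hb
  rw [hn'] at hb'
  obtain ⟨p, hp, μ, hμ, hpμ⟩ := Submodule.mem_sup.mp hb'
  obtain ⟨α, β, rfl⟩ := Ideal.mem_span_pair.mp hp
  by_cases hβ : β ∈ maximalIdeal S
  · -- `b` is proportional to `a` modulo `n ^ 2 + m S`: then `y'` generates a reduction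
    have hα : α ∉ maximalIdeal S := by
      intro hα
      apply hb2
      rw [← hpμ]
      refine add_mem (Ideal.mem_sup_left ?_) (Ideal.mem_sup_right hμ)
      rw [pow_two]
      exact add_mem (Ideal.mul_mem_mul hα ha) (Ideal.mul_mem_mul hβ hy')
    have hunit : IsUnit α := by
      by_contra h
      exact hα ((IsLocalRing.mem_maximalIdeal _).mpr h)
    obtain ⟨ε, rfl⟩ := hunit
    have hle : mS * maximalIdeal S ≤ (Ideal.span {y'} ⊔ mS) * maximalIdeal S :=
      Ideal.mul_mono_left le_sup_right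
    have hy'T : ∀ v ∈ maximalIdeal S, y' * v ∈ (Ideal.span {y'} ⊔ mS) * maximalIdeal S :=
      fun v hv => Ideal.mul_mem_mul (Ideal.mem_sup_left (Ideal.mem_span_singleton_self _)) hv
    have hμT : ∀ μ' ∈ mS, ∀ v ∈ maximalIdeal S,
        μ' * v ∈ (Ideal.span {y'} ⊔ mS) * maximalIdeal S :=
      fun μ' hμ' v hv => hle (Ideal.mul_mem_mul hμ' hv)
    have hasq : a * a ∈ (Ideal.span {y'} ⊔ mS) * maximalIdeal S := by
      have h1 : (↑ε⁻¹ : S) * (ε : S) = 1 := Units.inv_mul ε
      have h2 : a * a = (↑ε⁻¹ : S) * (a * b) + (-(↑ε⁻¹ : S)) * (y' * (β * a))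
          + (-(↑ε⁻¹ : S)) * (μ * a) := by
        rw [← hpμ]
        linear_combination (-(a * a)) * h1
      rw [h2]
      exact add_mem (add_mem (Ideal.mul_mem_left _ _ (hle habn))
        (Ideal.mul_mem_left _ _ (hy'T _ (Ideal.mul_mem_left _ _ ha))))
        (Ideal.mul_mem_left _ _ (hμT μ hμ a ha))
    have haT : ∀ v ∈ maximalIdeal S, a * v ∈ (Ideal.span {y'} ⊔ mS) * maximalIdeal S := by
      intro v hv
      rw [hn'] at hv
      obtain ⟨p', hp', μ', hμ', rfl⟩ := Submodule.mem_sup.mp hv
      obtain ⟨α', β', rfl⟩ := Ideal.mem_span_pair.mp hp'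
      have h3 : a * (α' * a + β' * y' + μ') = α' * (a * a) + β' * (y' * a) + μ' * a := by ring
      rw [h3]
      exact add_mem (add_mem (Ideal.mul_mem_left _ _ hasq)
        (Ideal.mul_mem_left _ _ (hy'T a ha))) (hμT μ' hμ' a ha)
    have hred : maximalIdeal S ^ 2 ≤ (Ideal.span {y'} ⊔ mS) * maximalIdeal S := by
      rw [pow_two, Ideal.mul_le]
      intro u hu v hv
      rw [hn'] at hu
      obtain ⟨p', hp', μ', hμ', rfl⟩ := Submodule.mem_sup.mp hu
      obtain ⟨α', β', rfl⟩ := Ideal.mem_span_pair.mp hp'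
      have h3 : (α' * a + β' * y' + μ') * v = α' * (a * v) + β' * (y' * v) + μ' * v := by ring
      rw [h3]
      exact add_mem (add_mem (Ideal.mul_mem_left _ _ (haT v hv))
        (Ideal.mul_mem_left _ _ (hy'T v hv))) (hμT μ' hμ' v hv)
    exact lech_of_principal_reduction y' hy' hred lam hlam eR eS heR heS
  · -- `a` and `b` generate the maximal ideal of the fibre
    have hunit : IsUnit β := by
      by_contra h
      exact hβ ((IsLocalRing.mem_maximalIdeal _).mpr h)
    obtain ⟨ε, rfl⟩ := hunit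
    have hnab : maximalIdeal S = Ideal.span (Set.range ![a, b]) ⊔ mS := by
      have hrange : Set.range ![a, b] = {a, b} := by
        ext z
        simp only [Matrix.range_cons, Matrix.range_empty, Set.union_empty, Set.mem_insert_iff,
          Set.mem_singleton_iff, Set.mem_union]
      rw [hrange]
      refine le_antisymm ?_ (sup_le ?_ hmSn)
      · rw [hn']
        refine sup_le ?_ le_sup_right
        rw [Ideal.span_le]
        intro z hz
        rcases hz with rfl | rfl
        · exact Ideal.mem_sup_left (Ideal.subset_span (by simp))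
        · have h1 : (↑ε⁻¹ : S) * (ε : S) = 1 := Units.inv_mul ε
          have h2 : z = (-(↑ε⁻¹ : S) * α) * a + (↑ε⁻¹ : S) * b + (-(↑ε⁻¹ : S)) * μ := by
            rw [← hpμ]
            linear_combination (-z) * h1
          rw [h2]
          exact add_mem (Ideal.mem_sup_left (add_mem
            (Ideal.mul_mem_left _ _ (Ideal.subset_span (by simp)))
            (Ideal.mul_mem_left _ _ (Ideal.subset_span (by simp)))))
            (Ideal.mem_sup_right (Ideal.mul_mem_left _ _ hμ))
      · rw [Ideal.span_le]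
        intro z hz
        rcases hz with rfl | rfl
        · exact ha
        · exact hb
    refine lech_of_pairwise_products 2 ![a, b] hnab (fun i j hij => ?_) lam hlam eR eS heR heS
    fin_cases i <;> fin_cases j
    · exact absurd rfl hij
    · exact habn
    · have h : b * a ∈ mS * maximalIdeal S := by
        rw [mul_comm b a]
        exact habn
      exact h
    · exact absurd rfl hij

/-- **Classes of closed fibres of finite length for which Lech's inequality holds.** -/
theorem lech_of_fibre_classes (L : Type*) [Field L] (r k : ℕ)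
    (lam : ℕ) (hlam : Module.length S (S ⧸ (maximalIdeal R).map (algebraMap R S)) = lam)
    (h :
      lam ≤ 4 ∨
      (lam ≤ 5 ∧ maximalIdeal S ^ 3 ≤ (maximalIdeal R).map (algebraMap R S)) ∨
      (∃ g ∈ maximalIdeal S ^ 2,
        maximalIdeal S ^ 2 ≤ Ideal.span {g} ⊔ (maximalIdeal R).map (algebraMap R S) ∧
        (maximalIdeal S ^ 3 ≤ (maximalIdeal R).map (algebraMap R S) ∨
          ∀ a a' : S, maximalIdeal S ≠
            Ideal.span {a, a'} ⊔ (maximalIdeal R).map (algebraMap R S))) ∨
      (∃ (t : ℕ) (y : Fin t → S), 3 ≤ t ∧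
        maximalIdeal S = Ideal.span (Set.range y) ⊔ (maximalIdeal R).map (algebraMap R S) ∧
        (∀ i j : Fin t, i ≠ j → y i * y j ∈ (maximalIdeal R).map (algebraMap R S)) ∧
        (∀ i j : Fin t, i ≠ j → ∀ s s' : S,
          s * y i - s' * y j ∈ (maximalIdeal R).map (algebraMap R S) → s ∈ maximalIdeal S)) ∨
      (∃ a ∈ maximalIdeal S, maximalIdeal S ^ 2 ≤
        (Ideal.span {a} ⊔ (maximalIdeal R).map (algebraMap R S)) * maximalIdeal S) ∨
      (∃ J : Ideal S,
        (∀ x : S, x ∈ J ↔
          ∀ y ∈ maximalIdeal S, x * y ∈ (maximalIdeal R).map (algebraMap R S)) ∧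
        (Module.length S (S ⧸ J) ≤ 3 ∨ ∃ a : S, maximalIdeal S = Ideal.span {a} ⊔ J)) ∨
      (2 ≤ r ∧ Nonempty ((S ⧸ (maximalIdeal R).map (algebraMap R S)) ≃+*
        (MvPolynomial (Fin r) L ⧸ MvPolynomial.idealOfVars (Fin r) L ^ k))) ∨
      (maximalIdeal S ^ 3 ≤ (maximalIdeal R).map (algebraMap R S) ∧
        ∃ (t : ℕ) (a : Fin t → S),
          maximalIdeal S = Ideal.span (Set.range a) ⊔ (maximalIdeal R).map (algebraMap R S) ∧
          2 ^ t ≤ lam) ∨
      (∃ x y a b c : S,
        maximalIdeal S = Ideal.span {x, y} ⊔ (maximalIdeal R).map (algebraMap R S) ∧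
        a ∈ maximalIdeal S ∧ b ∈ maximalIdeal S ∧
        a ∉ maximalIdeal S ^ 2 ⊔ (maximalIdeal R).map (algebraMap R S) ∧
        b ∉ maximalIdeal S ^ 2 ⊔ (maximalIdeal R).map (algebraMap R S) ∧
        a * b ∈ (maximalIdeal R).map (algebraMap R S) ∧
        c * b ∈ (maximalIdeal R).map (algebraMap R S) ∧
        ∀ s s' : S, s * c - s' * a ∈ (maximalIdeal R).map (algebraMap R S) →
          s ∈ maximalIdeal S))
    (eR eS : ℝ)
    (heR : IsHilbertSamuelMultiplicity R eR) (heS : IsHilbertSamuelMultiplicity S eS) :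
    eR ≤ eS := by
  rcases h with h4 | ⟨h5, hcube⟩ | ⟨g, hg, hsq, h⟩ | ⟨t, y, ht, hn, horth, hind⟩ | ⟨a, ha, hred⟩ |
    ⟨J, hJ, h⟩ | ⟨hr, ⟨iso⟩⟩ | ⟨hcube, t, a, hn, h2⟩ |
    ⟨x, y, a, b, c, hn, ha, hb, ha2, hb2, hab, hcb, hind⟩
  · refine lech_of_length_le_four ?_ eR eS heR heS
    rw [hlam]
    exact_mod_cast h4
  · exact lech_of_length_le_five_of_cube_le hcube lam hlam h5 eR eS heR heS
  · obtain ⟨e, he, f, hf, hsq'⟩ := exists_mul_of_sq_principal (R := R) g hg hsq lam hlam
    exact lech_of_sq_principal e f he hf hsq' h lam hlam eR eS heR heS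
  · exact lech_of_orthogonal_generators t ht y hn horth hind lam hlam eR eS heR heS
  · exact lech_of_principal_reduction a ha hred lam hlam eR eS heR heS
  · exact lech_of_socle_quotient lam hlam J hJ h eR eS heR heS
  · exact (lech_of_fatPoint_fibre r k hr iso eR eS heR heS).2.1
  · exact lech_of_cube_le_of_two_pow_le hcube t a hn lam hlam h2 eR eS heR heS
  · exact lech_of_two_generators_of_product x y hn a b c ha hb ha2 hb2 hab hcb hind lam hlam
      eR eS heR heS

end Flat

end Vale.Agent.H54
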