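import Mathlib

/-!
# Lorentz normal form of a rank-three symmetric matrix, adapted to a kernel vector

Let `S` be a real symmetric matrix of rank three whose quadratic form is positive at a vector `e`
and nonpositive on the hyperplane orthogonal to `e` (with respect to `S`), and let `a` be a
nonzero kernel vector.  Then, in suitable coordinates `c = L x` with `L a` the first basis vector,
the quadratic form is `c₂ c₃ - c₁²`.
-/

namespace Vale.Agent.H54

open Module

section Abstract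

variable {V : Type*} [AddCommGroup V] [Module ℝ V]

/-- For a symmetric form that is nonpositive on the hyperplane orthogonal to a positive vector,
an isotropic vector of that hyperplane lies in the radical. -/
theorem lnf_radical (B : V →ₗ[ℝ] V →ₗ[ℝ] ℝ) (hsymm : ∀ u v, B u v = B v u) (e : V)
    (hQ : 0 < B e e) (hneg : ∀ v, B e v = 0 → B v v ≤ 0) (w : V) (hw : B e w = 0)
    (hww : B w w = 0) (y : V) : B w y = 0 := by
  have hQ0 : B e e ≠ 0 := hQ.ne'
  have hwe : B w e = 0 := by rw [hsymm]; exact hw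
  obtain ⟨y', hy', hey'⟩ : ∃ y' : V, y' = y - (B e y / B e e) • e ∧ B e y' = 0 := by
    refine ⟨_, rfl, ?_⟩
    simp only [map_sub, map_smul, smul_eq_mul]
    field_simp
    ring
  have hwy : B w y = B w y' := by
    rw [hy']
    simp only [map_sub, map_smul, smul_eq_mul, hwe, mul_zero, sub_zero]
  rw [hwy]
  have hc0 : B y' y' ≤ 0 := hneg y' hey'
  have hv : B e ((1 - B y' y') • w + B w y' • y') = 0 := by
    simp only [map_add, map_smul, smul_eq_mul, hw, hey', mul_zero, add_zero]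
  have h1 := hneg _ hv
  have h2 : B ((1 - B y' y') • w + B w y' • y') ((1 - B y' y') • w + B w y' • y') =
      B w y' ^ 2 * (2 - B y' y') := by
    simp only [map_add, map_smul, smul_eq_mul, LinearMap.add_apply, LinearMap.smul_apply]
    rw [hww, hsymm y' w]
    ring
  rw [h2] at h1
  have h3 : B w y' ^ 2 ≤ 0 := by nlinarith [sq_nonneg (B w y')]
  have h4 : B w y' ^ 2 = 0 := le_antisymm h3 (sq_nonneg _)
  exact pow_eq_zero_iff (two_ne_zero) |>.mp h4

/-- A vector of negative square can be normalised to square `-1`. -/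
theorem lnf_normalise (B : V →ₗ[ℝ] V →ₗ[ℝ] ℝ) (w : V) (hw : B w w < 0) :
    ∃ g : V, (∃ t : ℝ, g = t • w) ∧ B g g = -1 := by
  obtain ⟨s, hs0, hsq⟩ : ∃ s : ℝ, s ≠ 0 ∧ B w w = -(s * s) := by
    refine ⟨Real.sqrt (-(B w w)), (Real.sqrt_pos.mpr (by linarith)).ne', ?_⟩
    rw [Real.mul_self_sqrt (by linarith)]
    ring
  refine ⟨(1 / s) • w, ⟨_, rfl⟩, ?_⟩
  simp only [map_smul, LinearMap.smul_apply, smul_eq_mul]
  rw [hsq]
  field_simp

/-- The frame `f, g₁, g₂` and the description of the radical. -/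
theorem lnf_frame [FiniteDimensional ℝ V] (k : ℕ) (hV : finrank ℝ V = k + 4)
    (B : V →ₗ[ℝ] V →ₗ[ℝ] ℝ) (hsymm : ∀ u v, B u v = B v u)
    (K : Submodule ℝ V) (hK : ∀ w, w ∈ K ↔ ∀ y, B w y = 0) (hKrank : finrank ℝ K = k + 1)
    (e : V) (hQ : 0 < B e e) (hneg : ∀ v, B e v = 0 → B v v ≤ 0) :
    ∃ f g1 g2 : V, e = Real.sqrt (B e e) • f ∧ B f f = 1 ∧ B g1 g1 = -1 ∧ B g2 g2 = -1 ∧
      B f g1 = 0 ∧ B f g2 = 0 ∧ B g1 g2 = 0 ∧
      ∀ w, B f w = 0 → B g1 w = 0 → B g2 w = 0 → w ∈ K := by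
  have hcs := fun w hw hww y => lnf_radical B hsymm e hQ hneg w hw hww y
  have hR1 : finrank ℝ ℝ = 1 := Module.finrank_self ℝ
  -- the first negative vector
  obtain ⟨w1, hw1e, hw1K⟩ : ∃ w, B e w = 0 ∧ w ∉ K := by
    by_contra hcon
    have hle : LinearMap.ker (B e) ≤ K := by
      intro w hw
      by_contra hwK
      exact hcon ⟨w, LinearMap.mem_ker.mp hw, hwK⟩
    have h1 := Submodule.finrank_mono hle
    have h2 := LinearMap.finrank_range_add_finrank_ker (B e)
    have h3 : finrank ℝ (LinearMap.range (B e)) ≤ 1 := by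
      have := Submodule.finrank_le (LinearMap.range (B e))
      rw [hR1] at this
      exact this
    omega
  have hw1neg : B w1 w1 < 0 := by
    rcases lt_or_eq_of_le (hneg w1 hw1e) with h | h
    · exact h
    · exact absurd ((hK w1).mpr (hcs w1 hw1e h)) hw1K
  obtain ⟨g1, ⟨t1, ht1⟩, hg1g1⟩ := lnf_normalise B w1 hw1neg
  have heg1 : B e g1 = 0 := by
    rw [ht1]; simp only [map_smul, smul_eq_mul, hw1e, mul_zero]
  -- the second negative vector
  obtain ⟨w2, hw2e, hw2g, hw2K⟩ : ∃ w, B e w = 0 ∧ B g1 w = 0 ∧ w ∉ K := by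
    by_contra hcon
    have hle : LinearMap.ker ((B e).prod (B g1)) ≤ K := by
      intro w hw
      by_contra hwK
      have hw' : (B e w, B g1 w) = 0 := LinearMap.mem_ker.mp hw
      rw [Prod.mk_eq_zero] at hw'
      exact hcon ⟨w, hw'.1, hw'.2, hwK⟩
    have h1 := Submodule.finrank_mono hle
    have h2 := LinearMap.finrank_range_add_finrank_ker ((B e).prod (B g1))
    have h3 : finrank ℝ (LinearMap.range ((B e).prod (B g1))) ≤ 2 := by
      have := Submodule.finrank_le (LinearMap.range ((B e).prod (B g1)))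
      rw [Module.finrank_prod, hR1] at this
      exact this
    omega
  have hw2neg : B w2 w2 < 0 := by
    rcases lt_or_eq_of_le (hneg w2 hw2e) with h | h
    · exact h
    · exact absurd ((hK w2).mpr (hcs w2 hw2e h)) hw2K
  obtain ⟨g2, ⟨t2, ht2⟩, hg2g2⟩ := lnf_normalise B w2 hw2neg
  have heg2 : B e g2 = 0 := by
    rw [ht2]; simp only [map_smul, smul_eq_mul, hw2e, mul_zero]
  have hg1g2 : B g1 g2 = 0 := by
    rw [ht2]; simp only [map_smul, smul_eq_mul, hw2g, mul_zero]
  -- the positive vector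
  have hs : 0 < Real.sqrt (B e e) := Real.sqrt_pos.mpr hQ
  have hss : Real.sqrt (B e e) * Real.sqrt (B e e) = B e e := Real.mul_self_sqrt hQ.le
  have hsne : Real.sqrt (B e e) ≠ 0 := hs.ne'
  obtain ⟨f, hf⟩ : ∃ f : V, f = (1 / Real.sqrt (B e e)) • e := ⟨_, rfl⟩
  have hef : e = Real.sqrt (B e e) • f := by
    rw [hf, smul_smul, mul_one_div_cancel hsne, one_smul]
  have hff : B f f = 1 := by
    rw [hf]
    simp only [map_smul, LinearMap.smul_apply, smul_eq_mul]
    have h1 : 1 / Real.sqrt (B e e) * (1 / Real.sqrt (B e e) * B e e) =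
        B e e / (Real.sqrt (B e e) * Real.sqrt (B e e)) := by
      field_simp
    rw [h1, hss, div_self hQ.ne']
  have hfg1 : B f g1 = 0 := by
    rw [hf]; simp only [map_smul, LinearMap.smul_apply, smul_eq_mul, heg1, mul_zero]
  have hfg2 : B f g2 = 0 := by
    rw [hf]; simp only [map_smul, LinearMap.smul_apply, smul_eq_mul, heg2, mul_zero]
  have hg1f : B g1 f = 0 := by rw [hsymm]; exact hfg1
  have hg2f : B g2 f = 0 := by rw [hsymm]; exact hfg2
  have hg2g1 : B g2 g1 = 0 := by rw [hsymm]; exact hg1g2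
  refine ⟨f, g1, g2, hef, hff, hg1g1, hg2g2, hfg1, hfg2, hg1g2, ?_⟩
  -- the radical is the common kernel
  set Φ : V →ₗ[ℝ] ℝ × ℝ × ℝ := (B f).prod ((B g1).prod (B g2)) with hΦ
  have hΦapp : ∀ x, Φ x = (B f x, B g1 x, B g2 x) := fun x => rfl
  have hsurj : Function.Surjective Φ := by
    rintro ⟨t, s1, s2⟩
    refine ⟨t • f - s1 • g1 - s2 • g2, ?_⟩
    rw [hΦapp]
    simp only [map_sub, map_smul, smul_eq_mul, hff, hfg1,
      hfg2, hg1f, hg1g1, hg1g2, hg2f, hg2g1, hg2g2, Prod.mk.injEq]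
    refine ⟨by ring, by ring, by ring⟩
  have hker : finrank ℝ (LinearMap.ker Φ) = k + 1 := by
    have h2 := LinearMap.finrank_range_add_finrank_ker Φ
    rw [LinearMap.range_eq_top.mpr hsurj, finrank_top, Module.finrank_prod, Module.finrank_prod,
      hR1] at h2
    omega
  have hle : K ≤ LinearMap.ker Φ := by
    intro w hw
    have h0 : ∀ u, B u w = 0 := fun u => by rw [hsymm]; exact (hK w).mp hw u
    rw [LinearMap.mem_ker, hΦapp]
    simp only [h0, Prod.mk_eq_zero, and_self]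
  have hKeq : K = LinearMap.ker Φ := Submodule.eq_of_le_of_finrank_eq hle (by omega)
  intro w h1 h2 h3
  rw [hKeq, LinearMap.mem_ker, hΦapp]
  simp only [h1, h2, h3, Prod.mk_eq_zero, and_self]

/-- **Abstract Lorentz normal form**: a basis adapted to a radical vector `a`. -/
theorem lnf_abstract [FiniteDimensional ℝ V] (k : ℕ) (hV : finrank ℝ V = k + 4)
    (B : V →ₗ[ℝ] V →ₗ[ℝ] ℝ) (hsymm : ∀ u v, B u v = B v u)
    (K : Submodule ℝ V) (hK : ∀ w, w ∈ K ↔ ∀ y, B w y = 0) (hKrank : finrank ℝ K = k + 1)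
    (a e : V) (ha : a ≠ 0) (haK : a ∈ K) (hQ : 0 < B e e)
    (hneg : ∀ v, B e v = 0 → B v v ≤ 0) :
    ∃ b : Basis (Fin (k + 4)) ℝ V, b 0 = a ∧ 0 < b.repr e 2 ∧
      ∀ x, B x x = b.repr x 2 * b.repr x 3 - b.repr x 1 ^ 2 := by
  obtain ⟨f, g1, g2, hef, hff, hg1g1, hg2g2, hfg1, hfg2, hg1g2, hKmem⟩ :=
    lnf_frame k hV B hsymm K hK hKrank e hQ hneg
  have hg1f : B g1 f = 0 := by rw [hsymm]; exact hfg1
  have hg2f : B g2 f = 0 := by rw [hsymm]; exact hfg2
  have hg2g1 : B g2 g1 = 0 := by rw [hsymm]; exact hg1g2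
  have hK0 : ∀ w ∈ K, ∀ u, B u w = 0 := fun w hw u => by rw [hsymm]; exact (hK w).mp hw u
  have ha0 := hK0 a haK
  -- the quadratic form in terms of the frame
  have hquad : ∀ x, B x x = B f x ^ 2 - B g1 x ^ 2 - B g2 x ^ 2 := by
    intro x
    have hw : x - B f x • f + B g1 x • g1 + B g2 x • g2 ∈ K := by
      apply hKmem
      · simp only [map_add, map_sub, map_smul, smul_eq_mul, hff, hfg1, hfg2]; ring
      · simp only [map_add, map_sub, map_smul, smul_eq_mul, hg1f, hg1g1, hg1g2]; ring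
      · simp only [map_add, map_sub, map_smul, smul_eq_mul, hg2f, hg2g1, hg2g2]; ring
    have h0 := (hK _).mp hw x
    simp only [map_add, map_sub, map_smul, smul_eq_mul, LinearMap.add_apply, LinearMap.sub_apply,
      LinearMap.smul_apply] at h0
    linear_combination h0
  -- a functional that does not vanish at `a`
  obtain ⟨φ, hφ⟩ : ∃ φ : Module.Dual ℝ V, φ a ≠ 0 := by
    by_contra h
    exact ha ((Module.forall_dual_apply_eq_zero_iff ℝ a).mp fun φ => by
      by_contra hφ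
      exact h ⟨φ, hφ⟩)
  -- the complement of `a` in the radical
  set Ψ : V →ₗ[ℝ] ℝ × ℝ × ℝ × ℝ := φ.prod ((B f).prod ((B g1).prod (B g2))) with hΨ
  have hΨapp : ∀ x, Ψ x = (φ x, B f x, B g1 x, B g2 x) := fun x => rfl
  have hsurj : Function.Surjective Ψ := by
    rintro ⟨p, t, s1, s2⟩
    refine ⟨(t • f - s1 • g1 - s2 • g2) + ((p - φ (t • f - s1 • g1 - s2 • g2)) / φ a) • a, ?_⟩
    rw [hΨapp]
    simp only [map_add, map_sub, map_smul, smul_eq_mul, hff, hfg1, hfg2, hg1f, hg1g1, hg1g2,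
      hg2f, hg2g1, hg2g2, ha0, Prod.mk.injEq]
    refine ⟨by field_simp; ring, by ring, by ring, by ring⟩
  have hker : finrank ℝ (LinearMap.ker Ψ) = k := by
    have h2 := LinearMap.finrank_range_add_finrank_ker Ψ
    rw [LinearMap.range_eq_top.mpr hsurj, finrank_top, Module.finrank_prod, Module.finrank_prod,
      Module.finrank_prod, Module.finrank_self] at h2
    omega
  obtain ⟨r⟩ : Nonempty (Basis (Fin k) ℝ (LinearMap.ker Ψ)) :=
    ⟨Module.finBasisOfFinrankEq ℝ _ hker⟩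
  have hrΨ : ∀ j, (φ (r j : V), B f (r j : V), B g1 (r j : V), B g2 (r j : V)) = 0 :=
    fun j => LinearMap.mem_ker.mp (r j).2
  have hrφ : ∀ j, φ (r j : V) = 0 := fun j => (Prod.mk_eq_zero.mp (hrΨ j)).1
  have hrf : ∀ j, B f (r j : V) = 0 := fun j =>
    (Prod.mk_eq_zero.mp (Prod.mk_eq_zero.mp (hrΨ j)).2).1
  have hrg1 : ∀ j, B g1 (r j : V) = 0 := fun j =>
    (Prod.mk_eq_zero.mp (Prod.mk_eq_zero.mp (Prod.mk_eq_zero.mp (hrΨ j)).2).2).1
  have hrg2 : ∀ j, B g2 (r j : V) = 0 := fun j =>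
    (Prod.mk_eq_zero.mp (Prod.mk_eq_zero.mp (Prod.mk_eq_zero.mp (hrΨ j)).2).2).2
  have hrli : LinearIndependent ℝ (fun j => (r j : V)) :=
    r.linearIndependent.map' (LinearMap.ker Ψ).subtype (Submodule.ker_subtype _)
  -- the two isotropic vectors
  obtain ⟨h2, hh2⟩ : ∃ h2 : V, h2 = (1 / 2 : ℝ) • (f + g2) := ⟨_, rfl⟩
  obtain ⟨h3, hh3⟩ : ∃ h3 : V, h3 = (1 / 2 : ℝ) • (f - g2) := ⟨_, rfl⟩
  have e1 : B f h2 = 1 / 2 := by
    rw [hh2]; simp only [map_add, map_smul, smul_eq_mul, hff, hfg2]; ring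
  have e2 : B f h3 = 1 / 2 := by
    rw [hh3]; simp only [map_sub, map_smul, smul_eq_mul, hff, hfg2]; ring
  have e3 : B g1 h2 = 0 := by
    rw [hh2]; simp only [map_add, map_smul, smul_eq_mul, hg1f, hg1g2]; ring
  have e4 : B g1 h3 = 0 := by
    rw [hh3]; simp only [map_sub, map_smul, smul_eq_mul, hg1f, hg1g2]; ring
  have e5 : B g2 h2 = -(1 / 2) := by
    rw [hh2]; simp only [map_add, map_smul, smul_eq_mul, hg2f, hg2g2]; ring
  have e6 : B g2 h3 = 1 / 2 := by
    rw [hh3]; simp only [map_sub, map_smul, smul_eq_mul, hg2f, hg2g2]; ring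
  -- the family
  obtain ⟨v, hv⟩ : ∃ v : Fin (k + 4) → V,
      v = Fin.cons a (Fin.cons g1 (Fin.cons h2 (Fin.cons h3 (fun j => (r j : V))))) := ⟨_, rfl⟩
  have hexp : ∀ c : Fin (k + 4) → ℝ, ∑ i, c i • v i =
      c 0 • a + (c 1 • g1 + (c 2 • h2 + (c 3 • h3 +
        ∑ j : Fin k, c j.succ.succ.succ.succ • (r j : V)))) := by
    intro c
    rw [Fin.sum_univ_succ, Fin.sum_univ_succ, Fin.sum_univ_succ, Fin.sum_univ_succ, hv]
    rfl
  have hli : LinearIndependent ℝ v := by
    rw [Fintype.linearIndependent_iff]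
    intro c hc
    rw [hexp c] at hc
    have c1 : c 1 = 0 := by
      have h := congrArg (B g1) hc
      simp only [map_add, map_smul, map_sum, smul_eq_mul, ha0, hg1g1, e3, e4, hrg1, mul_zero,
        Finset.sum_const_zero, add_zero, zero_add, map_zero] at h
      linarith
    have c23 : c 2 = 0 ∧ c 3 = 0 := by
      have hA := congrArg (B f) hc
      have hB := congrArg (B g2) hc
      simp only [map_add, map_smul, map_sum, smul_eq_mul, ha0, hfg1, e1, e2, hrf, mul_zero,
        Finset.sum_const_zero, add_zero, zero_add, map_zero] at hA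
      simp only [map_add, map_smul, map_sum, smul_eq_mul, ha0, hg2g1, e5, e6, hrg2, mul_zero,
        Finset.sum_const_zero, add_zero, zero_add, map_zero] at hB
      constructor <;> linarith
    have c0 : c 0 = 0 := by
      have h := congrArg φ hc
      rw [c1, c23.1, c23.2] at h
      simp only [map_add, map_smul, map_sum, smul_eq_mul, hrφ, mul_zero,
        Finset.sum_const_zero, add_zero, zero_add, map_zero, zero_smul] at h
      rcases mul_eq_zero.mp h with h' | h'
      · exact h'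
      · exact absurd h' hφ
    have crest : ∀ j : Fin k, c j.succ.succ.succ.succ = 0 := by
      rw [c0, c1, c23.1, c23.2] at hc
      simp only [zero_smul, zero_add] at hc
      exact Fintype.linearIndependent_iff.mp hrli (fun j => c j.succ.succ.succ.succ) hc
    intro i
    refine Fin.cases ?_ (fun i => ?_) i
    · exact c0
    · refine Fin.cases ?_ (fun i => ?_) i
      · exact c1
      · refine Fin.cases ?_ (fun i => ?_) i
        · exact c23.1
        · refine Fin.cases ?_ (fun i => ?_) i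
          · exact c23.2
          · exact crest i
  have hcard : Fintype.card (Fin (k + 4)) = finrank ℝ V := by rw [Fintype.card_fin, hV]
  obtain ⟨b, hbv⟩ : ∃ b : Basis (Fin (k + 4)) ℝ V, ⇑b = v :=
    ⟨basisOfLinearIndependentOfCardEqFinrank hli hcard,
      coe_basisOfLinearIndependentOfCardEqFinrank hli hcard⟩
  -- the coordinates of the three pairings
  have hcoord : ∀ x, B f x = b.repr x 2 / 2 + b.repr x 3 / 2 ∧ B g1 x = -b.repr x 1 ∧
      B g2 x = -b.repr x 2 / 2 + b.repr x 3 / 2 := by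
    intro x
    have hx : x = ∑ i, b.repr x i • v i := by
      conv_lhs => rw [← b.sum_repr x]
      rw [hbv]
    rw [hexp (fun i => b.repr x i)] at hx
    refine ⟨?_, ?_, ?_⟩
    · conv_lhs => rw [hx]
      simp only [map_add, map_smul, map_sum, smul_eq_mul, ha0, hfg1, e1, e2, hrf, mul_zero,
        Finset.sum_const_zero, add_zero, zero_add]
      ring
    · conv_lhs => rw [hx]
      simp only [map_add, map_smul, map_sum, smul_eq_mul, ha0, hg1g1, e3, e4, hrg1, mul_zero,
        Finset.sum_const_zero, add_zero, zero_add]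
      ring
    · conv_lhs => rw [hx]
      simp only [map_add, map_smul, map_sum, smul_eq_mul, ha0, hg2g1, e5, e6, hrg2, mul_zero,
        Finset.sum_const_zero, add_zero, zero_add]
      ring
  refine ⟨b, ?_, ?_, ?_⟩
  · rw [hbv, hv]; rfl
  · obtain ⟨h1, -, h3'⟩ := hcoord e
    have hfe : B f e = Real.sqrt (B e e) := by
      have h := congrArg (B f) hef
      rw [map_smul, smul_eq_mul, hff, mul_one] at h
      exact h
    have hge : B g2 e = 0 := by
      have h := congrArg (B g2) hef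
      rw [map_smul, smul_eq_mul, hg2f, mul_zero] at h
      exact h
    have hs : 0 < Real.sqrt (B e e) := Real.sqrt_pos.mpr hQ
    linarith
  · intro x
    obtain ⟨h1, h2', h3'⟩ := hcoord x
    rw [hquad x, h1, h2', h3']
    ring

end Abstract

open Matrix in
/-- **Lorentz normal form** of a real symmetric matrix of rank three whose quadratic form is
positive at `e` and nonpositive on the hyperplane orthogonal to `e`, adapted to a nonzero kernel
vector `a`: in the coordinates `c = L x` one has `L a = ε₀`, `(L e)₂ > 0` and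
`xᵀ S x = c₂ c₃ - c₁²`. -/
theorem lorentz_normal_form (k : ℕ) (S : Matrix (Fin (k + 4)) (Fin (k + 4)) ℝ) (hS : S.IsSymm)
    (hrank : S.rank = 3) (a e : Fin (k + 4) → ℝ) (ha : a ≠ 0) (hSa : S *ᵥ a = 0)
    (hQ : 0 < e ⬝ᵥ S *ᵥ e)
    (hneg : ∀ v : Fin (k + 4) → ℝ, e ⬝ᵥ S *ᵥ v = 0 → v ⬝ᵥ S *ᵥ v ≤ 0) :
    ∃ L M : Matrix (Fin (k + 4)) (Fin (k + 4)) ℝ, L * M = 1 ∧ M * L = 1 ∧
      L *ᵥ a = Pi.single 0 1 ∧ 0 < (L *ᵥ e) 2 ∧
      ∀ x : Fin (k + 4) → ℝ, x ⬝ᵥ S *ᵥ x = (L *ᵥ x) 2 * (L *ᵥ x) 3 - (L *ᵥ x) 1 ^ 2 := by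
  classical
  obtain ⟨B, hBapp⟩ : ∃ B : (Fin (k + 4) → ℝ) →ₗ[ℝ] (Fin (k + 4) → ℝ) →ₗ[ℝ] ℝ,
      ∀ u v, B u v = u ⬝ᵥ S *ᵥ v :=
    ⟨Matrix.toBilin' S, fun u v => Matrix.toBilin'_apply' S u v⟩
  have hsymm : ∀ u v, B u v = B v u := by
    intro u v
    rw [hBapp, hBapp, Matrix.dotProduct_mulVec, ← Matrix.mulVec_transpose, hS.eq,
      dotProduct_comm]
  obtain ⟨K, hKmem⟩ : ∃ K : Submodule ℝ (Fin (k + 4) → ℝ), K = LinearMap.ker S.mulVecLin :=
    ⟨_, rfl⟩
  have hKmem' : ∀ w, w ∈ K ↔ S *ᵥ w = 0 := fun w => by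
    rw [hKmem, LinearMap.mem_ker, Matrix.mulVecLin_apply]
  have hK : ∀ w, w ∈ K ↔ ∀ y, B w y = 0 := by
    intro w
    rw [hKmem']
    constructor
    · intro hw y
      rw [hsymm, hBapp, hw, dotProduct_zero]
    · intro h
      have h1 := h (S *ᵥ w)
      rw [hsymm, hBapp] at h1
      exact dotProduct_self_eq_zero.mp h1
  have hV : finrank ℝ (Fin (k + 4) → ℝ) = k + 4 := by
    rw [Module.finrank_fintype_fun_eq_card, Fintype.card_fin]
  have hKrank : finrank ℝ K = k + 1 := by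
    have h2 := LinearMap.finrank_range_add_finrank_ker S.mulVecLin
    have h3 : finrank ℝ (LinearMap.range S.mulVecLin) = 3 := hrank
    rw [h3, hV, ← hKmem] at h2
    omega
  obtain ⟨b, hb0, hbe, hbx⟩ := lnf_abstract k hV B hsymm K hK hKrank a e ha ((hKmem' a).mpr hSa)
    (by rw [hBapp]; exact hQ) (fun v hv => by rw [hBapp] at hv ⊢; exact hneg v hv)
  have hL : ∀ x : Fin (k + 4) → ℝ,
      b.toMatrix (Pi.basisFun ℝ (Fin (k + 4))) *ᵥ x = ⇑(b.repr x) := by
    intro x
    have h := Module.Basis.toMatrix_mulVec_repr (b := Pi.basisFun ℝ (Fin (k + 4))) (b' := b) x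
    have h2 : ⇑((Pi.basisFun ℝ (Fin (k + 4))).repr x) = x :=
      funext fun i => Pi.basisFun_repr (R := ℝ) (η := Fin (k + 4)) x i
    rw [h2] at h
    exact h
  refine ⟨b.toMatrix (Pi.basisFun ℝ (Fin (k + 4))), (Pi.basisFun ℝ (Fin (k + 4))).toMatrix b,
    Module.Basis.toMatrix_mul_toMatrix_flip _ _, Module.Basis.toMatrix_mul_toMatrix_flip _ _,
    ?_, ?_, ?_⟩
  · rw [hL, ← hb0, b.repr_self]
    ext i
    simp [Finsupp.single_apply, Pi.single_apply, eq_comm]
  · rw [hL]; exact hbe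
  · intro x
    rw [hL, ← hBapp]; exact hbx x

end Vale.Agent.H54
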