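import Mathlib

/-!
# A closure theorem for the zero-divisor property of group algebras

Support file for P201 (Kaplansky zero-divisor conjecture).
-/

namespace Vale.Agent.H54

open Finset

variable {K : Type*} [Semiring K]

/-- A coefficient of a product as a double sum over arbitrary finite supersets of the supports. -/
theorem coeff_mul_eq_sum {H : Type*} [Mul H] [DecidableEq H] (x y : MonoidAlgebra K H)
    (s t : Finset H) (hs : x.coeff.support ⊆ s) (ht : y.coeff.support ⊆ t) (g : H) :
    (x * y).coeff g =
      ∑ m₁ ∈ s, ∑ m₂ ∈ t, if m₁ * m₂ = g then x.coeff m₁ * y.coeff m₂ else 0 := by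
  rw [MonoidAlgebra.coeff_mul]
  rw [Finsupp.sum_of_support_subset _ hs _ (by intro i _; simp [Finsupp.sum])]
  refine Finset.sum_congr rfl fun m₁ _ => ?_
  rw [Finsupp.sum_of_support_subset _ ht _ (by intro i _; simp)]

/-- The part of `x` supported on the fibre of `φ` over `q`. -/
noncomputable def fib {H Q : Type*} (φ : H → Q) (q : Q) (x : MonoidAlgebra K H) :
    MonoidAlgebra K H :=
  open Classical in MonoidAlgebra.ofCoeff (x.coeff.filter (fun m => φ m = q))

theorem fib_coeff_of_eq {H Q : Type*} (φ : H → Q) (q : Q) (x : MonoidAlgebra K H) (m : H)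
    (h : φ m = q) : (fib φ q x).coeff m = x.coeff m := by
  classical
  simp [fib, h]

theorem fib_coeff_of_ne {H Q : Type*} (φ : H → Q) (q : Q) (x : MonoidAlgebra K H) (m : H)
    (h : φ m ≠ q) : (fib φ q x).coeff m = 0 := by
  classical
  simp [fib, h]

theorem fib_support_subset {H Q : Type*} (φ : H → Q) (q : Q) (x : MonoidAlgebra K H) :
    (fib φ q x).coeff.support ⊆ x.coeff.support := by
  classical
  intro m hm
  rw [Finsupp.mem_support_iff] at hm ⊢
  by_cases h : φ m = q
  · rwa [fib_coeff_of_eq φ q x m h] at hm
  · exact absurd (fib_coeff_of_ne φ q x m h) hm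

/-- Key reduction: a unique product among the images of the supports isolates a pair of fibres. -/
theorem fib_mul_fib_eq_zero {H Q : Type*} [Mul H] [Mul Q] [DecidableEq Q] (φ : H →ₙ* Q)
    (x y : MonoidAlgebra K H) (a0 b0 : Q)
    (hu : UniqueMul (x.coeff.support.image φ) (y.coeff.support.image φ) a0 b0)
    (hxy : x * y = 0) : fib φ a0 x * fib φ b0 y = 0 := by
  classical
  ext g
  suffices key : (fib φ a0 x * fib φ b0 y).coeff g = 0 by simpa using key
  rw [coeff_mul_eq_sum _ _ _ _ (fib_support_subset φ a0 x) (fib_support_subset φ b0 y) g]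
  have h0 : (x * y).coeff g = 0 := by rw [hxy]; rfl
  rw [coeff_mul_eq_sum x y _ _ subset_rfl subset_rfl g] at h0
  by_cases hg : φ g = a0 * b0
  · refine Eq.trans ?_ h0
    refine Finset.sum_congr rfl fun m₁ hm₁ => Finset.sum_congr rfl fun m₂ hm₂ => ?_
    by_cases hm : m₁ * m₂ = g
    · have h1 : φ m₁ * φ m₂ = a0 * b0 := by rw [← map_mul, hm, hg]
      obtain ⟨e1, e2⟩ := hu (mem_image_of_mem φ hm₁) (mem_image_of_mem φ hm₂) h1
      rw [if_pos hm, if_pos hm, fib_coeff_of_eq φ a0 x m₁ e1, fib_coeff_of_eq φ b0 y m₂ e2]
    · rw [if_neg hm, if_neg hm]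
  · refine Finset.sum_eq_zero fun m₁ hm₁ => Finset.sum_eq_zero fun m₂ hm₂ => ?_
    by_cases hm : m₁ * m₂ = g
    · rw [if_pos hm]
      by_cases e1 : φ m₁ = a0
      · by_cases e2 : φ m₂ = b0
        · exact absurd (by rw [← hm, map_mul, e1, e2]) hg
        · rw [fib_coeff_of_ne φ b0 y m₂ e2, mul_zero]
      · rw [fib_coeff_of_ne φ a0 x m₁ e1, zero_mul]
    · rw [if_neg hm]

variable {G : Type*} [Group G]

/-- The inclusion `K[H] → K[G]` for a subgroup `H` of `G`. -/
noncomputable abbrev incl (K : Type*) [Semiring K] (H : Subgroup G) :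
    MonoidAlgebra K H →+* MonoidAlgebra K G :=
  MonoidAlgebra.mapDomainRingHom K H.subtype

theorem incl_injective (H : Subgroup G) : Function.Injective (incl K H) :=
  MonoidAlgebra.mapDomain_injective Subtype.val_injective

theorem incl_coeff (H : Subgroup G) (x : MonoidAlgebra K H) (m : H) :
    (incl K H x).coeff (m : G) = x.coeff m :=
  Finsupp.mapDomain_apply Subtype.val_injective _ _

theorem incl_card_support (H : Subgroup G) (x : MonoidAlgebra K H) :
    (incl K H x).coeff.support.card = x.coeff.support.card := by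
  classical
  have : (incl K H x).coeff.support = x.coeff.support.image Subtype.val :=
    Finsupp.mapDomain_support_of_injective Subtype.val_injective _
  rw [this, Finset.card_image_of_injective _ Subtype.val_injective]

theorem exists_incl_eq (H : Subgroup G) (x : MonoidAlgebra K G)
    (hx : ∀ m ∈ x.coeff.support, m ∈ H) : ∃ x₀ : MonoidAlgebra K H, incl K H x₀ = x :=
  ⟨MonoidAlgebra.comapDomain H.subtype Subtype.val_injective x,
    MonoidAlgebra.mapDomain_comapDomain (fun m hm => ⟨⟨m, hx m hm⟩, rfl⟩) _⟩

theorem card_support_single_mul (g : G) (x : MonoidAlgebra K G) :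
    (MonoidAlgebra.single g (1 : K) * x).coeff.support.card = x.coeff.support.card := by
  classical
  have : (MonoidAlgebra.single g (1 : K) * x).coeff.support
      = x.coeff.support.image (fun m => g * m) := by
    ext m
    simp only [Finsupp.mem_support_iff, MonoidAlgebra.coeff_single_mul_apply, one_mul,
      Finset.mem_image]
    constructor
    · intro h; exact ⟨g⁻¹ * m, h, by simp⟩
    · rintro ⟨m', h, rfl⟩; simpa using h
  rw [this, Finset.card_image_of_injective _ (mul_right_injective g)]

theorem card_support_mul_single (g : G) (x : MonoidAlgebra K G) :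
    (x * MonoidAlgebra.single g (1 : K)).coeff.support.card = x.coeff.support.card := by
  classical
  have : (x * MonoidAlgebra.single g (1 : K)).coeff.support
      = x.coeff.support.image (fun m => m * g) := by
    ext m
    simp only [Finsupp.mem_support_iff, MonoidAlgebra.coeff_mul_single_apply, mul_one,
      Finset.mem_image]
    constructor
    · intro h; exact ⟨m * g⁻¹, h, by simp⟩
    · rintro ⟨m', h, rfl⟩; simpa using h
  rw [this, Finset.card_image_of_injective _ (mul_left_injective g)]

theorem exists_coeff_ne_zero {H : Type*} (x : MonoidAlgebra K H) (hx : x ≠ 0) :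
    ∃ g, x.coeff g ≠ 0 := by
  by_contra hcon
  rw [not_exists] at hcon
  exact hx (by ext g; simpa using not_not.mp (hcon g))

/-- **Closure theorem.** If every finitely generated subgroup `H` of `G` either has a group
algebra `K[H]` without zero divisors, or has a proper normal subgroup with unique-product
quotient, then `K[G]` has no zero divisors. -/
theorem noZeroDivisors_of_fg_subgroups
    (h : ∀ H : Subgroup G, H.FG →
      NoZeroDivisors (MonoidAlgebra K H) ∨
        ∃ N : Subgroup H, ∃ _ : N.Normal, N ≠ ⊤ ∧ UniqueProds (H ⧸ N)) :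
    NoZeroDivisors (MonoidAlgebra K G) := by
  classical
  have main : ∀ n : ℕ, ∀ x y : MonoidAlgebra K G, x ≠ 0 → y ≠ 0 →
      x.coeff.support.card + y.coeff.support.card = n → x * y ≠ 0 := by
    intro n
    induction n using Nat.strong_induction_on with
    | _ n ih =>
    intro x y hx hy hn hxy
    obtain ⟨g, hg⟩ := exists_coeff_ne_zero x hx
    obtain ⟨k, hk⟩ := exists_coeff_ne_zero y hy
    set x' := MonoidAlgebra.single g⁻¹ (1 : K) * x with hx'
    set y' := y * MonoidAlgebra.single k⁻¹ (1 : K) with hy'
    have hx'1 : x'.coeff 1 ≠ 0 := by simpa [hx'] using hg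
    have hy'1 : y'.coeff 1 ≠ 0 := by simpa [hy'] using hk
    have hx'y' : x' * y' = 0 := by
      rw [hx', hy', mul_assoc, ← mul_assoc x, hxy]; simp
    have cx : x'.coeff.support.card = x.coeff.support.card := card_support_single_mul _ _
    have cy : y'.coeff.support.card = y.coeff.support.card := card_support_mul_single _ _
    let S : Finset G := x'.coeff.support ∪ y'.coeff.support
    let H : Subgroup G := Subgroup.closure (S : Set G)
    have hHfg : H.FG := ⟨S, rfl⟩
    have hxH : ∀ m ∈ x'.coeff.support, m ∈ H := fun m hm =>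
      Subgroup.subset_closure (Finset.mem_coe.mpr (Finset.mem_union_left _ hm))
    have hyH : ∀ m ∈ y'.coeff.support, m ∈ H := fun m hm =>
      Subgroup.subset_closure (Finset.mem_coe.mpr (Finset.mem_union_right _ hm))
    obtain ⟨x₀, hx₀⟩ := exists_incl_eq H x' hxH
    obtain ⟨y₀, hy₀⟩ := exists_incl_eq H y' hyH
    have hx₀y₀ : x₀ * y₀ = 0 :=
      incl_injective H (by rw [map_mul, hx₀, hy₀, hx'y', map_zero])
    have hx₀1 : x₀.coeff 1 ≠ 0 := by
      rw [← incl_coeff H x₀ 1, hx₀]; exact hx'1
    have hy₀1 : y₀.coeff 1 ≠ 0 := by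
      rw [← incl_coeff H y₀ 1, hy₀]; exact hy'1
    have cx₀ : x₀.coeff.support.card = x.coeff.support.card := by
      rw [← incl_card_support H x₀, hx₀, cx]
    have cy₀ : y₀.coeff.support.card = y.coeff.support.card := by
      rw [← incl_card_support H y₀, hy₀, cy]
    rcases h H hHfg with hnzd | ⟨N, hN, hNtop, hUP⟩
    · rcases hnzd.eq_zero_or_eq_zero_of_mul_eq_zero hx₀y₀ with h0 | h0
      · exact hx₀1 (by rw [h0]; rfl)
      · exact hy₀1 (by rw [h0]; rfl)
    · let π : H →* H ⧸ N := QuotientGroup.mk' N
      have hA : (x₀.coeff.support.image π).Nonempty :=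
        ⟨π 1, mem_image_of_mem _ (Finsupp.mem_support_iff.mpr hx₀1)⟩
      have hB : (y₀.coeff.support.image π).Nonempty :=
        ⟨π 1, mem_image_of_mem _ (Finsupp.mem_support_iff.mpr hy₀1)⟩
      obtain ⟨a0, ha0, b0, hb0, hu⟩ := UniqueProds.uniqueMul_of_nonempty hA hB
      have h1 : fib π a0 x₀ * fib π b0 y₀ = 0 :=
        fib_mul_fib_eq_zero (π : H →ₙ* H ⧸ N) x₀ y₀ a0 b0 hu hx₀y₀
      obtain ⟨m₁, hm₁, hm₁a⟩ := mem_image.mp ha0
      obtain ⟨m₂, hm₂, hm₂b⟩ := mem_image.mp hb0
      have hf1 : fib π a0 x₀ ≠ 0 := fun h0 => by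
        have := fib_coeff_of_eq π a0 x₀ m₁ hm₁a
        rw [h0] at this
        exact (Finsupp.mem_support_iff.mp hm₁) this.symm
      have hf2 : fib π b0 y₀ ≠ 0 := fun h0 => by
        have := fib_coeff_of_eq π b0 y₀ m₂ hm₂b
        rw [h0] at this
        exact (Finsupp.mem_support_iff.mp hm₂) this.symm
      have le1 := Finset.card_le_card (fib_support_subset π a0 x₀)
      have le2 := Finset.card_le_card (fib_support_subset π b0 y₀)
      by_cases hlt : (fib π a0 x₀).coeff.support.card + (fib π b0 y₀).coeff.support.card < n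
      · refine ih _ hlt (incl K H (fib π a0 x₀)) (incl K H (fib π b0 y₀)) ?_ ?_ ?_ ?_
        · exact fun h0 => hf1 (incl_injective H (by rw [h0, map_zero]))
        · exact fun h0 => hf2 (incl_injective H (by rw [h0, map_zero]))
        · rw [incl_card_support, incl_card_support]
        · rw [← map_mul, h1, map_zero]
      · have e1 : (fib π a0 x₀).coeff.support = x₀.coeff.support :=
          Finset.eq_of_subset_of_card_le (fib_support_subset π a0 x₀) (by omega)
        have e2 : (fib π b0 y₀).coeff.support = y₀.coeff.support :=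
          Finset.eq_of_subset_of_card_le (fib_support_subset π b0 y₀) (by omega)
        have p1 : ∀ m ∈ x₀.coeff.support, π m = a0 := by
          intro m hm
          by_contra hne
          rw [← e1, Finsupp.mem_support_iff] at hm
          exact hm (fib_coeff_of_ne π a0 x₀ m hne)
        have p2 : ∀ m ∈ y₀.coeff.support, π m = b0 := by
          intro m hm
          by_contra hne
          rw [← e2, Finsupp.mem_support_iff] at hm
          exact hm (fib_coeff_of_ne π b0 y₀ m hne)
        have a1 : a0 = 1 := by
          rw [← p1 1 (Finsupp.mem_support_iff.mpr hx₀1)]; exact map_one π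
        have b1 : b0 = 1 := by
          rw [← p2 1 (Finsupp.mem_support_iff.mpr hy₀1)]; exact map_one π
        have q1 : ∀ m ∈ x₀.coeff.support, m ∈ N := fun m hm =>
          (QuotientGroup.eq_one_iff m).mp ((p1 m hm).trans a1)
        have q2 : ∀ m ∈ y₀.coeff.support, m ∈ N := fun m hm =>
          (QuotientGroup.eq_one_iff m).mp ((p2 m hm).trans b1)
        have hle : H ≤ N.map H.subtype := by
          refine (Subgroup.closure_le _).mpr ?_
          intro s hs
          rcases Finset.mem_union.mp (Finset.mem_coe.mp hs) with hs | hs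
          · have hsH := hxH s hs
            refine ⟨⟨s, hsH⟩, q1 _ ?_, rfl⟩
            rw [Finsupp.mem_support_iff, ← incl_coeff H x₀ ⟨s, hsH⟩, hx₀]
            exact Finsupp.mem_support_iff.mp hs
          · have hsH := hyH s hs
            refine ⟨⟨s, hsH⟩, q2 _ ?_, rfl⟩
            rw [Finsupp.mem_support_iff, ← incl_coeff H y₀ ⟨s, hsH⟩, hy₀]
            exact Finsupp.mem_support_iff.mp hs
        apply hNtop
        rw [eq_top_iff]
        intro m _
        obtain ⟨n', hn', hnm⟩ := hle m.2
        have : n' = m := Subtype.ext hnm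
        rwa [← this]
  refine ⟨fun {x y} hxy => ?_⟩
  by_contra hcon
  rw [not_or] at hcon
  exact main _ x y hcon.1 hcon.2 rfl hxy

/-- **Extension form.** If `N` is a normal subgroup of `G` such that `K[N]` has no zero divisors
and `G ⧸ N` has the unique-product property, then `K[G]` has no zero divisors. -/
theorem noZeroDivisors_of_normal_of_uniqueProds (N : Subgroup G) [N.Normal]
    [NoZeroDivisors (MonoidAlgebra K N)] [UniqueProds (G ⧸ N)] :
    NoZeroDivisors (MonoidAlgebra K G) := by
  refine noZeroDivisors_of_fg_subgroups fun H _ => ?_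
  by_cases hH : H ≤ N
  · left
    exact Function.Injective.noZeroDivisors
      (MonoidAlgebra.mapDomainRingHom K (Subgroup.inclusion hH))
      (MonoidAlgebra.mapDomain_injective (Subgroup.inclusion_injective hH))
      (map_zero _) (map_mul _)
  · right
    refine ⟨N.subgroupOf H, inferInstance, ?_, ?_⟩
    · intro htop
      exact hH (Subgroup.subgroupOf_eq_top.mp htop)
    · let f : H ⧸ N.subgroupOf H →* G ⧸ N :=
        QuotientGroup.map (N.subgroupOf H) N H.subtype (le_refl _)
      have hf : Function.Injective f := by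
        rw [injective_iff_map_eq_one]
        intro q
        induction q using QuotientGroup.induction_on with
        | H m =>
          intro hq
          have hq' : ((H.subtype m : G) : G ⧸ N) = 1 := hq
          rw [QuotientGroup.eq_one_iff] at hq'
          exact (QuotientGroup.eq_one_iff m).mpr (Subgroup.mem_subgroupOf.mpr hq')
      exact UniqueProds.of_injective_mulHom (f : H ⧸ N.subgroupOf H →ₙ* G ⧸ N) hf inferInstance

end Vale.Agent.H54
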